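import Vale.Agent.Lib.P154.Ineq4.Basic

/-!
# P154, `q = 4`: parametrisation of normalised vectors and the region of the invariants
-/

namespace Vale.Agent.Lib.P154.Q4

open scoped BigOperators

/-- `y` is, up to order, `(1 - r, 1 + r x₀, 1 + r x₁, 1 + r x₂)` -/
theorem exists_face (y : Fin 4 → ℝ) (hy : Nrm y) (hne : ∃ i, y i ≠ 1) :
    ∃ (r : ℝ) (x : Fin 3 → ℝ), 0 < r ∧ r ≤ 1 ∧ (∀ i, -1 ≤ x i) ∧ ∑ i, x i = 1 ∧
      (∀ F : ℝ → ℝ, ∑ i, F (y i) = F (1 - r) + ∑ i, F (1 + r * x i)) ∧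
      (∀ i, 1 - r ≤ y i) := by
  obtain ⟨h0, h4⟩ := hy
  obtain ⟨p, -, hp⟩ := Finset.exists_min_image Finset.univ y ⟨0, Finset.mem_univ _⟩
  have hmin : ∀ i, y p ≤ y i := fun i => hp i (Finset.mem_univ i)
  have hlt : y p < 1 := by
    by_contra hge
    have hge' : 1 ≤ y p := not_lt.1 hge
    obtain ⟨i, hi⟩ := hne
    have h1 : ∀ j, 1 ≤ y j := fun j => hge'.trans (hmin j)
    have h2 : 1 < y i := lt_of_le_of_ne (h1 i) (Ne.symm hi)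
    have h3 : ∑ _j : Fin 4, (1 : ℝ) < ∑ j, y j :=
      Finset.sum_lt_sum (fun j _ => h1 j) ⟨i, Finset.mem_univ i, h2⟩
    rw [h4] at h3
    simp at h3
  set r := 1 - y p with hr
  have hr0 : 0 < r := by rw [hr]; linarith
  have hyr : ∀ j : Fin 3, 1 + r * ((y (p.succAbove j) - 1) / r) = y (p.succAbove j) := by
    intro j
    field_simp
    ring
  refine ⟨r, fun j => (y (p.succAbove j) - 1) / r, hr0, by rw [hr]; linarith [h0 p], ?_, ?_, ?_, ?_⟩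
  · intro j
    rw [le_div_iff₀ hr0, hr]
    linarith [hmin (p.succAbove j)]
  · rw [← Finset.sum_div, div_eq_one_iff_eq hr0.ne', Finset.sum_sub_distrib]
    rw [Fin.sum_univ_succAbove y p] at h4
    simp only [Finset.sum_const, Finset.card_univ, Fintype.card_fin, nsmul_eq_mul, mul_one]
    push_cast
    rw [hr]
    linarith
  · intro F
    rw [Fin.sum_univ_succAbove (fun i => F (y i)) p]
    simp only [hyr]
    congr 2
    rw [hr]; ring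
  · intro i
    rw [hr]
    linarith [hmin i]

noncomputable def xQ (x : Fin 3 → ℝ) : ℝ := (1 + ∑ i, x i ^ 2) / 4
noncomputable def xs (x : Fin 3 → ℝ) : ℝ := (-1 + ∑ i, x i ^ 3) / 24

theorem I2_face (y : Fin 4 → ℝ) (r : ℝ) (x : Fin 3 → ℝ) (hx : ∑ i, x i = 1)
    (hF : ∀ F : ℝ → ℝ, ∑ i, F (y i) = F (1 - r) + ∑ i, F (1 + r * x i)) :
    I2 y = r ^ 2 * xQ x ∧ I3 y = r ^ 3 * xs x ∧
    I4 y = r ^ 4 * ((xQ x ^ 2 + 2 * xQ x - 1 - 8 * xs x) / 2) := by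
  have h2 := hF (fun t => (t - 1) ^ 2)
  have h3 := hF (fun t => (t - 1) ^ 3)
  have h4 := hF (fun t => (t - 1) ^ 4)
  rw [Fin.sum_univ_three] at hx
  have hx2 : x 2 = 1 - x 0 - x 1 := by linarith
  unfold I4 I2 I3 xQ xs
  rw [h2, h3, h4]
  simp only [Fin.sum_univ_three]
  rw [hx2]
  refine ⟨?_, ?_, ?_⟩ <;> ring

theorem xQ_bounds (x : Fin 3 → ℝ) (hx : ∑ i, x i = 1) (h : ∀ i, -1 ≤ x i) :
    1 / 3 ≤ xQ x ∧ xQ x ≤ 3 := by
  have h0 := h 0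
  have h1 := h 1
  have h2 := h 2
  unfold xQ
  rw [Fin.sum_univ_three] at hx ⊢
  have hx2 : x 2 = 1 - x 0 - x 1 := by linarith
  rw [hx2] at h2 ⊢
  constructor
  · nlinarith [sq_nonneg (x 0 - x 1), sq_nonneg (x 0 + x 1 - 2 / 3)]
  · nlinarith [mul_nonneg (sub_nonneg.2 h0) (sub_nonneg.2 h1),
      mul_nonneg (sub_nonneg.2 h0) (sub_nonneg.2 h2), mul_nonneg (sub_nonneg.2 h1) (sub_nonneg.2 h2)]

/-- all coordinates satisfy the quadratic inequality (the other two are real) -/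
theorem x_quad (x : Fin 3 → ℝ) (hx : ∑ i, x i = 1) (i : Fin 3) :
    3 * x i ^ 2 - 2 * x i + 3 ≤ 8 * xQ x := by
  unfold xQ
  rw [Fin.sum_univ_three] at hx ⊢
  have hx2 : x 2 = 1 - x 0 - x 1 := by linarith
  fin_cases i
  · simp only [Fin.zero_eta]
    rw [hx2]
    nlinarith [sq_nonneg (x 1 - (1 - x 0 - x 1))]
  · simp only [Fin.mk_one]
    rw [hx2]
    nlinarith [sq_nonneg (x 0 - (1 - x 0 - x 1))]
  · simp only [Fin.reduceFinMk]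
    rw [hx2]
    nlinarith [sq_nonneg (x 0 - x 1)]

/-- `8 xs` through one coordinate -/
theorem xs_coord (x : Fin 3 → ℝ) (hx : ∑ i, x i = 1) (i : Fin 3) :
    8 * xs x = (x i - 1) * (1 + x i ^ 2 - 2 * xQ x) := by
  unfold xQ xs
  rw [Fin.sum_univ_three] at hx
  simp only [Fin.sum_univ_three]
  have hx2 : x 2 = 1 - x 0 - x 1 := by linarith
  fin_cases i
  · simp only [Fin.zero_eta]
    rw [hx2]
    ring
  · simp only [Fin.mk_one]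
    rw [hx2]
    ring
  · simp only [Fin.reduceFinMk]
    rw [hx2]
    ring

theorem xs_low1 (x : Fin 3 → ℝ) (hx : ∑ i, x i = 1) (h : ∀ i, -1 ≤ x i) :
    (xQ x - 1) / 2 ≤ xs x := by
  have h0 := h 0
  have h1 := h 1
  have h2 := h 2
  unfold xQ xs
  rw [Fin.sum_univ_three] at hx
  simp only [Fin.sum_univ_three]
  have hx2 : x 2 = 1 - x 0 - x 1 := by linarith
  rw [hx2] at h2 ⊢
  nlinarith [mul_nonneg (mul_nonneg (sub_nonneg.2 h0) (sub_nonneg.2 h1)) (sub_nonneg.2 h2)]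

theorem exists_le_third (x : Fin 3 → ℝ) (hx : ∑ i, x i = 1) : ∃ i, x i ≤ 1 / 3 := by
  by_contra hcon
  push Not at hcon
  have h0 := hcon 0
  have h1 := hcon 1
  have h2 := hcon 2
  rw [Fin.sum_univ_three] at hx
  linarith

theorem exists_third_le (x : Fin 3 → ℝ) (hx : ∑ i, x i = 1) : ∃ i, 1 / 3 ≤ x i := by
  by_contra hcon
  push Not at hcon
  have h0 := hcon 0
  have h1 := hcon 1
  have h2 := hcon 2
  rw [Fin.sum_univ_three] at hx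
  linarith

/-- monotonicity in `Q` -/
theorem low_mono {b Q Q' κ : ℝ} (hb : b ≤ 1 / 3) (hQ : 1 / 3 ≤ Q) (hQQ : Q ≤ Q')
    (hκ0 : 0 ≤ κ) (hκ : κ ≤ 1 / 12) (hF : 0 ≤ (b - 1) * (1 + b ^ 2 - 2 * Q) + 8 * κ * (1 - Q) ^ 2) :
    0 ≤ (b - 1) * (1 + b ^ 2 - 2 * Q') + 8 * κ * (1 - Q') ^ 2 := by
  have h1 : (b - 1) * (1 + b ^ 2 - 2 * Q') + 8 * κ * (1 - Q') ^ 2 =
      ((b - 1) * (1 + b ^ 2 - 2 * Q) + 8 * κ * (1 - Q) ^ 2) +
        (Q' - Q) * (2 * (1 - b) - 8 * κ * (2 - Q - Q')) := by ring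
  rw [h1]
  have h2 : 8 * κ * (2 - Q - Q') ≤ 8 * κ * (4 / 3) :=
    mul_le_mul_of_nonneg_left (by linarith) (by linarith)
  have h3 : 0 ≤ 2 * (1 - b) - 8 * κ * (2 - Q - Q') := by linarith
  have h4 := mul_nonneg (sub_nonneg.2 hQQ) h3
  linarith

/-- value at the double root -/
theorem low_double {b κ : ℝ} (hF : 0 ≤ κ * (5 - 3 * b) ^ 2 - 2 * (1 - b)) :
    0 ≤ (b - 1) * (1 + b ^ 2 - 2 * ((3 * b ^ 2 - 2 * b + 3) / 8)) +
      8 * κ * (1 - (3 * b ^ 2 - 2 * b + 3) / 8) ^ 2 := by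
  have h1 : (b - 1) * (1 + b ^ 2 - 2 * ((3 * b ^ 2 - 2 * b + 3) / 8)) +
      8 * κ * (1 - (3 * b ^ 2 - 2 * b + 3) / 8) ^ 2 =
      (1 + b) ^ 2 / 8 * (κ * (5 - 3 * b) ^ 2 - 2 * (1 - b)) := by ring
  rw [h1]
  positivity

/-- lower region bound for `Q ≤ 1`; instances `(Q0, κ)` below -/
theorem xs_low_kappa (x : Fin 3 → ℝ) (hx : ∑ i, x i = 1) (h : ∀ i, -1 ≤ x i) (_hQ1 : xQ x ≤ 1) :
    -(1 / 12) * (1 - xQ x) ^ 2 ≤ xs x ∧
    (9 / 16 ≤ xQ x → -(19 / 256) * (1 - xQ x) ^ 2 ≤ xs x) ∧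
    (13 / 16 ≤ xQ x → -(17 / 256) * (1 - xQ x) ^ 2 ≤ xs x) := by
  obtain ⟨i, hi⟩ := exists_le_third x hx
  have hc := xs_coord x hx i
  have hq := x_quad x hx i
  have hm1 := h i
  have hQb := (xQ_bounds x hx h).1
  generalize x i = b at *
  generalize xQ x = Q at *
  generalize xs x = s at *
  have hQb' : 1 / 3 ≤ (3 * b ^ 2 - 2 * b + 3) / 8 := by nlinarith [sq_nonneg (b - 1 / 3)]
  refine ⟨?_, fun hQ => ?_, fun hQ => ?_⟩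
  · have h1 : 0 ≤ (b - 1) * (1 + b ^ 2 - 2 * Q) + 8 * (1 / 12) * (1 - Q) ^ 2 :=
      low_mono hi hQb' (by linarith) (by norm_num) le_rfl
        (low_double (by nlinarith [sq_nonneg (b - 1 / 3)]))
    linarith
  · have h1 : 0 ≤ (b - 1) * (1 + b ^ 2 - 2 * Q) + 8 * (19 / 256) * (1 - Q) ^ 2 := by
      rcases le_total (9 / 16) ((3 * b ^ 2 - 2 * b + 3) / 8) with h2 | h2
      · have hb : b ≤ -(2 / 5) := by
          by_contra hcon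
          push Not at hcon
          nlinarith [mul_nonneg (sub_nonneg.2 hcon.le) (sub_nonneg.2 hi)]
        have h3 : 0 ≤ (-(2 / 5) - b) * (b + 1) := mul_nonneg (by linarith) (by linarith)
        exact low_mono hi hQb' (by linarith) (by norm_num) (by norm_num)
          (low_double (by nlinarith))
      · refine low_mono hi (by norm_num : (1 : ℝ) / 3 ≤ 9 / 16) hQ (by norm_num) (by norm_num) ?_
        have hb : -(9 / 20) ≤ b := by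
          by_contra hcon
          push Not at hcon
          nlinarith
        nlinarith [mul_nonneg (sub_nonneg.2 hb) (sub_nonneg.2 hi),
          mul_nonneg (mul_nonneg (sub_nonneg.2 hb) (sub_nonneg.2 hi)) (sub_nonneg.2 hb),
          mul_nonneg (mul_nonneg (sub_nonneg.2 hb) (sub_nonneg.2 hi)) (sub_nonneg.2 hi)]
    linarith
  · have h1 : 0 ≤ (b - 1) * (1 + b ^ 2 - 2 * Q) + 8 * (17 / 256) * (1 - Q) ^ 2 := by
      rcases le_total (13 / 16) ((3 * b ^ 2 - 2 * b + 3) / 8) with h2 | h2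
      · have hb : b ≤ -(79 / 100) := by
          by_contra hcon
          push Not at hcon
          nlinarith [mul_nonneg (sub_nonneg.2 hcon.le) (sub_nonneg.2 hi)]
        have h3 : 0 ≤ (-(79 / 100) - b) * (b + 1) := mul_nonneg (by linarith) (by linarith)
        exact low_mono hi hQb' (by linarith) (by norm_num) (by norm_num)
          (low_double (by nlinarith))
      · refine low_mono hi (by norm_num : (1 : ℝ) / 3 ≤ 13 / 16) hQ (by norm_num) (by norm_num) ?_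
        have hb : -(7971 / 10000) ≤ b := by
          by_contra hcon
          push Not at hcon
          nlinarith
        nlinarith [mul_nonneg (sub_nonneg.2 hb) (sub_nonneg.2 hi),
          mul_nonneg (mul_nonneg (sub_nonneg.2 hb) (sub_nonneg.2 hi)) (sub_nonneg.2 hb),
          mul_nonneg (mul_nonneg (sub_nonneg.2 hb) (sub_nonneg.2 hi)) (sub_nonneg.2 hi)]
    linarith

/-- chords of the upper curve: `(Q0, Q1, u0, u1)` -/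
def chords : List (ℚ × ℚ × ℚ × ℚ) :=
  [(1/3, 9/16, -1/27, 5/256), (9/16, 13/16, 5/256, 23/256), (13/16, 1, 23/256, 19/128),
   (1, 5/4, 19/128, 61/256), (5/4, 13/8, 61/256, 97/256), (13/8, 9/4, 97/256, 165/256),
   (9/4, 3, 165/256, 1), (9/16, 1, 5/256, 19/128), (1, 3/2, 19/128, 85/256),
   (3/2, 9/4, 85/256, 165/256)]

/-- the chord inequality from three one-variable inequalities -/
theorem chord_gen {Q0 Q1 u0 m c Q : ℝ} (hQ0 : Q0 ≤ Q) (hQ1 : Q ≤ Q1)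
    (hA : 3 * c ^ 2 - 2 * c + 3 ≤ 8 * Q) (hm : 0 ≤ m)
    (H1 : 3 * c ^ 2 - 2 * c + 3 ≤ 8 * Q0 → (c - 1) * (1 + c ^ 2 - 2 * Q0) ≤ 8 * u0)
    (H2 : 8 * Q0 ≤ 3 * c ^ 2 - 2 * c + 3 → 3 * c ^ 2 - 2 * c + 3 ≤ 8 * Q1 →
      0 ≤ 8 * u0 - 8 * m * Q0 + m * (3 * c ^ 2 - 2 * c + 3) - (c - 1) * (c + 1) ^ 2 / 4)
    (H3 : c ≤ 1 → (c - 1) * (1 + c ^ 2 - 2 * Q1) ≤ 8 * (u0 + m * (Q1 - Q0))) :
    (c - 1) * (1 + c ^ 2 - 2 * Q) ≤ 8 * (u0 + m * (Q - Q0)) := by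
  rcases le_total 0 (8 * m + 2 * (c - 1)) with hσ | hσ
  · rcases le_total (3 * c ^ 2 - 2 * c + 3) (8 * Q0) with h1 | h1
    · have h2 := H1 h1
      have h3 := mul_nonneg hσ (sub_nonneg.2 hQ0)
      nlinarith
    · have h2 := H2 h1 (by linarith)
      have h3 := mul_nonneg hσ (sub_nonneg.2 hA)
      nlinarith
  · have h2 := H3 (by linarith)
    have h3 := mul_nonneg (neg_nonneg.2 hσ) (sub_nonneg.2 hQ1)
    nlinarith

theorem up1 {c Q s : ℝ} (hc : 1 / 3 ≤ c) (hs : 8 * s = (c - 1) * (1 + c ^ 2 - 2 * Q))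
    (hA : 3 * c ^ 2 - 2 * c + 3 ≤ 8 * Q) (hQ0 : (1 / 3 : ℝ) ≤ Q) (hQ1 : Q ≤ (9 / 16 : ℝ)) :
    s ≤ (-(1 / 27) : ℝ) + (391 / 1584 : ℝ) * (Q - (1 / 3 : ℝ)) := by
  have key := chord_gen (Q0 := (1 / 3 : ℝ)) (Q1 := (9 / 16 : ℝ)) (u0 := (-(1 / 27) : ℝ)) (m := (391 / 1584 : ℝ)) hQ0 hQ1 hA
    (by norm_num) ?_ ?_ ?_
  · linarith
  · intro hB
    have hr : c ≤ (1 / 3 : ℝ) := by nlinarith
    nlinarith [mul_nonneg (sub_nonneg.2 hc) (sub_nonneg.2 hB)]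
  · intro hB1 hB2
    have hhi : c ≤ (279 / 250 : ℝ) := by nlinarith
    nlinarith [mul_nonneg (sub_nonneg.2 hhi) (sq_nonneg (c - 1 / 3)), sq_nonneg (c - 1 / 3)]
  · intro hc1
    nlinarith [mul_nonneg (sub_nonneg.2 hc) (sub_nonneg.2 hc1),
      mul_nonneg (mul_nonneg (sub_nonneg.2 hc) (sub_nonneg.2 hc1)) (sub_nonneg.2 hc)]

theorem up2 {c Q s : ℝ} (hc : 1 / 3 ≤ c) (hs : 8 * s = (c - 1) * (1 + c ^ 2 - 2 * Q))
    (hA : 3 * c ^ 2 - 2 * c + 3 ≤ 8 * Q) (hQ0 : (9 / 16 : ℝ) ≤ Q) (hQ1 : Q ≤ (13 / 16 : ℝ)) :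
    s ≤ (5 / 256 : ℝ) + (9 / 32 : ℝ) * (Q - (9 / 16 : ℝ)) := by
  have key := chord_gen (Q0 := (9 / 16 : ℝ)) (Q1 := (13 / 16 : ℝ)) (u0 := (5 / 256 : ℝ)) (m := (9 / 32 : ℝ)) hQ0 hQ1 hA
    (by norm_num) ?_ ?_ ?_
  · linarith
  · intro hB
    have hr : c ≤ (279 / 250 : ℝ) := by nlinarith
    nlinarith [mul_nonneg (sub_nonneg.2 hc) (sub_nonneg.2 hB)]
  · intro hB1 hB2
    have hlo : (223 / 200 : ℝ) ≤ c := by nlinarith
    have hhi : c ≤ (183 / 125 : ℝ) := by nlinarith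
    nlinarith [mul_nonneg (mul_nonneg (sub_nonneg.2 hlo) (sub_nonneg.2 hhi)) (sub_nonneg.2 hlo),
      mul_nonneg (sub_nonneg.2 hlo) (sub_nonneg.2 hhi)]
  · intro hc1
    nlinarith [mul_nonneg (sub_nonneg.2 hc) (sub_nonneg.2 hc1),
      mul_nonneg (mul_nonneg (sub_nonneg.2 hc) (sub_nonneg.2 hc1)) (sub_nonneg.2 hc)]

theorem up3 {c Q s : ℝ} (hc : 1 / 3 ≤ c) (hs : 8 * s = (c - 1) * (1 + c ^ 2 - 2 * Q))
    (hA : 3 * c ^ 2 - 2 * c + 3 ≤ 8 * Q) (hQ0 : (13 / 16 : ℝ) ≤ Q) (hQ1 : Q ≤ (1 : ℝ)) :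
    s ≤ (23 / 256 : ℝ) + (5 / 16 : ℝ) * (Q - (13 / 16 : ℝ)) := by
  have key := chord_gen (Q0 := (13 / 16 : ℝ)) (Q1 := (1 : ℝ)) (u0 := (23 / 256 : ℝ)) (m := (5 / 16 : ℝ)) hQ0 hQ1 hA
    (by norm_num) ?_ ?_ ?_
  · linarith
  · intro hB
    have hr : c ≤ (183 / 125 : ℝ) := by nlinarith
    nlinarith [mul_nonneg (sub_nonneg.2 hc) (sub_nonneg.2 hB)]
  · intro hB1 hB2
    have hlo : (1463 / 1000 : ℝ) ≤ c := by nlinarith
    have hhi : c ≤ (5 / 3 : ℝ) := by nlinarith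
    nlinarith [mul_nonneg (mul_nonneg (sub_nonneg.2 hlo) (sub_nonneg.2 hhi)) (sub_nonneg.2 hlo),
      mul_nonneg (sub_nonneg.2 hlo) (sub_nonneg.2 hhi)]
  · intro hc1
    nlinarith [mul_nonneg (sub_nonneg.2 hc) (sub_nonneg.2 hc1),
      mul_nonneg (mul_nonneg (sub_nonneg.2 hc) (sub_nonneg.2 hc1)) (sub_nonneg.2 hc)]

theorem up4 {c Q s : ℝ} (hc : 1 / 3 ≤ c) (hs : 8 * s = (c - 1) * (1 + c ^ 2 - 2 * Q))
    (hA : 3 * c ^ 2 - 2 * c + 3 ≤ 8 * Q) (hQ0 : (1 : ℝ) ≤ Q) (hQ1 : Q ≤ (5 / 4 : ℝ)) :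
    s ≤ (19 / 128 : ℝ) + (23 / 64 : ℝ) * (Q - (1 : ℝ)) := by
  have key := chord_gen (Q0 := (1 : ℝ)) (Q1 := (5 / 4 : ℝ)) (u0 := (19 / 128 : ℝ)) (m := (23 / 64 : ℝ)) hQ0 hQ1 hA
    (by norm_num) ?_ ?_ ?_
  · linarith
  · intro hB
    have hr : c ≤ (5 / 3 : ℝ) := by nlinarith
    nlinarith [mul_nonneg (sub_nonneg.2 hc) (sub_nonneg.2 hB)]
  · intro hB1 hB2
    have hlo : (5 / 3 : ℝ) ≤ c := by nlinarith
    have hhi : c ≤ (1897 / 1000 : ℝ) := by nlinarith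
    nlinarith [mul_nonneg (mul_nonneg (sub_nonneg.2 hlo) (sub_nonneg.2 hhi)) (sub_nonneg.2 hlo),
      mul_nonneg (sub_nonneg.2 hlo) (sub_nonneg.2 hhi)]
  · intro hc1
    nlinarith [mul_nonneg (sub_nonneg.2 hc) (sub_nonneg.2 hc1),
      mul_nonneg (mul_nonneg (sub_nonneg.2 hc) (sub_nonneg.2 hc1)) (sub_nonneg.2 hc)]

theorem up5 {c Q s : ℝ} (hc : 1 / 3 ≤ c) (hs : 8 * s = (c - 1) * (1 + c ^ 2 - 2 * Q))
    (hA : 3 * c ^ 2 - 2 * c + 3 ≤ 8 * Q) (hQ0 : (5 / 4 : ℝ) ≤ Q) (hQ1 : Q ≤ (13 / 8 : ℝ)) :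
    s ≤ (61 / 256 : ℝ) + (3 / 8 : ℝ) * (Q - (5 / 4 : ℝ)) := by
  have key := chord_gen (Q0 := (5 / 4 : ℝ)) (Q1 := (13 / 8 : ℝ)) (u0 := (61 / 256 : ℝ)) (m := (3 / 8 : ℝ)) hQ0 hQ1 hA
    (by norm_num) ?_ ?_ ?_
  · linarith
  · intro hB
    have hr : c ≤ (1897 / 1000 : ℝ) := by nlinarith
    nlinarith [mul_nonneg (sub_nonneg.2 hc) (sub_nonneg.2 hB)]
  · intro hB1 hB2
    have hlo : (237 / 125 : ℝ) ≤ c := by nlinarith
    have hhi : c ≤ (219 / 100 : ℝ) := by nlinarith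
    nlinarith [mul_nonneg (mul_nonneg (sub_nonneg.2 hlo) (sub_nonneg.2 hhi)) (sub_nonneg.2 hlo),
      mul_nonneg (sub_nonneg.2 hlo) (sub_nonneg.2 hhi)]
  · intro hc1
    nlinarith [mul_nonneg (sub_nonneg.2 hc) (sub_nonneg.2 hc1),
      mul_nonneg (mul_nonneg (sub_nonneg.2 hc) (sub_nonneg.2 hc1)) (sub_nonneg.2 hc)]

theorem up6 {c Q s : ℝ} (hc : 1 / 3 ≤ c) (hs : 8 * s = (c - 1) * (1 + c ^ 2 - 2 * Q))
    (hA : 3 * c ^ 2 - 2 * c + 3 ≤ 8 * Q) (hQ0 : (13 / 8 : ℝ) ≤ Q) (hQ1 : Q ≤ (9 / 4 : ℝ)) :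
    s ≤ (97 / 256 : ℝ) + (17 / 40 : ℝ) * (Q - (13 / 8 : ℝ)) := by
  have key := chord_gen (Q0 := (13 / 8 : ℝ)) (Q1 := (9 / 4 : ℝ)) (u0 := (97 / 256 : ℝ)) (m := (17 / 40 : ℝ)) hQ0 hQ1 hA
    (by norm_num) ?_ ?_ ?_
  · linarith
  · intro hB
    have hr : c ≤ (219 / 100 : ℝ) := by nlinarith
    nlinarith [mul_nonneg (sub_nonneg.2 hc) (sub_nonneg.2 hB)]
  · intro hB1 hB2
    have hlo : (2189 / 1000 : ℝ) ≤ c := by nlinarith
    have hhi : c ≤ (519 / 200 : ℝ) := by nlinarith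
    nlinarith [mul_nonneg (mul_nonneg (sub_nonneg.2 hlo) (sub_nonneg.2 hhi)) (sub_nonneg.2 hlo),
      mul_nonneg (sub_nonneg.2 hlo) (sub_nonneg.2 hhi)]
  · intro hc1
    nlinarith [mul_nonneg (sub_nonneg.2 hc) (sub_nonneg.2 hc1),
      mul_nonneg (mul_nonneg (sub_nonneg.2 hc) (sub_nonneg.2 hc1)) (sub_nonneg.2 hc)]

theorem up7 {c Q s : ℝ} (hc : 1 / 3 ≤ c) (hs : 8 * s = (c - 1) * (1 + c ^ 2 - 2 * Q))
    (hA : 3 * c ^ 2 - 2 * c + 3 ≤ 8 * Q) (hQ0 : (9 / 4 : ℝ) ≤ Q) (hQ1 : Q ≤ (3 : ℝ)) :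
    s ≤ (165 / 256 : ℝ) + (91 / 192 : ℝ) * (Q - (9 / 4 : ℝ)) := by
  have key := chord_gen (Q0 := (9 / 4 : ℝ)) (Q1 := (3 : ℝ)) (u0 := (165 / 256 : ℝ)) (m := (91 / 192 : ℝ)) hQ0 hQ1 hA
    (by norm_num) ?_ ?_ ?_
  · linarith
  · intro hB
    have hr : c ≤ (519 / 200 : ℝ) := by nlinarith
    nlinarith [mul_nonneg (sub_nonneg.2 hc) (sub_nonneg.2 hB)]
  · intro hB1 hB2
    have hlo : (1297 / 500 : ℝ) ≤ c := by nlinarith
    have hhi : c ≤ (3 : ℝ) := by nlinarith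
    nlinarith [mul_nonneg (mul_nonneg (sub_nonneg.2 hlo) (sub_nonneg.2 hhi)) (sub_nonneg.2 hlo),
      mul_nonneg (sub_nonneg.2 hlo) (sub_nonneg.2 hhi)]
  · intro hc1
    nlinarith [mul_nonneg (sub_nonneg.2 hc) (sub_nonneg.2 hc1),
      mul_nonneg (mul_nonneg (sub_nonneg.2 hc) (sub_nonneg.2 hc1)) (sub_nonneg.2 hc)]

theorem up8 {c Q s : ℝ} (hc : 1 / 3 ≤ c) (hs : 8 * s = (c - 1) * (1 + c ^ 2 - 2 * Q))
    (hA : 3 * c ^ 2 - 2 * c + 3 ≤ 8 * Q) (hQ0 : (9 / 16 : ℝ) ≤ Q) (hQ1 : Q ≤ (1 : ℝ)) :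
    s ≤ (5 / 256 : ℝ) + (33 / 112 : ℝ) * (Q - (9 / 16 : ℝ)) := by
  have key := chord_gen (Q0 := (9 / 16 : ℝ)) (Q1 := (1 : ℝ)) (u0 := (5 / 256 : ℝ)) (m := (33 / 112 : ℝ)) hQ0 hQ1 hA
    (by norm_num) ?_ ?_ ?_
  · linarith
  · intro hB
    have hr : c ≤ (279 / 250 : ℝ) := by nlinarith
    nlinarith [mul_nonneg (sub_nonneg.2 hc) (sub_nonneg.2 hB)]
  · intro hB1 hB2
    have hlo : (223 / 200 : ℝ) ≤ c := by nlinarith
    have hhi : c ≤ (5 / 3 : ℝ) := by nlinarith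
    nlinarith [mul_nonneg (mul_nonneg (sub_nonneg.2 hlo) (sub_nonneg.2 hhi)) (sub_nonneg.2 hlo),
      mul_nonneg (sub_nonneg.2 hlo) (sub_nonneg.2 hhi)]
  · intro hc1
    nlinarith [mul_nonneg (sub_nonneg.2 hc) (sub_nonneg.2 hc1),
      mul_nonneg (mul_nonneg (sub_nonneg.2 hc) (sub_nonneg.2 hc1)) (sub_nonneg.2 hc)]

theorem up9 {c Q s : ℝ} (hc : 1 / 3 ≤ c) (hs : 8 * s = (c - 1) * (1 + c ^ 2 - 2 * Q))
    (hA : 3 * c ^ 2 - 2 * c + 3 ≤ 8 * Q) (hQ0 : (1 : ℝ) ≤ Q) (hQ1 : Q ≤ (3 / 2 : ℝ)) :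
    s ≤ (19 / 128 : ℝ) + (47 / 128 : ℝ) * (Q - (1 : ℝ)) := by
  have key := chord_gen (Q0 := (1 : ℝ)) (Q1 := (3 / 2 : ℝ)) (u0 := (19 / 128 : ℝ)) (m := (47 / 128 : ℝ)) hQ0 hQ1 hA
    (by norm_num) ?_ ?_ ?_
  · linarith
  · intro hB
    have hr : c ≤ (5 / 3 : ℝ) := by nlinarith
    nlinarith [mul_nonneg (sub_nonneg.2 hc) (sub_nonneg.2 hB)]
  · intro hB1 hB2
    have hlo : (5 / 3 : ℝ) ≤ c := by nlinarith
    have hhi : c ≤ (1049 / 500 : ℝ) := by nlinarith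
    nlinarith [mul_nonneg (mul_nonneg (sub_nonneg.2 hlo) (sub_nonneg.2 hhi)) (sub_nonneg.2 hlo),
      mul_nonneg (sub_nonneg.2 hlo) (sub_nonneg.2 hhi)]
  · intro hc1
    nlinarith [mul_nonneg (sub_nonneg.2 hc) (sub_nonneg.2 hc1),
      mul_nonneg (mul_nonneg (sub_nonneg.2 hc) (sub_nonneg.2 hc1)) (sub_nonneg.2 hc)]

theorem up10 {c Q s : ℝ} (hc : 1 / 3 ≤ c) (hs : 8 * s = (c - 1) * (1 + c ^ 2 - 2 * Q))
    (hA : 3 * c ^ 2 - 2 * c + 3 ≤ 8 * Q) (hQ0 : (3 / 2 : ℝ) ≤ Q) (hQ1 : Q ≤ (9 / 4 : ℝ)) :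
    s ≤ (85 / 256 : ℝ) + (5 / 12 : ℝ) * (Q - (3 / 2 : ℝ)) := by
  have key := chord_gen (Q0 := (3 / 2 : ℝ)) (Q1 := (9 / 4 : ℝ)) (u0 := (85 / 256 : ℝ)) (m := (5 / 12 : ℝ)) hQ0 hQ1 hA
    (by norm_num) ?_ ?_ ?_
  · linarith
  · intro hB
    have hr : c ≤ (1049 / 500 : ℝ) := by nlinarith
    nlinarith [mul_nonneg (sub_nonneg.2 hc) (sub_nonneg.2 hB)]
  · intro hB1 hB2
    have hlo : (2097 / 1000 : ℝ) ≤ c := by nlinarith
    have hhi : c ≤ (519 / 200 : ℝ) := by nlinarith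
    nlinarith [mul_nonneg (mul_nonneg (sub_nonneg.2 hlo) (sub_nonneg.2 hhi)) (sub_nonneg.2 hlo),
      mul_nonneg (sub_nonneg.2 hlo) (sub_nonneg.2 hhi)]
  · intro hc1
    nlinarith [mul_nonneg (sub_nonneg.2 hc) (sub_nonneg.2 hc1),
      mul_nonneg (mul_nonneg (sub_nonneg.2 hc) (sub_nonneg.2 hc1)) (sub_nonneg.2 hc)]

/-- with `c := x_i` the largest coordinate: `8 xs = (c-1)(1+c²-2Q)`, `3c²-2c+3 ≤ 8Q`,
each chord is a two-variable polynomial inequality, linear in `Q` -/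
theorem xs_up (x : Fin 3 → ℝ) (hx : ∑ i, x i = 1) (_h : ∀ i, -1 ≤ x i) :
    ∀ c ∈ chords, (c.1 : ℝ) ≤ xQ x → xQ x ≤ (c.2.1 : ℝ) →
      xs x ≤ c.2.2.1 + (c.2.2.2 - c.2.2.1) * (xQ x - c.1) / (c.2.1 - c.1) := by
  obtain ⟨i, hi⟩ := exists_third_le x hx
  have hc := xs_coord x hx i
  have hq := x_quad x hx i
  generalize x i = c at *
  generalize xQ x = Q at *
  generalize xs x = s at *
  simp only [chords, List.forall_mem_cons, List.not_mem_nil, IsEmpty.forall_iff, implies_true,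
    and_true]
  refine ⟨fun h0 h1 => ?_, fun h0 h1 => ?_, fun h0 h1 => ?_, fun h0 h1 => ?_, fun h0 h1 => ?_,
    fun h0 h1 => ?_, fun h0 h1 => ?_, fun h0 h1 => ?_, fun h0 h1 => ?_, fun h0 h1 => ?_⟩ <;>
    push_cast at h0 h1 ⊢
  · exact (up1 hi hc hq (by linarith) (by linarith)).trans (le_of_eq (by ring))
  · exact (up2 hi hc hq (by linarith) (by linarith)).trans (le_of_eq (by ring))
  · exact (up3 hi hc hq (by linarith) (by linarith)).trans (le_of_eq (by ring))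
  · exact (up4 hi hc hq (by linarith) (by linarith)).trans (le_of_eq (by ring))
  · exact (up5 hi hc hq (by linarith) (by linarith)).trans (le_of_eq (by ring))
  · exact (up6 hi hc hq (by linarith) (by linarith)).trans (le_of_eq (by ring))
  · exact (up7 hi hc hq (by linarith) (by linarith)).trans (le_of_eq (by ring))
  · exact (up8 hi hc hq (by linarith) (by linarith)).trans (le_of_eq (by ring))
  · exact (up9 hi hc hq (by linarith) (by linarith)).trans (le_of_eq (by ring))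
  · exact (up10 hi hc hq (by linarith) (by linarith)).trans (le_of_eq (by ring))

end Vale.Agent.Lib.P154.Q4
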