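import Vale.Agent.Lib.P154.Ineq4.Basic

/-!
P154, q = 4, module MOM: moments of `Sg` and `Vg` over the permutations, in the Hadamard
coordinates `y = (1+p+q+r, 1+p-q-r, 1-p+q-r, 1-p-q+r)`.
-/

namespace Vale.Agent.Lib.P154.Q4

open scoped BigOperators

/-- sum over the permutations of four points, written out -/
theorem sum_perm (F : Fin 4 → Fin 4 → Fin 4 → Fin 4 → ℝ) :
    ∑ g : Equiv.Perm (Fin 4), F (g 0) (g 1) (g 2) (g 3) =
      F 0 1 2 3 + (F 0 1 3 2 + (F 0 2 1 3 + (F 0 2 3 1 + (F 0 3 2 1 + (F 0 3 1 2 + (F 1 0 2 3 + (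
        F 1 0 3 2 + (F 1 2 0 3 + (F 1 2 3 0 + (F 1 3 2 0 + (F 1 3 0 2 + (F 2 1 0 3 + (
        F 2 1 3 0 + (F 2 0 1 3 + (F 2 0 3 1 + (F 2 3 0 1 + (F 2 3 1 0 + (F 3 1 2 0 + (
        F 3 1 0 2 + (F 3 2 1 0 + (F 3 2 0 1 + (F 3 0 2 1 + (
        F 3 0 1 2 + (0 : ℝ)))))))))))))))))))))))) := rfl

/-- Hadamard coordinates -/
noncomputable def vc (p q r : ℝ) : Fin 4 → ℝ :=
  ![1 + p + q + r, 1 + p - q - r, 1 - p + q - r, 1 - p - q + r]

theorem exists_vc (y : Fin 4 → ℝ) (hy : ∑ i, y i = 4) : ∃ p q r, y = vc p q r := by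
  rw [Fin.sum_univ_four] at hy
  refine ⟨(y 0 + y 1 - 2) / 2, (y 0 + y 2 - 2) / 2, (y 0 + y 3 - 2) / 2, ?_⟩
  funext i
  fin_cases i
  · show y 0 = 1 + (y 0 + y 1 - 2) / 2 + (y 0 + y 2 - 2) / 2 + (y 0 + y 3 - 2) / 2
    linarith
  · show y 1 = 1 + (y 0 + y 1 - 2) / 2 - (y 0 + y 2 - 2) / 2 - (y 0 + y 3 - 2) / 2
    linarith
  · show y 2 = 1 - (y 0 + y 1 - 2) / 2 + (y 0 + y 2 - 2) / 2 - (y 0 + y 3 - 2) / 2
    linarith
  · show y 3 = 1 - (y 0 + y 1 - 2) / 2 - (y 0 + y 2 - 2) / 2 + (y 0 + y 3 - 2) / 2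
    linarith

theorem vc_0 (p q r : ℝ) : vc p q r 0 = 1 + p + q + r := rfl
theorem vc_1 (p q r : ℝ) : vc p q r 1 = 1 + p - q - r := rfl
theorem vc_2 (p q r : ℝ) : vc p q r 2 = 1 - p + q - r := rfl
theorem vc_3 (p q r : ℝ) : vc p q r 3 = 1 - p - q + r := rfl

/-- sum over the Klein four group -/
noncomputable def orb (F : ℝ → ℝ → ℝ → ℝ) (p q r : ℝ) : ℝ :=
  F p q r + F p (-q) (-r) + F (-p) q (-r) + F (-p) (-q) r

/-- sum over the permutations in Hadamard coordinates -/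
theorem sum_perm_vc (F : ℝ → ℝ → ℝ → ℝ → ℝ) (p q r : ℝ) :
    ∑ g : Equiv.Perm (Fin 4), F (vc p q r (g 0)) (vc p q r (g 1)) (vc p q r (g 2))
      (vc p q r (g 3)) =
    orb (fun p q r => F (1 + p + q + r) (1 + p - q - r) (1 - p + q - r) (1 - p - q + r)) p q r +
    orb (fun p q r => F (1 + p + q + r) (1 + p - q - r) (1 - p + q - r) (1 - p - q + r)) p r q +
    orb (fun p q r => F (1 + p + q + r) (1 + p - q - r) (1 - p + q - r) (1 - p - q + r)) q p r +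
    orb (fun p q r => F (1 + p + q + r) (1 + p - q - r) (1 - p + q - r) (1 - p - q + r)) q r p +
    orb (fun p q r => F (1 + p + q + r) (1 + p - q - r) (1 - p + q - r) (1 - p - q + r)) r p q +
    orb (fun p q r => F (1 + p + q + r) (1 + p - q - r) (1 - p + q - r) (1 - p - q + r)) r q p := by
  rw [sum_perm (fun a b c d => F (vc p q r a) (vc p q r b) (vc p q r c) (vc p q r d))]
  simp only [vc_0, vc_1, vc_2, vc_3, orb]
  ring_nf


theorem I2_vc (p q r : ℝ) : I2 (vc p q r) = p ^ 2 + q ^ 2 + r ^ 2 := by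
  unfold I2
  rw [Fin.sum_univ_four, vc_0, vc_1, vc_2, vc_3]
  ring

theorem I3_vc (p q r : ℝ) : I3 (vc p q r) = p * q * r := by
  unfold I3
  rw [Fin.sum_univ_four, vc_0, vc_1, vc_2, vc_3]
  ring

theorem I4_vc (p q r : ℝ) : I4 (vc p q r) = p ^ 4 + q ^ 4 + r ^ 4 := by
  unfold I4
  rw [I2_vc, Fin.sum_univ_four, vc_0, vc_1, vc_2, vc_3]
  ring

theorem Sg_vc (p q r : ℝ) (z : Fin 4 → ℝ) (g : Equiv.Perm (Fin 4)) :
    Sg (vc p q r) z g = ((1 + p + q + r) * z (g 0) + (1 + p - q - r) * z (g 1) +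
      (1 - p + q - r) * z (g 2) + (1 - p - q + r) * z (g 3)) / 4 := by
  unfold Sg
  rw [Fin.sum_univ_four, vc_0, vc_1, vc_2, vc_3]

theorem Vg_vc (p q r : ℝ) (z : Fin 4 → ℝ) (g : Equiv.Perm (Fin 4)) :
    Vg (vc p q r) z g = (((1 + p + q + r) * z (g 0)) ^ 2 + ((1 + p - q - r) * z (g 1)) ^ 2 +
      ((1 - p + q - r) * z (g 2)) ^ 2 + ((1 - p - q + r) * z (g 3)) ^ 2) / 4 -
      (((1 + p + q + r) * z (g 0) + (1 + p - q - r) * z (g 1) +
      (1 - p + q - r) * z (g 2) + (1 - p - q + r) * z (g 3)) / 4) ^ 2 := by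
  unfold Vg
  rw [Sg_vc, Fin.sum_univ_four, vc_0, vc_1, vc_2, vc_3]

/-- Klein sums of powers -/
noncomputable def EE (k : ℕ) (u v w : ℝ) : ℝ :=
  (u + v + w) ^ k + (u - v - w) ^ k + (-u + v - w) ^ k + (-u - v + w) ^ k

/-- Klein sums of powers times a linear form -/
noncomputable def EL (k : ℕ) (u v w U V W : ℝ) : ℝ :=
  (u + v + w) ^ k * (U + V + W) + (u - v - w) ^ k * (U - V - W) +
    (-u + v - w) ^ k * (-U + V - W) + (-u - v + w) ^ k * (-U - V + W)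

theorem EE0 (u v w : ℝ) : EE 0 u v w = 4 := by unfold EE; ring
theorem EE1 (u v w : ℝ) : EE 1 u v w = 0 := by unfold EE; ring
theorem EE2 (u v w : ℝ) : EE 2 u v w = 4 * (u ^ 2 + v ^ 2 + w ^ 2) := by unfold EE; ring
theorem EE3 (u v w : ℝ) : EE 3 u v w = 24 * (u * v * w) := by unfold EE; ring
theorem EE4 (u v w : ℝ) : EE 4 u v w = 4 * (u ^ 4 + v ^ 4 + w ^ 4 +
    6 * (u ^ 2 * v ^ 2 + u ^ 2 * w ^ 2 + v ^ 2 * w ^ 2)) := by unfold EE; ring
theorem EE5 (u v w : ℝ) : EE 5 u v w = 80 * (u * v * w) * (u ^ 2 + v ^ 2 + w ^ 2) := by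
  unfold EE; ring
theorem EE6 (u v w : ℝ) : EE 6 u v w = 4 * (u ^ 6 + v ^ 6 + w ^ 6 +
    15 * (u ^ 4 * v ^ 2 + u ^ 4 * w ^ 2 + v ^ 4 * u ^ 2 + v ^ 4 * w ^ 2 + w ^ 4 * u ^ 2 +
      w ^ 4 * v ^ 2) + 90 * (u ^ 2 * v ^ 2 * w ^ 2)) := by unfold EE; ring
theorem EE7 (u v w : ℝ) : EE 7 u v w = 4 * (u * v * w) * (42 * (u ^ 4 + v ^ 4 + w ^ 4) +
    140 * (u ^ 2 * v ^ 2 + u ^ 2 * w ^ 2 + v ^ 2 * w ^ 2)) := by unfold EE; ring

theorem EL0 (u v w U V W : ℝ) : EL 0 u v w U V W = 0 := by unfold EL; ring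
theorem EL1 (u v w U V W : ℝ) : EL 1 u v w U V W = 4 * (u * U + v * V + w * W) := by
  unfold EL; ring
theorem EL2 (u v w U V W : ℝ) : EL 2 u v w U V W =
    8 * (v * w * U + u * w * V + u * v * W) := by unfold EL; ring
theorem EL3 (u v w U V W : ℝ) : EL 3 u v w U V W =
    4 * (u * (u ^ 2 + 3 * v ^ 2 + 3 * w ^ 2) * U + v * (v ^ 2 + 3 * u ^ 2 + 3 * w ^ 2) * V +
      w * (w ^ 2 + 3 * u ^ 2 + 3 * v ^ 2) * W) := by unfold EL; ring
theorem EL4 (u v w U V W : ℝ) : EL 4 u v w U V W =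
    16 * (v * w * (3 * u ^ 2 + v ^ 2 + w ^ 2) * U + u * w * (u ^ 2 + 3 * v ^ 2 + w ^ 2) * V +
      u * v * (u ^ 2 + v ^ 2 + 3 * w ^ 2) * W) := by unfold EL; ring
theorem EL5 (u v w U V W : ℝ) : EL 5 u v w U V W =
    4 * (u * (u ^ 4 + 10 * u ^ 2 * v ^ 2 + 10 * u ^ 2 * w ^ 2 + 5 * v ^ 4 + 30 * v ^ 2 * w ^ 2 +
        5 * w ^ 4) * U +
      v * (v ^ 4 + 10 * v ^ 2 * u ^ 2 + 10 * v ^ 2 * w ^ 2 + 5 * u ^ 4 + 30 * u ^ 2 * w ^ 2 +
        5 * w ^ 4) * V +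
      w * (w ^ 4 + 10 * w ^ 2 * u ^ 2 + 10 * w ^ 2 * v ^ 2 + 5 * u ^ 4 + 30 * u ^ 2 * v ^ 2 +
        5 * v ^ 4) * W) := by unfold EL; ring

theorem orb_pow (k : ℕ) (p q r a b c : ℝ) :
    orb (fun a b c => (((1 + p + q + r) * (1 + a + b + c) + (1 + p - q - r) * (1 + a - b - c) +
      (1 - p + q - r) * (1 - a + b - c) + (1 - p - q + r) * (1 - a - b + c)) / 4 - 1) ^ k) a b c =
      EE k (p * a) (q * b) (r * c) := by
  have h : ∀ a b c : ℝ, ((1 + p + q + r) * (1 + a + b + c) + (1 + p - q - r) * (1 + a - b - c) +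
      (1 - p + q - r) * (1 - a + b - c) + (1 - p - q + r) * (1 - a - b + c)) / 4 - 1 =
      p * a + q * b + r * c := fun a b c => by ring
  unfold orb EE
  simp only [h]
  congr 1
  · congr 1
    · congr 1
      congr 1
      ring
    · congr 1
      ring
  · congr 1
    ring

theorem sum_powR (k : ℕ) (p q r a b c : ℝ) :
    ∑ g : Equiv.Perm (Fin 4), (Sg (vc p q r) (vc a b c) g - 1) ^ k =
      EE k (p * a) (q * b) (r * c) + EE k (p * a) (q * c) (r * b) +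
      EE k (p * b) (q * a) (r * c) + EE k (p * b) (q * c) (r * a) +
      EE k (p * c) (q * a) (r * b) + EE k (p * c) (q * b) (r * a) := by
  simp only [Sg_vc]
  rw [sum_perm_vc (fun w0 w1 w2 w3 => (((1 + p + q + r) * w0 + (1 + p - q - r) * w1 +
      (1 - p + q - r) * w2 + (1 - p - q + r) * w3) / 4 - 1) ^ k) a b c]
  rw [orb_pow, orb_pow, orb_pow, orb_pow, orb_pow, orb_pow]

theorem V_eq (p q r a b c : ℝ) :
    (((1 + p + q + r) * (1 + a + b + c)) ^ 2 + ((1 + p - q - r) * (1 + a - b - c)) ^ 2 +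
      ((1 - p + q - r) * (1 - a + b - c)) ^ 2 + ((1 - p - q + r) * (1 - a - b + c)) ^ 2) / 4 -
      (((1 + p + q + r) * (1 + a + b + c) + (1 + p - q - r) * (1 + a - b - c) +
      (1 - p + q - r) * (1 - a + b - c) + (1 - p - q + r) * (1 - a - b + c)) / 4) ^ 2 =
    ((1 + p ^ 2 + q ^ 2 + r ^ 2) * (1 + a ^ 2 + b ^ 2 + c ^ 2) - 1) +
      4 * ((p + q * r) * (a + b * c) + (q + p * r) * (b + a * c) + (r + p * q) * (c + a * b)) -
      2 * (p * a + q * b + r * c) - (p * a + q * b + r * c) ^ 2 := by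
  ring

theorem S_eq (p q r a b c : ℝ) :
    ((1 + p + q + r) * (1 + a + b + c) + (1 + p - q - r) * (1 + a - b - c) +
      (1 - p + q - r) * (1 - a + b - c) + (1 - p - q + r) * (1 - a - b + c)) / 4 - 1 =
      p * a + q * b + r * c := by
  ring

theorem orb_powQ (k : ℕ) (p q r a b c : ℝ) :
    orb (fun a b c => (((1 + p + q + r) * (1 + a + b + c) + (1 + p - q - r) * (1 + a - b - c) +
      (1 - p + q - r) * (1 - a + b - c) + (1 - p - q + r) * (1 - a - b + c)) / 4 - 1) ^ k *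
      ((((1 + p + q + r) * (1 + a + b + c)) ^ 2 + ((1 + p - q - r) * (1 + a - b - c)) ^ 2 +
      ((1 - p + q - r) * (1 - a + b - c)) ^ 2 + ((1 - p - q + r) * (1 - a - b + c)) ^ 2) / 4 -
      (((1 + p + q + r) * (1 + a + b + c) + (1 + p - q - r) * (1 + a - b - c) +
      (1 - p + q - r) * (1 - a + b - c) + (1 - p - q + r) * (1 - a - b + c)) / 4) ^ 2)) a b c =
      ((1 + p ^ 2 + q ^ 2 + r ^ 2) * (1 + a ^ 2 + b ^ 2 + c ^ 2) - 1) *
        EE k (p * a) (q * b) (r * c) - 2 * EE (k + 1) (p * a) (q * b) (r * c) -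
        EE (k + 2) (p * a) (q * b) (r * c) +
      4 * EL k (p * a) (q * b) (r * c) ((p + q * r) * (a + b * c)) ((q + p * r) * (b + a * c))
          ((r + p * q) * (c + a * b)) := by
  unfold orb
  simp only [V_eq, S_eq]
  have e1 : p * a + q * (-b) + r * (-c) = p * a - q * b - r * c := by ring
  have e2 : p * (-a) + q * b + r * (-c) = -(p * a) + q * b - r * c := by ring
  have e3 : p * (-a) + q * (-b) + r * c = -(p * a) - q * b + r * c := by ring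
  rw [e1, e2, e3]
  unfold EE EL
  ring

theorem sum_powQ (k : ℕ) (p q r a b c : ℝ) :
    ∑ g : Equiv.Perm (Fin 4), (Sg (vc p q r) (vc a b c) g - 1) ^ k * Vg (vc p q r) (vc a b c) g =
      ((1 + p ^ 2 + q ^ 2 + r ^ 2) * (1 + a ^ 2 + b ^ 2 + c ^ 2) - 1) *
        (EE k (p * a) (q * b) (r * c) + EE k (p * a) (q * c) (r * b) +
      EE k (p * b) (q * a) (r * c) + EE k (p * b) (q * c) (r * a) +
      EE k (p * c) (q * a) (r * b) + EE k (p * c) (q * b) (r * a)) -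
      2 * (EE (k + 1) (p * a) (q * b) (r * c) + EE (k + 1) (p * a) (q * c) (r * b) +
      EE (k + 1) (p * b) (q * a) (r * c) + EE (k + 1) (p * b) (q * c) (r * a) +
      EE (k + 1) (p * c) (q * a) (r * b) + EE (k + 1) (p * c) (q * b) (r * a)) -
      (EE (k + 2) (p * a) (q * b) (r * c) + EE (k + 2) (p * a) (q * c) (r * b) +
      EE (k + 2) (p * b) (q * a) (r * c) + EE (k + 2) (p * b) (q * c) (r * a) +
      EE (k + 2) (p * c) (q * a) (r * b) + EE (k + 2) (p * c) (q * b) (r * a)) +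
      4 * (EL k (p * a) (q * b) (r * c) ((p + q * r) * (a + b * c)) ((q + p * r) * (b + a * c))
          ((r + p * q) * (c + a * b)) +
        EL k (p * a) (q * c) (r * b) ((p + q * r) * (a + c * b)) ((q + p * r) * (c + a * b))
          ((r + p * q) * (b + a * c)) +
        EL k (p * b) (q * a) (r * c) ((p + q * r) * (b + a * c)) ((q + p * r) * (a + b * c))
          ((r + p * q) * (c + b * a)) +
        EL k (p * b) (q * c) (r * a) ((p + q * r) * (b + c * a)) ((q + p * r) * (c + b * a))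
          ((r + p * q) * (a + b * c)) +
        EL k (p * c) (q * a) (r * b) ((p + q * r) * (c + a * b)) ((q + p * r) * (a + c * b))
          ((r + p * q) * (b + c * a)) +
        EL k (p * c) (q * b) (r * a) ((p + q * r) * (c + b * a)) ((q + p * r) * (b + c * a))
          ((r + p * q) * (a + c * b))) := by
  simp only [Sg_vc, Vg_vc]
  rw [sum_perm_vc (fun w0 w1 w2 w3 => (((1 + p + q + r) * w0 + (1 + p - q - r) * w1 +
      (1 - p + q - r) * w2 + (1 - p - q + r) * w3) / 4 - 1) ^ k *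
      ((((1 + p + q + r) * w0) ^ 2 + ((1 + p - q - r) * w1) ^ 2 +
      ((1 - p + q - r) * w2) ^ 2 + ((1 - p - q + r) * w3) ^ 2) / 4 -
      (((1 + p + q + r) * w0 + (1 + p - q - r) * w1 +
      (1 - p + q - r) * w2 + (1 - p - q + r) * w3) / 4) ^ 2)) a b c]
  rw [orb_powQ, orb_powQ, orb_powQ, orb_powQ, orb_powQ, orb_powQ]
  ring

theorem momR (y z : Fin 4 → ℝ) (hy : ∑ i, y i = 4) (hz : ∑ i, z i = 4) (k : ℕ) (hk : k ≤ 7) :
    avg (fun g => (Sg y z g - 1) ^ k) = bil (Rtab.getD k []) (feat y) (feat z) := by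
  obtain ⟨p, q, r, rfl⟩ := exists_vc y hy
  obtain ⟨a, b, c, rfl⟩ := exists_vc z hz
  unfold avg
  rw [sum_powR]
  interval_cases k
  all_goals simp only [EE0, EE1, EE2, EE3, EE4, EE5, EE6, EE7, Rtab, bil, feat, I2_vc, I3_vc,
    I4_vc, List.getD_cons_zero, List.getD_cons_succ, List.map_cons, List.map_nil, List.sum_cons,
    List.sum_nil]
  all_goals push_cast
  all_goals ring

theorem momQ (y z : Fin 4 → ℝ) (hy : ∑ i, y i = 4) (hz : ∑ i, z i = 4) (k : ℕ) (hk : k ≤ 5) :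
    avg (fun g => (Sg y z g - 1) ^ k * Vg y z g) = bil (Qtab.getD k []) (feat y) (feat z) := by
  obtain ⟨p, q, r, rfl⟩ := exists_vc y hy
  obtain ⟨a, b, c, rfl⟩ := exists_vc z hz
  unfold avg
  rw [sum_powQ]
  interval_cases k
  all_goals simp only [Nat.reduceAdd, EE0, EE1, EE2, EE3, EE4, EE5, EE6, EE7, EL0, EL1, EL2, EL3,
    EL4, EL5, Qtab, bil, feat, I2_vc, I3_vc,
    I4_vc, List.getD_cons_zero, List.getD_cons_succ, List.map_cons, List.map_nil, List.sum_cons,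
    List.sum_nil]
  all_goals push_cast
  all_goals ring

/-- power sums -/
theorem psum2 (y : Fin 4 → ℝ) (hy : ∑ i, y i = 4) : ∑ i, (y i - 1) ^ 2 = 4 * I2 y := by
  obtain ⟨p, q, r, rfl⟩ := exists_vc y hy
  rw [I2_vc, Fin.sum_univ_four, vc_0, vc_1, vc_2, vc_3]
  ring

theorem psum3 (y : Fin 4 → ℝ) (hy : ∑ i, y i = 4) : ∑ i, (y i - 1) ^ 3 = 24 * I3 y := by
  obtain ⟨p, q, r, rfl⟩ := exists_vc y hy
  rw [I3_vc, Fin.sum_univ_four, vc_0, vc_1, vc_2, vc_3]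
  ring

theorem psum4 (y : Fin 4 → ℝ) (hy : ∑ i, y i = 4) :
    ∑ i, (y i - 1) ^ 4 = 12 * I2 y ^ 2 - 8 * I4 y := by
  obtain ⟨p, q, r, rfl⟩ := exists_vc y hy
  rw [I2_vc, I4_vc, Fin.sum_univ_four, vc_0, vc_1, vc_2, vc_3]
  ring

theorem psum5 (y : Fin 4 → ℝ) (hy : ∑ i, y i = 4) :
    ∑ i, (y i - 1) ^ 5 = 80 * I2 y * I3 y := by
  obtain ⟨p, q, r, rfl⟩ := exists_vc y hy
  rw [I2_vc, I3_vc, Fin.sum_univ_four, vc_0, vc_1, vc_2, vc_3]
  ring

theorem psum6 (y : Fin 4 → ℝ) (hy : ∑ i, y i = 4) :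
    ∑ i, (y i - 1) ^ 6 = 28 * I2 y ^ 3 - 24 * I2 y * I4 y + 192 * I3 y ^ 2 := by
  obtain ⟨p, q, r, rfl⟩ := exists_vc y hy
  rw [I2_vc, I3_vc, I4_vc, Fin.sum_univ_four, vc_0, vc_1, vc_2, vc_3]
  ring

theorem psum7 (y : Fin 4 → ℝ) (hy : ∑ i, y i = 4) :
    ∑ i, (y i - 1) ^ 7 = 280 * I2 y ^ 2 * I3 y - 112 * I3 y * I4 y := by
  obtain ⟨p, q, r, rfl⟩ := exists_vc y hy
  rw [I2_vc, I3_vc, I4_vc, Fin.sum_univ_four, vc_0, vc_1, vc_2, vc_3]
  ring

end Vale.Agent.Lib.P154.Q4
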