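import Vale.Agent.Lib.P154.Ineq4.Basic

/-!
# P154, `q = 4`: one-variable bounds for `s log s`
-/

namespace Vale.Agent.Lib.P154.Q4

open scoped BigOperators

/-- degree 7 Taylor polynomial of `s log s` at `1` -/
noncomputable def T7 (s : ℝ) : ℝ :=
  (s - 1) + (s - 1) ^ 2 / 2 - (s - 1) ^ 3 / 6 + (s - 1) ^ 4 / 12 - (s - 1) ^ 5 / 20 +
    (s - 1) ^ 6 / 30 - (s - 1) ^ 7 / 42

/-- a function on `[m, ∞)` which vanishes at `1` with derivative of the sign of `s - 1` -/
theorem nonneg_of_sign {D D' : ℝ → ℝ} {m : ℝ} (hm : m ≤ 1) (hc : ContinuousOn D (Set.Ici m))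
    (hd : ∀ s, m < s → HasDerivAt D (D' s) s) (h1 : D 1 = 0)
    (hlo : ∀ s, m < s → s < 1 → D' s ≤ 0) (hhi : ∀ s, m < s → 1 < s → 0 ≤ D' s)
    (s : ℝ) (hs : m ≤ s) : 0 ≤ D s := by
  rcases le_total s 1 with h | h
  · have hanti : AntitoneOn D (Set.Icc m 1) := by
      apply antitoneOn_of_deriv_nonpos (convex_Icc m 1)
        (hc.mono (fun x hx => hx.1))
      · intro x hx
        rw [interior_Icc] at hx
        exact (hd x hx.1).differentiableAt.differentiableWithinAt
      · intro x hx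
        rw [interior_Icc] at hx
        rw [(hd x hx.1).deriv]
        exact hlo x hx.1 hx.2
    have := hanti ⟨hs, h⟩ ⟨hm, le_rfl⟩ h
    linarith
  · have hmono : MonotoneOn D (Set.Ici 1) := by
      apply monotoneOn_of_deriv_nonneg (convex_Ici 1)
        (hc.mono (fun x hx => le_trans hm hx))
      · intro x hx
        rw [interior_Ici] at hx
        exact (hd x (lt_of_le_of_lt hm hx)).differentiableAt.differentiableWithinAt
      · intro x hx
        rw [interior_Ici] at hx
        rw [(hd x (lt_of_le_of_lt hm hx)).deriv]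
        exact hhi x (lt_of_le_of_lt hm hx) hx
    have := hmono (Set.mem_Ici.2 le_rfl) (Set.mem_Ici.2 h) h
    linarith

/-- the second order version -/
theorem nonneg_of_second {D D' D'' : ℝ → ℝ} {m : ℝ} (_hm0 : 0 ≤ m) (hm : m ≤ 1)
    (hc : ContinuousOn D (Set.Ici m))
    (hd : ∀ s, m < s → HasDerivAt D (D' s) s) (hd' : ∀ s, m < s → HasDerivAt D' (D'' s) s)
    (h1 : D 1 = 0) (h1' : m < 1 → D' 1 = 0) (h1'' : m = 1 → ∀ s, 1 < s → 0 ≤ D' s)
    (h2 : ∀ s, m < s → 0 ≤ D'' s) (s : ℝ) (hs : m ≤ s) : 0 ≤ D s := by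
  rcases hm.eq_or_lt with hm1 | hm1
  · refine nonneg_of_sign hm hc hd h1 (fun s h3 h4 => ?_) (fun s _ h4 => h1'' hm1 s h4) s hs
    exfalso
    linarith
  · have hmono : MonotoneOn D' (Set.Ioi m) := by
      apply monotoneOn_of_deriv_nonneg (convex_Ioi m)
      · intro x hx
        exact (hd' x hx).continuousAt.continuousWithinAt
      · intro x hx
        rw [interior_Ioi] at hx
        exact (hd' x hx).differentiableAt.differentiableWithinAt
      · intro x hx
        rw [interior_Ioi] at hx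
        rw [(hd' x hx).deriv]
        exact h2 x hx
    refine nonneg_of_sign hm hc hd h1 (fun s h3 h4 => ?_) (fun s h3 h4 => ?_) s hs
    · have := hmono (Set.mem_Ioi.2 h3) (Set.mem_Ioi.2 hm1) h4.le
      rw [h1' hm1] at this
      exact this
    · have := hmono (Set.mem_Ioi.2 hm1) (Set.mem_Ioi.2 h3) h4.le
      rw [h1' hm1] at this
      exact this

/-- family of lower bounds: if `1 - s g(s) = P(s)^2` then the double primitive of `g` with
`j(1) = 0`, `j'(1) = 1` is a lower bound of `s log s`.  Here `g j` are polynomials. -/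
theorem fam_le (P g j : Polynomial ℝ) (hP : ∀ s : ℝ, 1 - s * g.eval s = P.eval s ^ 2)
    (hj : Polynomial.derivative (Polynomial.derivative j) = g) (h1 : j.eval 1 = 0)
    (h1' : (Polynomial.derivative j).eval 1 = 1) (s : ℝ) (hs : 0 ≤ s) :
    j.eval s ≤ s * Real.log s := by
  have key := nonneg_of_second (D := fun s => s * Real.log s - j.eval s)
    (D' := fun s => Real.log s + 1 - (Polynomial.derivative j).eval s)
    (D'' := fun s => 1 / s - g.eval s) (m := 0) le_rfl zero_le_one
    ((Real.continuous_mul_log.sub j.continuous).continuousOn)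
    (fun s hs => by
      have h2 := (Real.hasDerivAt_mul_log hs.ne').sub (j.hasDerivAt s)
      exact h2)
    (fun s hs => by
      have h2 := ((Real.hasDerivAt_log hs.ne').add_const 1).sub
        ((Polynomial.derivative j).hasDerivAt s)
      rw [hj] at h2
      rw [one_div]
      exact h2)
    (by simp [h1]) (fun _ => by simp [h1']) (fun h => by norm_num at h)
    (fun s hs => by
      have h2 := hP s
      have h3 : 1 / s - g.eval s = (1 - s * g.eval s) / s := by
        field_simp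
      rw [h3, h2]
      positivity) s hs
  linarith

theorem T7_le (s : ℝ) (hs : 0 ≤ s) : T7 s ≤ s * Real.log s := by
  have key := nonneg_of_second (D := fun s => s * Real.log s - T7 s)
    (D' := fun s => Real.log s + 1 - (1 + (s - 1) - (s - 1) ^ 2 / 2 + (s - 1) ^ 3 / 3 -
      (s - 1) ^ 4 / 4 + (s - 1) ^ 5 / 5 - (s - 1) ^ 6 / 6))
    (D'' := fun s => 1 / s - (1 - (s - 1) + (s - 1) ^ 2 - (s - 1) ^ 3 + (s - 1) ^ 4 - (s - 1) ^ 5))
    (m := 0) le_rfl zero_le_one
    (Continuous.continuousOn (Real.continuous_mul_log.sub (by unfold T7; fun_prop)))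
    (fun s hs => by
      have hX : HasDerivAt (fun s : ℝ => s - 1) 1 s := (hasDerivAt_id s).sub_const 1
      have h2 := (((((((hX.add ((hX.pow 2).div_const 2)).sub ((hX.pow 3).div_const 6)).add
        ((hX.pow 4).div_const 12)).sub ((hX.pow 5).div_const 20)).add
        ((hX.pow 6).div_const 30)).sub ((hX.pow 7).div_const 42)))
      have h3 := (Real.hasDerivAt_mul_log hs.ne').sub h2
      refine h3.congr_deriv ?_
      simp only [Nat.cast_ofNat, Nat.add_one_sub_one]
      ring)
    (fun s hs => by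
      have hX : HasDerivAt (fun s : ℝ => s - 1) 1 s := (hasDerivAt_id s).sub_const 1
      have h2 := (((((((hX.const_add 1).sub ((hX.pow 2).div_const 2)).add
        ((hX.pow 3).div_const 3)).sub ((hX.pow 4).div_const 4)).add
        ((hX.pow 5).div_const 5)).sub ((hX.pow 6).div_const 6)))
      have h3 := ((Real.hasDerivAt_log hs.ne').add_const 1).sub h2
      refine h3.congr_deriv ?_
      simp only [Nat.cast_ofNat, Nat.add_one_sub_one, one_div]
      ring)
    (by simp [T7]) (fun _ => by simp) (fun h => by norm_num at h)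
    (fun s hs => by
      have h3 : 1 / s - (1 - (s - 1) + (s - 1) ^ 2 - (s - 1) ^ 3 + (s - 1) ^ 4 - (s - 1) ^ 5) =
          (s - 1) ^ 6 / s := by
        field_simp
        ring
      rw [h3]
      have : 0 ≤ (s - 1) ^ 6 := by positivity
      positivity) s hs
  linarith

theorem le_T8 (s m : ℝ) (hm : 0 < m) (hm1 : m ≤ 1) (hs : m ≤ s) :
    s * Real.log s ≤ T7 s + (s - 1) ^ 8 / (56 * m) := by
  -- the derivative for `m = 1` is handled by monotonicity from `1`
  have hD1 : ∀ s : ℝ, 0 < s → HasDerivAt (fun s => T7 s + (s - 1) ^ 8 / (56 * m) - s * Real.log s)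
      ((1 + (s - 1) - (s - 1) ^ 2 / 2 + (s - 1) ^ 3 / 3 -
      (s - 1) ^ 4 / 4 + (s - 1) ^ 5 / 5 - (s - 1) ^ 6 / 6) + (s - 1) ^ 7 / (7 * m) -
        (Real.log s + 1)) s := by
    intro s hs
    have hX : HasDerivAt (fun s : ℝ => s - 1) 1 s := (hasDerivAt_id s).sub_const 1
    have h2 := (((((((hX.add ((hX.pow 2).div_const 2)).sub ((hX.pow 3).div_const 6)).add
      ((hX.pow 4).div_const 12)).sub ((hX.pow 5).div_const 20)).add
      ((hX.pow 6).div_const 30)).sub ((hX.pow 7).div_const 42)))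
    have h3 := (h2.add ((hX.pow 8).div_const (56 * m))).sub (Real.hasDerivAt_mul_log hs.ne')
    refine h3.congr_deriv ?_
    simp only [Nat.cast_ofNat, Nat.add_one_sub_one]
    field_simp
    ring
  have hD2 : ∀ s : ℝ, 0 < s → HasDerivAt (fun s => (1 + (s - 1) - (s - 1) ^ 2 / 2 +
      (s - 1) ^ 3 / 3 - (s - 1) ^ 4 / 4 + (s - 1) ^ 5 / 5 - (s - 1) ^ 6 / 6) +
      (s - 1) ^ 7 / (7 * m) - (Real.log s + 1)) ((s - 1) ^ 6 * (1 / m - 1 / s)) s := by
    intro s hs
    have hX : HasDerivAt (fun s : ℝ => s - 1) 1 s := (hasDerivAt_id s).sub_const 1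
    have h2 := (((((((hX.const_add 1).sub ((hX.pow 2).div_const 2)).add
      ((hX.pow 3).div_const 3)).sub ((hX.pow 4).div_const 4)).add
      ((hX.pow 5).div_const 5)).sub ((hX.pow 6).div_const 6)))
    have h3 := (h2.add ((hX.pow 7).div_const (7 * m))).sub
      ((Real.hasDerivAt_log hs.ne').add_const 1)
    refine h3.congr_deriv ?_
    simp only [Nat.cast_ofNat, Nat.add_one_sub_one]
    field_simp
    ring
  have hsm : ∀ s : ℝ, m ≤ s → 0 ≤ (s - 1) ^ 6 * (1 / m - 1 / s) := by
    intro s hs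
    have h3 : 1 / s ≤ 1 / m := one_div_le_one_div_of_le hm hs
    have : 0 ≤ (s - 1) ^ 6 := by positivity
    exact mul_nonneg this (by linarith)
  have key := nonneg_of_second (D := fun s => T7 s + (s - 1) ^ 8 / (56 * m) - s * Real.log s)
    (D' := fun s => (1 + (s - 1) - (s - 1) ^ 2 / 2 + (s - 1) ^ 3 / 3 -
      (s - 1) ^ 4 / 4 + (s - 1) ^ 5 / 5 - (s - 1) ^ 6 / 6) + (s - 1) ^ 7 / (7 * m) -
        (Real.log s + 1))
    (D'' := fun s => (s - 1) ^ 6 * (1 / m - 1 / s))
    (m := m) hm.le hm1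
    (Continuous.continuousOn ((by unfold T7; fun_prop : Continuous fun s : ℝ =>
      T7 s + (s - 1) ^ 8 / (56 * m)).sub Real.continuous_mul_log))
    (fun s hs => hD1 s (hm.trans hs)) (fun s hs => hD2 s (hm.trans hs))
    (by simp [T7]) (fun _ => by simp)
    (fun hm' s hs => by
      have hmono : MonotoneOn (fun s => (1 + (s - 1) - (s - 1) ^ 2 / 2 +
          (s - 1) ^ 3 / 3 - (s - 1) ^ 4 / 4 + (s - 1) ^ 5 / 5 - (s - 1) ^ 6 / 6) +
          (s - 1) ^ 7 / (7 * m) - (Real.log s + 1)) (Set.Ici 1) := by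
        apply monotoneOn_of_deriv_nonneg (convex_Ici 1)
        · intro x hx
          exact (hD2 x (lt_of_lt_of_le one_pos hx)).continuousAt.continuousWithinAt
        · intro x hx
          rw [interior_Ici] at hx
          exact (hD2 x (one_pos.trans hx)).differentiableAt.differentiableWithinAt
        · intro x hx
          rw [interior_Ici] at hx
          rw [(hD2 x (one_pos.trans hx)).deriv]
          exact hsm x (hm1.trans (le_of_lt hx))
      have h4 := hmono (Set.mem_Ici.2 le_rfl) (Set.mem_Ici.2 hs.le) hs.le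
      simpa using h4)
    (fun s hs => hsm s hs.le) s hs
  linarith

/-- universal upper bound, `s ≥ 0` -/
theorem le_U8 (s : ℝ) (hs : 0 ≤ s) :
    s * Real.log s ≤ s * ((s - 1) - (s - 1) ^ 2 / 2 + (s - 1) ^ 3 / 3 - (s - 1) ^ 4 / 4 +
      (s - 1) ^ 5 / 5 - (s - 1) ^ 6 / 6 + (s - 1) ^ 7 / 7) := by
  rcases hs.eq_or_lt with h0 | h0
  · rw [← h0]; simp
  apply mul_le_mul_of_nonneg_left _ hs
  have hd : ∀ x : ℝ, 0 < x → HasDerivAt (fun s : ℝ => ((s - 1) - (s - 1) ^ 2 / 2 +
      (s - 1) ^ 3 / 3 - (s - 1) ^ 4 / 4 + (s - 1) ^ 5 / 5 - (s - 1) ^ 6 / 6 + (s - 1) ^ 7 / 7) -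
      Real.log s) ((x - 1) ^ 7 / x) x := by
    intro x hx
    have hX : HasDerivAt (fun s : ℝ => s - 1) 1 x := (hasDerivAt_id x).sub_const 1
    have h2 := (((((((hX.sub ((hX.pow 2).div_const 2)).add
      ((hX.pow 3).div_const 3)).sub ((hX.pow 4).div_const 4)).add
      ((hX.pow 5).div_const 5)).sub ((hX.pow 6).div_const 6)).add ((hX.pow 7).div_const 7)))
    have h3 := h2.sub (Real.hasDerivAt_log hx.ne')
    refine h3.congr_deriv ?_
    simp only [Nat.cast_ofNat, Nat.add_one_sub_one]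
    field_simp
    ring
  have hm : min s 1 ≤ 1 := min_le_right _ _
  have hm0 : 0 < min s 1 := lt_min h0 one_pos
  have key := nonneg_of_sign (D := fun s : ℝ => ((s - 1) - (s - 1) ^ 2 / 2 +
      (s - 1) ^ 3 / 3 - (s - 1) ^ 4 / 4 + (s - 1) ^ 5 / 5 - (s - 1) ^ 6 / 6 + (s - 1) ^ 7 / 7) -
      Real.log s) (D' := fun x => (x - 1) ^ 7 / x) hm
    (fun x hx => (hd x (hm0.trans_le hx)).continuousAt.continuousWithinAt)
    (fun x hx => hd x (hm0.trans hx)) (by simp)
    (fun x hx hx1 => by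
      have hx0 : 0 < x := hm0.trans hx
      have : (x - 1) ^ 7 ≤ 0 := Odd.pow_nonpos (by decide) (by linarith)
      exact div_nonpos_of_nonpos_of_nonneg this hx0.le)
    (fun x hx hx1 => by
      have hx0 : 0 < x := hm0.trans hx
      have : 0 ≤ (x - 1) ^ 7 := pow_nonneg (by linarith) 7
      positivity) s (min_le_left _ _)
  linarith

theorem log2_bounds : (0.6931471803 : ℝ) < Real.log 2 ∧ Real.log 2 < (0.6931471808 : ℝ) :=
  ⟨Real.log_two_gt_d9, Real.log_two_lt_d9⟩

theorem log3_bounds : (1.098612288 : ℝ) < Real.log 3 ∧ Real.log 3 < (1.098612289 : ℝ) := by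
  have h1 := Real.log_two_near_10
  have h2 := Real.abs_log_sub_add_sum_range_le (x := (1 / 3 : ℝ))
    (by rw [abs_of_pos] <;> norm_num) 24
  have h3 : Real.log 3 = Real.log 2 - Real.log (1 - 1 / 3) := by
    rw [← Real.log_div (by norm_num) (by norm_num)]
    norm_num
  rw [abs_of_pos (by norm_num : (0 : ℝ) < 1 / 3)] at h2
  norm_num [Finset.sum_range_succ] at h2
  rw [abs_le] at h1 h2
  norm_num at h1 h2 h3
  rw [h3]
  constructor <;> norm_num <;> linarith [h1.1, h1.2, h2.1, h2.2]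

end Vale.Agent.Lib.P154.Q4
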