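import Vale.Agent.Lib.P154.Ineq4.Poly1
import Vale.Agent.Lib.P154.Ineq4.Log1

/-!
Polynomial bounds of `s log s` on intervals, verified by the kernel.
-/

namespace Vale.Agent.Lib.P154.Q4.Net

def ipow (b : ℤ) : ℕ → ℤ
  | 0 => 1
  | n + 1 => Int.mul b (ipow b n)

theorem ipow_eq (b : ℤ) (n : ℕ) : ipow b n = b ^ n := by
  induction n with
  | zero => simp [ipow]
  | succ n ih =>
    have : ipow b (n + 1) = b * ipow b n := rfl
    rw [this, ih, pow_succ, mul_comm]

/-- center numerator -/
def cnum (kp h : ℕ) : ℤ := Int.mul (ipow 2 kp) (ipow 3 h)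
def cden (kn : ℕ) : ℤ := ipow 2 kn

def F7h (c : ℤ) : List ℤ :=
  [0, Int.mul 420 (ipow c 6), Int.mul 210 (ipow c 5), Int.mul (-70) (ipow c 4),
    Int.mul 35 (ipow c 3), Int.mul (-21) (ipow c 2), Int.mul 14 c, -10]

def F8h (c mn md : ℤ) : List ℤ :=
  [0, Int.mul mn (Int.mul 840 (ipow c 7)), Int.mul mn (Int.mul 420 (ipow c 6)),
    Int.mul mn (Int.mul (-140) (ipow c 5)), Int.mul mn (Int.mul 70 (ipow c 4)),
    Int.mul mn (Int.mul (-42) (ipow c 3)), Int.mul mn (Int.mul 28 (ipow c 2)),
    Int.mul mn (Int.mul (-20) c), Int.mul 15 md]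

def G7h (c : ℤ) : List ℤ :=
  [0, Int.mul 420 (ipow c 6), Int.mul (-210) (ipow c 5), Int.mul 140 (ipow c 4),
    Int.mul (-105) (ipow c 3), Int.mul 84 (ipow c 2), Int.mul (-70) c, 60]

/-- lower and upper bounds of `10^10 log c` -/
def lgLo (kp kn h : ℕ) : ℤ :=
  Int.sub (Int.add (Int.mul 6931471803 kp) (Int.mul 10986122880 h)) (Int.mul 6931471808 kn)
def lgHi (kp kn h : ℕ) : ℤ :=
  Int.sub (Int.add (Int.mul 6931471808 kp) (Int.mul 10986122890 h)) (Int.mul 6931471803 kn)

def ten : ℤ := 10000000000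

/-- (scaled) lower bound minus the polynomial `pi / K` -/
def lowP (K : ℤ) (pi : List ℤ) (kp kn h : ℕ) : List ℤ :=
  match cnum kp h with
  | cn => match cden kn with
    | cd => match Int.mul 420 (Int.mul (ipow cn 6) cd) with
      | M => addL (addL (scaleL (Int.mul ten K) (comp (Int.sub cd cn) cd (F7h cn)))
          (scaleL (Int.mul M K) [lgLo kp kn h, lgLo kp kn h])) (scaleL (Int.neg (Int.mul M ten)) pi)

/-- the polynomial `pi / K` minus the (scaled) upper bound, `A / N` the left end point -/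
def upP (K : ℤ) (pi : List ℤ) (kp kn h : ℕ) (A N : ℤ) : List ℤ :=
  match cnum kp h with
  | cn => match cden kn with
    | cd => match (if Int.mul A cd ≤ Int.mul N cn then Int.mul A cd else Int.mul N cn) with
      | mn => match Int.mul 840 (Int.mul (ipow cn 7) (Int.mul cd mn)) with
        | M => addL (scaleL (Int.mul M ten) pi)
            (scaleL (-1) (addL
              (scaleL (Int.mul ten K) (comp (Int.sub cd cn) cd (F8h cn mn (Int.mul N cn))))
              (scaleL (Int.mul M K) [lgHi kp kn h, lgHi kp kn h])))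

/-- same with the bound valid at `0` -/
def upP0 (K : ℤ) (pi : List ℤ) (kp kn h : ℕ) : List ℤ :=
  match cnum kp h with
  | cn => match cden kn with
    | cd => match Int.mul 420 (ipow cn 7) with
      | M => addL (scaleL (Int.mul M ten) pi)
            (scaleL (-1) (mulLin 1 1 (addL
              (scaleL (Int.mul ten K) (comp (Int.sub cd cn) cd (G7h cn)))
              [Int.mul (Int.mul M K) (lgHi kp kn h)])))

theorem imul (a b : ℤ) : Int.mul a b = a * b := rfl
theorem iadd (a b : ℤ) : Int.add a b = a + b := rfl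
theorem isub (a b : ℤ) : Int.sub a b = a - b := rfl
theorem ineg (a : ℤ) : Int.neg a = -a := rfl

theorem cnum_pos (kp h : ℕ) : 0 < cnum kp h := by
  unfold cnum; rw [imul, ipow_eq, ipow_eq]; positivity
theorem cden_pos (kn : ℕ) : 0 < cden kn := by
  unfold cden; rw [ipow_eq]; positivity

theorem log_center (kp kn h : ℕ) :
    Real.log ((cnum kp h : ℝ) / (cden kn : ℝ)) =
      kp * Real.log 2 + h * Real.log 3 - kn * Real.log 2 := by
  unfold cnum cden
  rw [imul, ipow_eq, ipow_eq, ipow_eq]
  push_cast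
  rw [Real.log_div (by positivity) (by positivity), Real.log_mul (by positivity) (by positivity),
    Real.log_pow, Real.log_pow, Real.log_pow]

theorem lgLo_le (kp kn h : ℕ) :
    (lgLo kp kn h : ℝ) ≤ 10000000000 * Real.log ((cnum kp h : ℝ) / (cden kn : ℝ)) := by
  rw [log_center]
  have h2 := log2_bounds
  have h3 := log3_bounds
  have e : (lgLo kp kn h : ℝ) = 6931471803 * kp + 10986122880 * h - 6931471808 * kn := by
    unfold lgLo
    simp only [imul, iadd, isub]
    push_cast
    ring
  rw [e]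
  have a1 : (kp : ℝ) * 0.6931471803 ≤ kp * Real.log 2 :=
    mul_le_mul_of_nonneg_left h2.1.le (Nat.cast_nonneg _)
  have a2 : (h : ℝ) * 1.098612288 ≤ h * Real.log 3 :=
    mul_le_mul_of_nonneg_left h3.1.le (Nat.cast_nonneg _)
  have a3 : (kn : ℝ) * Real.log 2 ≤ kn * 0.6931471808 :=
    mul_le_mul_of_nonneg_left h2.2.le (Nat.cast_nonneg _)
  nlinarith

theorem le_lgHi (kp kn h : ℕ) :
    10000000000 * Real.log ((cnum kp h : ℝ) / (cden kn : ℝ)) ≤ (lgHi kp kn h : ℝ) := by
  rw [log_center]
  have h2 := log2_bounds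
  have h3 := log3_bounds
  have e : (lgHi kp kn h : ℝ) = 6931471808 * kp + 10986122890 * h - 6931471803 * kn := by
    unfold lgHi
    simp only [imul, iadd, isub]
    push_cast
    ring
  rw [e]
  have a1 : (kp : ℝ) * Real.log 2 ≤ kp * 0.6931471808 :=
    mul_le_mul_of_nonneg_left h2.2.le (Nat.cast_nonneg _)
  have a2 : (h : ℝ) * Real.log 3 ≤ h * 1.098612289 :=
    mul_le_mul_of_nonneg_left h3.2.le (Nat.cast_nonneg _)
  have a3 : (kn : ℝ) * 0.6931471803 ≤ kn * Real.log 2 :=
    mul_le_mul_of_nonneg_left h2.1.le (Nat.cast_nonneg _)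
  nlinarith

theorem slog_scale (c s : ℝ) (hc : 0 < c) :
    s * Real.log s = s * Real.log c + c * (s / c * Real.log (s / c)) := by
  rcases eq_or_ne s 0 with rfl | hs
  · simp
  · rw [Real.log_div hs hc.ne']
    field_simp
    ring

theorem evalF7 (c : ℤ) (hc : 0 < c) (L : ℝ) :
    evalL (F7h c) L = 420 * (c : ℝ) ^ 7 * T7 (L / c + 1) := by
  have hc' : (c : ℝ) ≠ 0 := by exact_mod_cast hc.ne'
  unfold F7h T7
  simp only [imul, ipow_eq, evalL]
  push_cast
  field_simp
  ring

theorem evalF8 (c mn md : ℤ) (hc : 0 < c) (hmn : 0 < mn) (hmd : 0 < md) (L : ℝ) :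
    evalL (F8h c mn md) L =
      840 * (c : ℝ) ^ 8 * mn * (T7 (L / c + 1) + (L / c) ^ 8 / (56 * ((mn : ℝ) / md))) := by
  have hc' : (c : ℝ) ≠ 0 := by exact_mod_cast hc.ne'
  have hmn' : (mn : ℝ) ≠ 0 := by exact_mod_cast hmn.ne'
  have hmd' : (md : ℝ) ≠ 0 := by exact_mod_cast hmd.ne'
  unfold F8h T7
  simp only [imul, ipow_eq, evalL]
  push_cast
  field_simp
  ring

theorem evalG7 (c : ℤ) (hc : 0 < c) (L : ℝ) :
    evalL (G7h c) L = 420 * (c : ℝ) ^ 7 * ((L / c) - (L / c) ^ 2 / 2 + (L / c) ^ 3 / 3 -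
      (L / c) ^ 4 / 4 + (L / c) ^ 5 / 5 - (L / c) ^ 6 / 6 + (L / c) ^ 7 / 7) := by
  have hc' : (c : ℝ) ≠ 0 := by exact_mod_cast hc.ne'
  unfold G7h
  simp only [imul, ipow_eq, evalL]
  push_cast
  field_simp
  ring

theorem low_sound (K : ℤ) (hK : 0 < K) (pi : List ℤ) (kp kn h : ℕ) (v : ℝ) (hv : -1 ≤ v)
    (hp : 0 ≤ evalL (lowP K pi kp kn h) v) :
    evalL pi v / K ≤ (1 + v) * Real.log (1 + v) := by
  have hcn := cnum_pos kp h
  have hcd := cden_pos kn
  have hlg := lgLo_le kp kn h
  have hcn' : (0 : ℝ) < cnum kp h := by exact_mod_cast hcn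
  have hcd' : (0 : ℝ) < cden kn := by exact_mod_cast hcd
  have hK' : (0 : ℝ) < K := by exact_mod_cast hK
  set cn := (cnum kp h : ℝ) with hcndef
  set cd := (cden kn : ℝ) with hcddef
  have e : evalL (lowP K pi kp kn h) v = 10000000000 * K * (420 * cn ^ 7 * T7 ((1 + v) / (cn / cd)))
      + 420 * (cn ^ 6 * cd) * K * (lgLo kp kn h * (1 + v)) -
        420 * (cn ^ 6 * cd) * 10000000000 * evalL pi v := by
    unfold lowP
    simp only [evalL_addL, evalL_scaleL, evalL_comp, imul, isub, ineg, ipow_eq]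
    rw [evalF7 _ hcn]
    have e1 : (((cden kn - cnum kp h : ℤ) : ℝ) + (cden kn : ℝ) * v) / (cnum kp h : ℝ) + 1 =
        (1 + v) / (cn / cd) := by
      rw [hcndef, hcddef] at *
      push_cast
      field_simp
      ring
    rw [e1]
    unfold ten
    simp only [evalL]
    push_cast
    ring
  rw [e] at hp
  have hs : 0 ≤ (1 + v) := by linarith
  have hc : 0 < cn / cd := by positivity
  have h7 := T7_le ((1 + v) / (cn / cd)) (div_nonneg hs hc.le)
  rw [slog_scale (cn / cd) (1 + v) hc, div_le_iff₀ hK']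
  have h8 : (1 + v) * (lgLo kp kn h : ℝ) ≤ (1 + v) * (10000000000 * Real.log (cn / cd)) :=
    mul_le_mul_of_nonneg_left hlg hs
  set X := T7 ((1 + v) / (cn / cd)) with hX
  set Y := (1 + v) / (cn / cd) * Real.log ((1 + v) / (cn / cd)) with hY
  set Z := Real.log (cn / cd) with hZ
  set P := evalL pi v with hP
  set l := (lgLo kp kn h : ℝ) with hl
  -- divide by 420 cn^6 cd
  have h9 : 0 ≤ (420 * (cn ^ 6 * cd)) * (10000000000 * K * (cn / cd) * X + K * (l * (1 + v)) -
      10000000000 * P) := by
    have : (420 * (cn ^ 6 * cd)) * (10000000000 * K * (cn / cd) * X + K * (l * (1 + v)) -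
      10000000000 * P) = 10000000000 * K * (420 * cn ^ 7 * X) +
        420 * (cn ^ 6 * cd) * K * (l * (1 + v)) - 420 * (cn ^ 6 * cd) * 10000000000 * P := by
      field_simp
    rw [this]; exact hp
  have h10 := nonneg_of_mul_nonneg_right h9 (by positivity)
  have h11 : (K : ℝ) * (cn / cd) * X ≤ K * (cn / cd) * Y :=
    mul_le_mul_of_nonneg_left h7 (by positivity)
  have h12 : (K : ℝ) * ((1 + v) * l) ≤ K * ((1 + v) * (10000000000 * Z)) :=
    mul_le_mul_of_nonneg_left h8 hK'.le
  linarith

theorem up_sound (K : ℤ) (hK : 0 < K) (pi : List ℤ) (kp kn h : ℕ) (A N : ℤ) (hA : 0 < A)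
    (hN : 0 < N) (v : ℝ) (hv : (A : ℝ) ≤ N * (1 + v))
    (hp : 0 ≤ evalL (upP K pi kp kn h A N) v) :
    (1 + v) * Real.log (1 + v) ≤ evalL pi v / K := by
  have hcn := cnum_pos kp h
  have hcd := cden_pos kn
  have hlg := le_lgHi kp kn h
  have hcn' : (0 : ℝ) < cnum kp h := by exact_mod_cast hcn
  have hcd' : (0 : ℝ) < cden kn := by exact_mod_cast hcd
  have hK' : (0 : ℝ) < K := by exact_mod_cast hK
  have hA' : (0 : ℝ) < A := by exact_mod_cast hA
  have hN' : (0 : ℝ) < N := by exact_mod_cast hN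
  obtain ⟨mn, hmndef⟩ : ∃ mn : ℤ, mn = if A * cden kn ≤ N * cnum kp h then A * cden kn
    else N * cnum kp h := ⟨_, rfl⟩
  have hmn : 0 < mn := by
    rw [hmndef]
    split_ifs <;> positivity
  have hmnle1 : mn ≤ A * cden kn := by
    rw [hmndef]; split_ifs <;> omega
  have hmnle2 : mn ≤ N * cnum kp h := by
    rw [hmndef]; split_ifs <;> omega
  set cn := (cnum kp h : ℝ) with hcndef
  set cd := (cden kn : ℝ) with hcddef
  have hmn' : (0 : ℝ) < mn := by exact_mod_cast hmn
  have hle1 : (mn : ℝ) ≤ A * cd := by rw [hcddef]; exact_mod_cast hmnle1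
  have hle2 : (mn : ℝ) ≤ N * cn := by rw [hcndef]; exact_mod_cast hmnle2
  set m : ℝ := mn / (N * cn) with hm
  have hm0 : 0 < m := by positivity
  have hm1 : m ≤ 1 := by rw [hm, div_le_one (by positivity)]; exact hle2
  have hs : 0 < 1 + v := by
    by_contra hcon
    have : N * (1 + v) ≤ 0 := mul_nonpos_of_nonneg_of_nonpos hN'.le (by linarith)
    linarith
  have hms : m ≤ (1 + v) / (cn / cd) := by
    rw [hm, div_le_div_iff₀ (by positivity) (by positivity)]
    have h1 : (mn : ℝ) * (cn / cd) ≤ A * cd * (cn / cd) :=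
      mul_le_mul_of_nonneg_right hle1 (by positivity)
    have h2 : (A : ℝ) * cd * (cn / cd) = A * cn := by field_simp
    have h3 : (A : ℝ) * cn ≤ N * (1 + v) * cn := mul_le_mul_of_nonneg_right hv hcn'.le
    calc (mn : ℝ) * (cn / cd) ≤ A * cn := by rw [← h2]; exact h1
      _ ≤ N * (1 + v) * cn := h3
      _ = (1 + v) * (N * cn) := by ring
  have h8 := le_T8 ((1 + v) / (cn / cd)) m hm0 hm1 hms
  have e : evalL (upP K pi kp kn h A N) v = 840 * (cn ^ 7 * (cd * mn)) * 10000000000 * evalL pi v -
      (10000000000 * K * (840 * cn ^ 8 * mn * (T7 ((1 + v) / (cn / cd)) +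
        ((1 + v) / (cn / cd) - 1) ^ 8 / (56 * m)))
      + 840 * (cn ^ 7 * (cd * mn)) * K * (lgHi kp kn h * (1 + v))) := by
    unfold upP
    simp only [imul, ← hmndef]
    simp only [evalL_addL, evalL_scaleL, evalL_comp, isub, ipow_eq]
    rw [evalF8 _ _ _ hcn hmn (by positivity)]
    have e1 : (((cden kn - cnum kp h : ℤ) : ℝ) + (cden kn : ℝ) * v) / (cnum kp h : ℝ) =
        (1 + v) / (cn / cd) - 1 := by
      rw [hcndef, hcddef] at *
      push_cast
      field_simp
      ring
    rw [e1]
    have e3 : ((mn : ℝ) / ((N * cnum kp h : ℤ) : ℝ)) = m := by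
      rw [hm, hcndef]; push_cast; rfl
    rw [e3]
    unfold ten
    simp only [evalL]
    push_cast
    rw [show (1 + v) / (cn / cd) - 1 + 1 = (1 + v) / (cn / cd) by ring]
    ring
  rw [e] at hp
  have hc : 0 < cn / cd := by positivity
  rw [slog_scale (cn / cd) (1 + v) hc, le_div_iff₀ hK']
  have h9 : (1 + v) * (10000000000 * Real.log (cn / cd)) ≤ (1 + v) * (lgHi kp kn h : ℝ) :=
    mul_le_mul_of_nonneg_left hlg hs.le
  set X := T7 ((1 + v) / (cn / cd)) + ((1 + v) / (cn / cd) - 1) ^ 8 / (56 * m) with hX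
  set Y := (1 + v) / (cn / cd) * Real.log ((1 + v) / (cn / cd)) with hY
  set Z := Real.log (cn / cd) with hZ
  set P := evalL pi v with hP
  set l := (lgHi kp kn h : ℝ) with hl
  have h10 : 0 ≤ (840 * (cn ^ 7 * (cd * mn))) * (10000000000 * P -
      (10000000000 * K * (cn / cd) * X + K * (l * (1 + v)))) := by
    have : (840 * (cn ^ 7 * (cd * mn))) * (10000000000 * P -
      (10000000000 * K * (cn / cd) * X + K * (l * (1 + v)))) =
        840 * (cn ^ 7 * (cd * mn)) * 10000000000 * P -
      (10000000000 * K * (840 * cn ^ 8 * mn * X)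
      + 840 * (cn ^ 7 * (cd * mn)) * K * (l * (1 + v))) := by
      field_simp
    rw [this]; exact hp
  have h11 := nonneg_of_mul_nonneg_right h10 (by positivity)
  have h12 : (K : ℝ) * (cn / cd) * Y ≤ K * (cn / cd) * X :=
    mul_le_mul_of_nonneg_left h8 (by positivity)
  have h13 : (K : ℝ) * ((1 + v) * (10000000000 * Z)) ≤ K * ((1 + v) * l) :=
    mul_le_mul_of_nonneg_left h9 hK'.le
  linarith

theorem up0_sound (K : ℤ) (hK : 0 < K) (pi : List ℤ) (kp kn h : ℕ) (v : ℝ) (hv : -1 ≤ v)
    (hp : 0 ≤ evalL (upP0 K pi kp kn h) v) :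
    (1 + v) * Real.log (1 + v) ≤ evalL pi v / K := by
  have hcn := cnum_pos kp h
  have hcd := cden_pos kn
  have hlg := le_lgHi kp kn h
  have hcn' : (0 : ℝ) < cnum kp h := by exact_mod_cast hcn
  have hcd' : (0 : ℝ) < cden kn := by exact_mod_cast hcd
  have hK' : (0 : ℝ) < K := by exact_mod_cast hK
  set cn := (cnum kp h : ℝ) with hcndef
  set cd := (cden kn : ℝ) with hcddef
  have hs : 0 ≤ (1 + v) := by linarith
  have hc : 0 < cn / cd := by positivity
  set u := (1 + v) / (cn / cd) with hu
  have hu0 : 0 ≤ u := div_nonneg hs hc.le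
  have h8 := le_U8 u hu0
  have e : evalL (upP0 K pi kp kn h) v = 420 * cn ^ 7 * 10000000000 * evalL pi v -
      (1 + v) * (10000000000 * K * (420 * cn ^ 7 * ((u - 1) - (u - 1) ^ 2 / 2 + (u - 1) ^ 3 / 3 -
        (u - 1) ^ 4 / 4 + (u - 1) ^ 5 / 5 - (u - 1) ^ 6 / 6 + (u - 1) ^ 7 / 7)) +
        420 * cn ^ 7 * K * lgHi kp kn h) := by
    unfold upP0
    simp only [imul]
    simp only [evalL_addL, evalL_scaleL, evalL_comp, evalL_mulLin, isub, ipow_eq]
    rw [evalG7 _ hcn]
    have e1 : (((cden kn - cnum kp h : ℤ) : ℝ) + (cden kn : ℝ) * v) / (cnum kp h : ℝ) =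
        u - 1 := by
      rw [hu, hcndef, hcddef] at *
      push_cast
      field_simp
      ring
    rw [e1]
    unfold ten
    simp only [evalL]
    push_cast
    ring
  rw [e] at hp
  rw [slog_scale (cn / cd) (1 + v) hc, le_div_iff₀ hK']
  have h9 : (1 + v) * (10000000000 * Real.log (cn / cd)) ≤ (1 + v) * (lgHi kp kn h : ℝ) :=
    mul_le_mul_of_nonneg_left hlg hs
  rw [← hu]
  set W := ((u - 1) - (u - 1) ^ 2 / 2 + (u - 1) ^ 3 / 3 -
        (u - 1) ^ 4 / 4 + (u - 1) ^ 5 / 5 - (u - 1) ^ 6 / 6 + (u - 1) ^ 7 / 7) with hW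
  set Z := Real.log (cn / cd) with hZ
  set P := evalL pi v with hP
  set l := (lgHi kp kn h : ℝ) with hl
  have h10 : 0 ≤ (420 * cn ^ 7) * (10000000000 * P -
      (1 + v) * (10000000000 * K * W + K * l)) := by
    have : (420 * cn ^ 7) * (10000000000 * P -
      (1 + v) * (10000000000 * K * W + K * l)) =
        420 * cn ^ 7 * 10000000000 * P -
      (1 + v) * (10000000000 * K * (420 * cn ^ 7 * W) + 420 * cn ^ 7 * K * l) := by
      ring
    rw [this]; exact hp
  have h11 := nonneg_of_mul_nonneg_right h10 (by positivity)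
  have hcu : cn / cd * u = 1 + v := by rw [hu]; field_simp
  have h12 : (K : ℝ) * ((cn / cd) * (u * Real.log u)) ≤ K * ((cn / cd) * (u * W)) :=
    mul_le_mul_of_nonneg_left (mul_le_mul_of_nonneg_left h8 hc.le) hK'.le
  have h12' : (K : ℝ) * ((cn / cd) * (u * W)) = K * ((1 + v) * W) := by
    rw [← hcu]; ring
  have h13 : (K : ℝ) * ((1 + v) * (10000000000 * Z)) ≤ K * ((1 + v) * l) :=
    mul_le_mul_of_nonneg_left h9 hK'.le
  linarith

/-! ### lists of pieces -/

structure Pc where
  kp : ℕ
  kn : ℕ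
  h : ℕ
  e : ℤ

/-- `dep` subdivision depth, `N` denominator, `A` left end, pieces with their right ends -/
def lowChk (dep : ℕ) (K : ℤ) (pi : List ℤ) (N : ℤ) : ℤ → List Pc → Bool
  | _, [] => true
  | A, p :: l => match chk dep (Int.sub A N) (Int.sub p.e N) N (strip 3 (lowP K pi p.kp p.kn p.h)) with
    | true => match decide (A < p.e) with
      | true => lowChk dep K pi N p.e l
      | false => false
    | false => false

def upChk (dep : ℕ) (K : ℤ) (pi : List ℤ) (N : ℤ) : ℤ → List Pc → Bool
  | _, [] => true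
  | A, p :: l => match (match A with
        | Int.ofNat 0 => chk dep (Int.sub A N) (Int.sub p.e N) N (strip 3 (upP0 K pi p.kp p.kn p.h))
        | _ => match decide (0 < A) with
          | true => chk dep (Int.sub A N) (Int.sub p.e N) N (strip 3 (upP K pi p.kp p.kn p.h A N))
          | false => false) with
    | true => match decide (A < p.e) with
      | true => upChk dep K pi N p.e l
      | false => false
    | false => false

def lastE : ℤ → List Pc → ℤ
  | A, [] => A
  | _, p :: l => lastE p.e l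

theorem lowChk_sound (dep : ℕ) (K : ℤ) (hK : 0 < K) (pi : List ℤ) (N : ℤ) (hN : 0 < N) (A : ℤ)
    (hA : 0 ≤ A) (l : List Pc) (h : lowChk dep K pi N A l = true) (s : ℝ) (h1 : (A : ℝ) ≤ N * s)
    (h2 : N * s ≤ (lastE A l : ℝ)) (hne : l ≠ []) : evalL pi (s - 1) / K ≤ s * Real.log s := by
  have hN' : (0 : ℝ) < N := by exact_mod_cast hN
  induction l generalizing A with
  | nil => exact absurd rfl hne
  | cons p l ih =>
    unfold lowChk at h
    split at h
    · rename_i h3
      split at h
      · rename_i h4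
        have h4' : A < p.e := of_decide_eq_true h4
        by_cases hx : N * s ≤ p.e
        · have hA' : (0 : ℝ) ≤ A := by exact_mod_cast hA
          have hs : 0 ≤ s := by
            by_contra hcon
            have : N * s < 0 := mul_neg_of_pos_of_neg hN' (by linarith)
            linarith
          have h5 := chk_sound dep (A - N) (p.e - N) N (by omega) hN _ h3 (s - 1)
            (by push_cast; linarith) (by push_cast; linarith)
          have h6 := low_sound K hK pi p.kp p.kn p.h (s - 1) (by linarith) (strip_nonneg _ _ _ h5)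
          rwa [show (1 + (s - 1)) = s by ring] at h6
        · have hl : l ≠ [] := by
            rintro rfl
            simp only [lastE] at h2
            exact hx h2
          exact ih p.e (by omega) h (le_of_lt (not_le.1 hx)) h2 hl
      · simp at h
    · simp at h

theorem upChk_sound (dep : ℕ) (K : ℤ) (hK : 0 < K) (pi : List ℤ) (N : ℤ) (hN : 0 < N) (A : ℤ)
    (hA : 0 ≤ A) (l : List Pc) (h : upChk dep K pi N A l = true) (s : ℝ) (h1 : (A : ℝ) ≤ N * s)
    (h2 : N * s ≤ (lastE A l : ℝ)) (hne : l ≠ []) : s * Real.log s ≤ evalL pi (s - 1) / K := by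
  have hN' : (0 : ℝ) < N := by exact_mod_cast hN
  induction l generalizing A with
  | nil => exact absurd rfl hne
  | cons p l ih =>
    unfold upChk at h
    split at h
    · rename_i h3
      split at h
      · rename_i h4
        have h4' : A < p.e := of_decide_eq_true h4
        by_cases hx : N * s ≤ p.e
        · have hA' : (0 : ℝ) ≤ A := by exact_mod_cast hA
          have hs : 0 ≤ s := by
            by_contra hcon
            have : N * s < 0 := mul_neg_of_pos_of_neg hN' (by linarith)
            linarith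
          split at h3
          · rename_i h7
            have h5 := chk_sound dep (Int.ofNat 0 - N) (p.e - N) N (by
              have : (Int.ofNat 0) < p.e := h4'
              omega) hN _ h3 (s - 1)
              (by
                have e0 : ((Int.ofNat 0 - N : ℤ) : ℝ) = -(N : ℝ) := by simp
                rw [e0]
                have := mul_nonneg hN'.le hs
                linarith) (by push_cast; linarith)
            have h6 := up0_sound K hK pi p.kp p.kn p.h (s - 1) (by linarith)
              (strip_nonneg _ _ _ h5)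
            rwa [show (1 + (s - 1)) = s by ring] at h6
          · split at h3
            · rename_i h8
              have h8' : 0 < A := of_decide_eq_true h8
              have h5 := chk_sound dep (A - N) (p.e - N) N (by omega) hN _ h3 (s - 1)
                (by push_cast; linarith) (by push_cast; linarith)
              have h6 := up_sound K hK pi p.kp p.kn p.h A N h8' hN (s - 1)
                (by rw [show (1 + (s - 1)) = s by ring]; exact h1) (strip_nonneg _ _ _ h5)
              rwa [show (1 + (s - 1)) = s by ring] at h6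
            · simp at h3
        · have hl : l ≠ [] := by
            rintro rfl
            simp only [lastE] at h2
            exact hx h2
          exact ih p.e (by omega) h (le_of_lt (not_le.1 hx)) h2 hl
      · simp at h
    · simp at h

end Vale.Agent.Lib.P154.Q4.Net
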