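import Vale.Agent.Lib.P154.Ineq4.Gens
import Vale.Agent.Lib.P154.Ineq4.Piece1
import Vale.Agent.Lib.P154.Ineq4.Cover
import Vale.Agent.Lib.P154.Ineq4.Moments

/-!
Cells and real vectors.
-/

namespace Vale.Agent.Lib.P154.Q4.Net

open scoped BigOperators
open Finset

/-! ### faces -/

structure Face (y : Fin 4 → ℝ) (r : ℝ) (x : Fin 3 → ℝ) : Prop where
  r0 : 0 ≤ r
  r1 : r ≤ 1
  hx : ∀ i, -1 ≤ x i
  hs : ∑ i, x i = 1
  hF : ∀ F : ℝ → ℝ, ∑ i, F (y i) = F (1 - r) + ∑ i, F (1 + r * x i)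
  hm : ∀ i, 1 - r ≤ y i

theorem exists_face' (y : Fin 4 → ℝ) (hy : Nrm y) : ∃ r x, Face y r x := by
  by_cases hne : ∃ i, y i ≠ 1
  · obtain ⟨r, x, h0, h1, h2, h3, h4, h5⟩ := exists_face y hy hne
    exact ⟨r, x, h0.le, h1, h2, h3, h4, h5⟩
  · push Not at hne
    refine ⟨0, fun _ => 1 / 3, le_rfl, zero_le_one, ?_, ?_, ?_, ?_⟩
    · intro i; norm_num
    · norm_num [Fin.sum_univ_three]
    · intro F
      simp [hne, Fin.sum_univ_four, Fin.sum_univ_three]
      ring
    · intro i; simp [hne]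

/-! ### shape features -/

noncomputable def Xf (Q s : ℝ) : ℕ → ℝ
  | 0 => 1
  | 1 => Q
  | 2 => s
  | 3 => Q ^ 2
  | 4 => (Q ^ 2 + 2 * Q - 1 - 8 * s) / 2
  | 5 => Q * s
  | 6 => Q ^ 3
  | 7 => s ^ 2
  | 8 => Q * ((Q ^ 2 + 2 * Q - 1 - 8 * s) / 2)
  | 9 => Q ^ 2 * s
  | 10 => s * ((Q ^ 2 + 2 * Q - 1 - 8 * s) / 2)
  | _ => 0

def MF : List ℕ := [0, 2, 3, 4, 4, 5, 6, 6, 6, 7, 7]
def MZ : List ℕ := [0, 0, 1, 2, 2, 3, 4, 4, 4, 5, 5]

theorem feat_face {y : Fin 4 → ℝ} {r : ℝ} {x : Fin 3 → ℝ} (h : Face y r x) (f : ℕ) (hf : f < 11) :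
    feat y f = r ^ (nthN MF f) * Xf (xQ x) (xs x) f := by
  obtain ⟨h2, h3, h4⟩ := I2_face y r x h.hs h.hF
  interval_cases f <;> simp only [feat, Xf, MF, nthN, h2, h3, h4] <;> ring

theorem MZ_eq (r : ℝ) (f : ℕ) (h1 : 1 ≤ f) (hf : f < 11) :
    r ^ (nthN MF f) = r ^ 2 * r ^ (nthN MZ f) := by
  interval_cases f <;> simp only [MF, MZ, nthN] <;> ring

/-- features with the entropy bound as last entry -/
noncomputable def fe (y : Fin 4 → ℝ) (δ : ℝ) : ℕ → ℝ := fun f => if f = 11 then δ else feat y f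

/-- entropy bound of a cell -/
noncomputable def Dh (DS : ℤ) (c : Cell) (y : Fin 4 → ℝ) (r : ℝ) : ℝ :=
  ((∑ g ∈ range 11, (nth c.d g : ℝ) * feat y g) +
    ∑ m ∈ range c.R.length, (nth c.e m : ℝ) * r ^ m) / DS

def AA : ℝ := 28185722880
def BB : ℝ := 9393093476352

def RIntOK (p : ℕ) (R : List (List ℤ)) (r0 r1 : ℝ) : Prop :=
  ∀ r, r0 ≤ r → r ≤ r1 → ∃ u : ℕ → ℝ, (∀ k, 0 ≤ u k) ∧
    ∀ m, m < R.length → AA * r ^ m = ∑ k ∈ range p, u k * (nth (nthL R m) k : ℝ)

def SliceOK (S : List (List ℤ)) (Q0 Q1 : ℝ) : Prop :=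
  ∀ x : Fin 3 → ℝ, ∑ i, x i = 1 → (∀ i, -1 ≤ x i) → Q0 ≤ xQ x → xQ x ≤ Q1 →
    ∃ v : ℕ → ℝ, (∀ j, 0 ≤ v j) ∧
      ∀ f, f < 11 → BB * Xf (xQ x) (xs x) f = ∑ j ∈ range 15, v j * (nth (nthL S f) j : ℝ)

def zS (S : List (List ℤ)) : List (List ℤ) :=
  [0, 0, 0, 0, 0, 0, 0, 0, 0, 0, 0, 0, 0, 0, 0] :: S.tail

theorem nthL_zS_succ (S : List (List ℤ)) (f : ℕ) : nthL (zS S) (f + 1) = nthL S (f + 1) := by
  unfold zS
  cases S with
  | nil => simp
  | cons s S => rfl

theorem nth_zS_zero (S : List (List ℤ)) (j : ℕ) : nth (nthL (zS S) 0) j = 0 := by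
  have : nthL (zS S) 0 = [0, 0, 0, 0, 0, 0, 0, 0, 0, 0, 0, 0, 0, 0, 0] := rfl
  rw [this]
  by_cases hj : j < 15
  · interval_cases j <;> rfl
  · have : ∀ (l : List ℤ) (j : ℕ), l.length ≤ j → nth l j = 0 := by
      intro l
      induction l with
      | nil => intro j _; simp
      | cons a l ih =>
        intro j hj
        cases j with
        | zero => simp at hj
        | succ j => exact ih j (by simpa using hj)
    exact this _ j (by simp; omega)

theorem rint_of (n : ℕ) (R : List (List ℤ)) (A B : ℤ) (hAB : A < B)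
    (h : rnetOK n 28185722880 A B 16 0 R = true) :
    RIntOK (n + 1) R ((A : ℝ) / 16) ((B : ℝ) / 16) := by
  intro r h0 h1
  have hAB' : (A : ℝ) < B := by exact_mod_cast hAB
  have hd : (0 : ℝ) < B - A := by linarith
  rw [div_le_iff₀ (by norm_num)] at h0
  rw [le_div_iff₀ (by norm_num)] at h1
  refine ⟨bw n ((16 * r - A) / (B - A)), ?_, ?_⟩
  · intro k
    apply bw_nonneg
    · apply div_nonneg <;> linarith
    · rw [div_le_one hd]; linarith
  · intro m hm
    have h2 := rnetOK_sound n 28185722880 A B 16 (by norm_num) 0 R h ((16 * r - A) / (B - A)) r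
      (by
        push_cast
        field_simp
        ring) m hm
    rw [zero_add] at h2
    rw [← h2]
    unfold AA
    push_cast
    rfl

/-- control point representation on a cell away from the origin -/
theorem rep_nz {p : ℕ} {DS : ℤ} {c : Cell} {r0 r1 Q0 Q1 : ℝ} (hDS : 0 < DS)
    (hR : RIntOK p c.R r0 r1) (hS : SliceOK c.S Q0 Q1) (hm : c.mf = MF) (hRl : c.R.length = 8)
    {y : Fin 4 → ℝ} {r : ℝ} {x : Fin 3 → ℝ} (hf : Face y r x) (h1 : r0 ≤ r) (h2 : r ≤ r1)
    (h3 : Q0 ≤ xQ x) (h4 : xQ x ≤ Q1) :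
    Nonempty (Rep (15 * p) DS (AA * BB * DS) c false (fe y (Dh DS c y r))) := by
  obtain ⟨u, hu, hu2⟩ := hR r h1 h2
  obtain ⟨v, hv, hv2⟩ := hS x hf.hs hf.hx h3 h4
  have hDS' : (0 : ℝ) < DS := by exact_mod_cast hDS
  have hmf : ∀ f, f < 11 → nthN c.mf f < c.R.length := by
    intro f hf'
    rw [hm, hRl]
    interval_cases f <;> decide
  refine ⟨⟨fun i => u (i / 15) * v (i % 15), 1, fe y (Dh DS c y r),
    fun i => mul_nonneg (hu _) (hv _), zero_le_one, ?_, fun _ _ => rfl, fun _ => rfl⟩⟩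
  intro f hf12
  have key := hull_entI p DS c AA BB r u v (Xf (xQ x) (xs x)) hu2 hv2 hmf f
  rw [one_mul, key]
  by_cases h11 : f < 11
  · simp only [h11, if_true]
    have e : fe y (Dh DS c y r) f = feat y f := by
      unfold fe; rw [if_neg (by omega)]
    rw [e, feat_face hf f h11, hm]
    ring
  · have hf11 : f = 11 := by omega
    subst hf11
    simp only [show ¬ (11 < 11) by omega, if_false]
    have e : fe y (Dh DS c y r) 11 = Dh DS c y r := by unfold fe; simp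
    rw [e]
    unfold Dh
    have e2 : ∑ g ∈ range 11, (nth c.d g : ℝ) * (r ^ nthN c.mf g * Xf (xQ x) (xs x) g) =
        ∑ g ∈ range 11, (nth c.d g : ℝ) * feat y g := by
      refine sum_congr rfl fun g hg => ?_
      rw [feat_face hf g (mem_range.1 hg), hm]
    rw [e2]
    have e3 : Xf (xQ x) (xs x) 0 = 1 := rfl
    rw [e3]
    field_simp

/-- control point representation on a cell at the origin -/
theorem rep_z {p : ℕ} {DS : ℤ} {c : Cell} {S : List (List ℤ)} {r0 r1 Q0 Q1 : ℝ} (hDS : 0 < DS)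
    (hR : RIntOK p c.R r0 r1) (hS : SliceOK S Q0 Q1) (hcS : c.S = zS S) (hm : c.mf = MZ)
    (hRl : c.R.length = 6) (he : ∀ m, nth c.e m = 0) (hd : nth c.d 0 = 0)
    {y : Fin 4 → ℝ} {r : ℝ} {x : Fin 3 → ℝ} (hf : Face y r x) (h1 : r0 ≤ r) (h2 : r ≤ r1)
    (h3 : Q0 ≤ xQ x) (h4 : xQ x ≤ Q1) :
    Nonempty (Rep (15 * p) DS (AA * BB * DS) c true (fe y (Dh DS c y r))) := by
  obtain ⟨u, hu, hu2⟩ := hR r h1 h2
  obtain ⟨v, hv, hv2⟩ := hS x hf.hs hf.hx h3 h4
  have hDS' : (0 : ℝ) < DS := by exact_mod_cast hDS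
  have hmf : ∀ f, f < 11 → nthN c.mf f < c.R.length := by
    intro f hf'
    rw [hm, hRl]
    interval_cases f <;> decide
  have hv3 : ∀ f, f < 11 → BB * (if f = 0 then 0 else Xf (xQ x) (xs x) f) =
      ∑ j ∈ range 15, v j * (nth (nthL c.S f) j : ℝ) := by
    intro f hf'
    rw [hcS]
    rcases Nat.eq_zero_or_pos f with rfl | hpos
    · simp only [if_true, mul_zero, nth_zS_zero]
      simp
    · obtain ⟨g, rfl⟩ : ∃ g, f = g + 1 := ⟨f - 1, by omega⟩
      rw [if_neg (by omega), nthL_zS_succ]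
      exact hv2 _ hf'
  refine ⟨⟨fun i => u (i / 15) * v (i % 15), r ^ 2, fun f => if f = 0 then 0 else
    fe y (Dh DS c y r) f, fun i => mul_nonneg (hu _) (hv _), sq_nonneg _, ?_, ?_, ?_⟩⟩
  · intro f hf12
    have key := hull_entI p DS c AA BB r u v (fun f => if f = 0 then 0 else Xf (xQ x) (xs x) f)
      hu2 hv3 hmf f
    rw [key]
    rcases Nat.eq_zero_or_pos f with rfl | hpos
    · simp
    · have hf0 : f ≠ 0 := by omega
      simp only [hf0, if_false]
      by_cases h11 : f < 11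
      · simp only [h11, if_true]
        have e : fe y (Dh DS c y r) f = feat y f := by
          unfold fe; rw [if_neg (by omega)]
        rw [e, feat_face hf f h11, hm, MZ_eq r f hpos h11]
        ring
      · have hf11 : f = 11 := by omega
        subst hf11
        simp only [show ¬ (11 < 11) by omega, if_false]
        have e : fe y (Dh DS c y r) 11 = Dh DS c y r := by unfold fe; simp
        rw [e]
        unfold Dh
        have e2 : r ^ 2 * ∑ g ∈ range 11, (nth c.d g : ℝ) * (r ^ nthN c.mf g *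
            (if g = 0 then 0 else Xf (xQ x) (xs x) g)) =
            ∑ g ∈ range 11, (nth c.d g : ℝ) * feat y g := by
          rw [mul_sum]
          refine sum_congr rfl fun g hg => ?_
          have hg' := mem_range.1 hg
          rcases Nat.eq_zero_or_pos g with rfl | hg0
          · rw [hd]; simp
          · rw [if_neg (by omega), feat_face hf g hg', hm, MZ_eq r g hg0 hg']
            ring
        have e3 : ∑ m ∈ range c.R.length, (nth c.e m : ℝ) * r ^ m = 0 := by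
          refine sum_eq_zero fun m _ => ?_
          rw [he]; simp
        rw [e3, ← e2]
        simp only [if_true, mul_zero, add_zero]
        field_simp
  · intro f hf1
    simp only [show f ≠ 0 by omega, if_false]
  · intro h; simp at h

/-! ### the entropy bound -/

theorem evalL_eq (l : List ℤ) (x : ℝ) (n : ℕ) (h : l.length ≤ n) :
    evalL l x = ∑ k ∈ range n, (nth l k : ℝ) * x ^ k := by
  induction l generalizing n with
  | nil => simp [evalL]
  | cons a l ih =>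
    obtain ⟨n, rfl⟩ : ∃ m, n = m + 1 := ⟨n - 1, by simp at h; omega⟩
    rw [sum_range_succ']
    simp only [evalL, nth_cons_succ, nth_cons_zero, pow_zero, mul_one]
    rw [ih n (by simpa using h), mul_sum, add_comm]
    congr 1
    refine sum_congr rfl fun k _ => ?_
    ring

/-- coefficients of the features in the average of a polynomial -/
def piD (pi : List ℤ) : List ℤ :=
  [nth pi 0, nth pi 2, Int.mul 6 (nth pi 3), Int.mul 3 (nth pi 4), Int.mul (-2) (nth pi 4),
    Int.mul 20 (nth pi 5), Int.mul 7 (nth pi 6), Int.mul 48 (nth pi 6), Int.mul (-6) (nth pi 6),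
    Int.mul 70 (nth pi 7), Int.mul (-28) (nth pi 7)]

theorem avg_poly (y : Fin 4 → ℝ) (hy : ∑ i, y i = 4) (pi : List ℤ) (hl : pi.length ≤ 8) :
    ∑ i, evalL pi (y i - 1) = 4 * ∑ g ∈ range 11, (nth (piD pi) g : ℝ) * feat y g := by
  have e : ∀ i, evalL pi (y i - 1) = ∑ k ∈ range 8, (nth pi k : ℝ) * (y i - 1) ^ k :=
    fun i => evalL_eq pi _ 8 hl
  simp only [e]
  rw [sum_comm]
  have e2 : ∀ k, ∑ i, (nth pi k : ℝ) * (y i - 1) ^ k = (nth pi k : ℝ) * ∑ i, (y i - 1) ^ k :=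
    fun k => by rw [mul_sum]
  simp only [e2, sum_range_succ, sum_range_zero, piD, nth_cons_zero, nth_cons_succ, imul]
  rw [psum2 y hy, psum3 y hy, psum4 y hy, psum5 y hy, psum6 y hy, psum7 y hy]
  have h1 : ∑ i, (y i - 1) ^ 1 = 0 := by
    simp only [pow_one, sum_sub_distrib, hy]
    simp
  rw [h1]
  simp only [feat]
  push_cast
  simp
  ring

def sgnI : ℕ → ℤ
  | 0 => 1
  | n + 1 => Int.neg (sgnI n)

theorem sgnI_eq (n : ℕ) : ((sgnI n : ℤ) : ℝ) = (-1) ^ n := by
  induction n with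
  | zero => simp [sgnI]
  | succ n ih =>
    have : sgnI (n + 1) = -sgnI n := rfl
    rw [this]
    push_cast
    rw [ih, pow_succ]
    ring

/-- consistency of the coefficients of a cell with the polynomials `pi / K`, `pi0 / K` -/
def dOK (DS K : ℤ) (c : Cell) (pi pi0 : List ℤ) : Bool :=
  (List.range 11).all (fun g => decide (Int.mul K (nth c.d g) = Int.mul DS (nth (piD pi) g))) &&
  (List.range 8).all (fun m => decide (Int.mul (Int.mul 4 K) (nth c.e m) =
    Int.mul (Int.mul DS (sgnI m)) (Int.sub (nth pi0 m) (nth pi m)))) &&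
  Nat.ble pi.length 8 && Nat.ble pi0.length 8 && Nat.ble c.R.length 8 &&
  Nat.ble c.e.length c.R.length

theorem nth_of_length_le (l : List ℤ) (j : ℕ) (h : l.length ≤ j) : nth l j = 0 := by
  induction l generalizing j with
  | nil => simp
  | cons a l ih =>
    cases j with
    | zero => simp at h
    | succ j => exact ih j (by simpa using h)

theorem Dh_eq {DS K : ℤ} (hDS : 0 < DS) (hK : 0 < K) {c : Cell} {pi pi0 : List ℤ}
    (h : dOK DS K c pi pi0 = true) (y : Fin 4 → ℝ) (hy : ∑ i, y i = 4) (r : ℝ) :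
    Dh DS c y r = (evalL pi0 (-r) - evalL pi (-r) + ∑ i, evalL pi (y i - 1)) / (4 * K) := by
  unfold dOK at h
  simp only [Bool.and_eq_true, List.all_eq_true, List.mem_range] at h
  obtain ⟨⟨⟨⟨⟨hd, he⟩, hl⟩, hl0⟩, hR⟩, heR⟩ := h
  have hl := Nat.le_of_ble_eq_true hl
  have hl0 := Nat.le_of_ble_eq_true hl0
  have hR := Nat.le_of_ble_eq_true hR
  have heR := Nat.le_of_ble_eq_true heR
  have hDS' : (0 : ℝ) < DS := by exact_mod_cast hDS
  have hK' : (0 : ℝ) < K := by exact_mod_cast hK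
  have hd' : ∀ g, g < 11 → (K : ℝ) * (nth c.d g : ℝ) = DS * (nth (piD pi) g : ℝ) := by
    intro g hg
    have := of_decide_eq_true (hd g hg)
    rw [imul, imul] at this
    exact_mod_cast this
  have he' : ∀ m, m < 8 → (4 * K : ℝ) * (nth c.e m : ℝ) =
      DS * (-1) ^ m * ((nth pi0 m : ℝ) - (nth pi m : ℝ)) := by
    intro m hm
    have := of_decide_eq_true (he m hm)
    rw [imul, imul, imul, imul, isub] at this
    have h2 : ((4 * K * nth c.e m : ℤ) : ℝ) = ((DS * sgnI m * (nth pi0 m - nth pi m) : ℤ) : ℝ) := by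
      rw [this]
    push_cast at h2
    rw [sgnI_eq] at h2
    exact h2
  have e1 : ∑ m ∈ range c.R.length, (nth c.e m : ℝ) * r ^ m =
      ∑ m ∈ range 8, (nth c.e m : ℝ) * r ^ m := by
    refine sum_subset (range_subset_range.2 hR) fun m _ hm => ?_
    have : c.R.length ≤ m := by simpa using hm
    rw [nth_of_length_le _ _ (heR.trans this)]
    simp
  have e2 : (4 * K : ℝ) * ∑ m ∈ range 8, (nth c.e m : ℝ) * r ^ m =
      DS * (evalL pi0 (-r) - evalL pi (-r)) := by
    rw [evalL_eq pi0 _ 8 hl0, evalL_eq pi _ 8 hl, ← sum_sub_distrib, mul_sum, mul_sum]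
    refine sum_congr rfl fun m hm => ?_
    rw [← mul_assoc, he' m (mem_range.1 hm), neg_pow r]
    ring
  have e3 : (K : ℝ) * ∑ g ∈ range 11, (nth c.d g : ℝ) * feat y g =
      DS * ∑ g ∈ range 11, (nth (piD pi) g : ℝ) * feat y g := by
    rw [mul_sum, mul_sum]
    refine sum_congr rfl fun g hg => ?_
    rw [← mul_assoc, hd' g (mem_range.1 hg)]
    ring
  rw [avg_poly y hy pi hl]
  unfold Dh
  rw [e1, div_eq_div_iff (by positivity) (by positivity)]
  linear_combination (4 : ℝ) * e3 + e2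

theorem ent_le_Dh {DS K : ℤ} (hDS : 0 < DS) (hK : 0 < K) {c : Cell} {pi pi0 : List ℤ}
    (h : dOK DS K c pi pi0 = true) {y : Fin 4 → ℝ} (hy : ∑ i, y i = 4) {r : ℝ} {x : Fin 3 → ℝ}
    (hf : Face y r x)
    (h0 : (1 - r) * Real.log (1 - r) ≤ evalL pi0 ((1 - r) - 1) / K)
    (h1 : ∀ i, (1 + r * x i) * Real.log (1 + r * x i) ≤ evalL pi ((1 + r * x i) - 1) / K) :
    ent y ≤ Dh DS c y r := by
  have hK' : (0 : ℝ) < K := by exact_mod_cast hK
  rw [Dh_eq hDS hK h y hy r]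
  unfold ent
  rw [hf.hF (fun t => t * Real.log t), hf.hF (fun t => evalL pi (t - 1)),
    div_le_div_iff₀ (by norm_num) (by positivity)]
  rw [le_div_iff₀ hK'] at h0
  have h2 : ∑ i, (1 + r * x i) * Real.log (1 + r * x i) * K ≤
      ∑ i, evalL pi ((1 + r * x i) - 1) := by
    refine sum_le_sum fun i _ => ?_
    have := h1 i
    rwa [le_div_iff₀ hK'] at this
  rw [← sum_mul] at h2
  rw [show (1 - r) - 1 = -r by ring] at h0 ⊢
  nlinarith

theorem Dh_le_ent {DS K : ℤ} (hDS : 0 < DS) (hK : 0 < K) {c : Cell} {pi pi0 : List ℤ}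
    (h : dOK DS K c pi pi0 = true) {y : Fin 4 → ℝ} (hy : ∑ i, y i = 4) {r : ℝ} {x : Fin 3 → ℝ}
    (hf : Face y r x)
    (h0 : evalL pi0 ((1 - r) - 1) / K ≤ (1 - r) * Real.log (1 - r))
    (h1 : ∀ i, evalL pi ((1 + r * x i) - 1) / K ≤ (1 + r * x i) * Real.log (1 + r * x i)) :
    Dh DS c y r ≤ ent y := by
  have hK' : (0 : ℝ) < K := by exact_mod_cast hK
  rw [Dh_eq hDS hK h y hy r]
  unfold ent
  rw [hf.hF (fun t => t * Real.log t), hf.hF (fun t => evalL pi (t - 1)),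
    div_le_div_iff₀ (by positivity) (by norm_num)]
  rw [div_le_iff₀ hK'] at h0
  have h2 : ∑ i, evalL pi ((1 + r * x i) - 1) ≤
      ∑ i, (1 + r * x i) * Real.log (1 + r * x i) * K := by
    refine sum_le_sum fun i _ => ?_
    have := h1 i
    rwa [div_le_iff₀ hK'] at this
  rw [← sum_mul] at h2
  rw [show (1 - r) - 1 = -r by ring] at h0 ⊢
  nlinarith

end Vale.Agent.Lib.P154.Q4.Net
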