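import Vale.Agent.Lib.P154.Ineq4.PairReal

/-!
The complete checks evaluated by the kernel, and their meaning.
-/

namespace Vale.Agent.Lib.P154.Q4.Net

open scoped BigOperators
open Finset

/-! ### library members -/

/-- a member with its certificate: `D, P` with `K (1 - s g(s - 1)) D² = K P(s - 1)²`, or (`P = []`)
a subdivision depth; `NJ, AJ, pcs` the pieces for `j` -/
structure MC where
  m : Mem
  D : ℤ
  P : List ℤ
  dep : ℕ
  NJ : ℤ
  AJ : ℤ
  pcs : List Pc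

def gPoly (m : Mem) : List ℤ := addL [m.K] (scaleL (-1) (mulLin 1 1 m.g))

def memGOK (x : MC) : Bool :=
  decide (0 < x.m.K) && decide (0 < x.m.N) && Nat.beq x.m.g.length 6 &&
  (match x.P with
    | [] => chk x.dep x.m.lo x.m.hi x.m.N (gPoly x.m) && decide (x.m.lo < x.m.hi)
    | _ :: _ => allZ (addL (scaleL (Int.mul x.D x.D) (gPoly x.m))
        (scaleL (Int.neg x.m.K) (mulL x.P x.P))) && decide (0 < x.D))

def memJOK (x : MC) : Bool :=
  Nat.beq x.m.j.length 8 && decide (0 < x.NJ) && decide (0 ≤ x.AJ) &&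
  (match x.pcs with | [] => false | _ :: _ => true) &&
  decide (Int.mul x.AJ x.m.N ≤ Int.mul x.NJ (Int.add x.m.N x.m.lo)) &&
  decide (Int.mul x.NJ (Int.add x.m.N x.m.hi) ≤ Int.mul (lastE x.AJ x.pcs) x.m.N) &&
  lowChk 5 x.m.K x.m.j x.NJ x.AJ x.pcs

theorem evalL_allZ (l : List ℤ) (h : allZ l = true) (x : ℝ) : evalL l x = 0 := by
  induction l with
  | nil => rfl
  | cons a l ih =>
    unfold allZ at h
    split at h
    · rename_i h2
      simp only [evalL]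
      rw [ih h]
      simp
    · simp at h

theorem memG_of (x : MC) (h : memGOK x = true) : MemG x.m := by
  unfold memGOK at h
  simp only [Bool.and_eq_true, decide_eq_true_eq] at h
  obtain ⟨⟨⟨hK, hN⟩, hg⟩, hc⟩ := h
  have hK' : (0 : ℝ) < x.m.K := by exact_mod_cast hK
  refine ⟨hK, hN, Nat.eq_of_beq_eq_true hg, ?_⟩
  intro s hs h1 h2
  have e : evalL (gPoly x.m) (s - 1) = x.m.K - s * evalL x.m.g (s - 1) := by
    unfold gPoly
    rw [evalL_addL, evalL_scaleL, evalL_mulLin]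
    simp only [evalL]
    push_cast
    ring
  have key : 0 ≤ evalL (gPoly x.m) (s - 1) := by
    split at hc
    · simp only [Bool.and_eq_true, decide_eq_true_eq] at hc
      exact chk_sound _ _ _ _ hc.2 hN _ hc.1 _ h1 h2
    · simp only [Bool.and_eq_true, decide_eq_true_eq] at hc
      have h3 := evalL_allZ _ hc.1 (s - 1)
      rw [evalL_addL, evalL_scaleL, evalL_scaleL, evalL_mulL, imul, ineg] at h3
      push_cast at h3
      have hD : (0 : ℝ) < x.D := by exact_mod_cast hc.2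
      have h4 : 0 ≤ (x.D : ℝ) * x.D * evalL (gPoly x.m) (s - 1) := by
        have h5 : (x.D : ℝ) * x.D * evalL (gPoly x.m) (s - 1) =
          x.m.K * (evalL x.P (s - 1) * evalL x.P (s - 1)) := by linarith
        rw [h5]
        exact mul_nonneg hK'.le (mul_self_nonneg _)
      exact nonneg_of_mul_nonneg_right h4 (by positivity)
  rw [e] at key
  rw [← mul_div_assoc, div_le_one hK']
  linarith

theorem memJ_of (x : MC) (h0 : memGOK x = true) (h : memJOK x = true) : MemJ x.m := by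
  have hG := memG_of x h0
  unfold memJOK at h
  simp only [Bool.and_eq_true, decide_eq_true_eq, imul, iadd] at h
  obtain ⟨⟨⟨⟨⟨⟨hj, hNJ⟩, hAJ⟩, hne⟩, h1⟩, h2⟩, hc⟩ := h
  have hN' : (0 : ℝ) < x.m.N := by exact_mod_cast hG.N0
  have hNJ' : (0 : ℝ) < x.NJ := by exact_mod_cast hNJ
  refine ⟨Nat.eq_of_beq_eq_true hj, ?_⟩
  intro s hs h3 h4
  refine lowChk_sound 5 x.m.K hG.K0 x.m.j x.NJ hNJ x.AJ hAJ x.pcs hc s ?_ ?_ ?_
  · have h1' : (x.AJ : ℝ) * x.m.N ≤ x.NJ * (x.m.N + x.m.lo) := by exact_mod_cast h1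
    have h5 : (x.NJ : ℝ) * (x.m.N + x.m.lo) ≤ x.NJ * (x.m.N * s) :=
      mul_le_mul_of_nonneg_left (by linarith) hNJ'.le
    have h6 : (x.AJ : ℝ) * x.m.N ≤ (x.NJ * s) * x.m.N := by linarith
    exact le_of_mul_le_mul_right h6 hN'
  · have h2' : (x.NJ : ℝ) * (x.m.N + x.m.hi) ≤ (lastE x.AJ x.pcs : ℝ) * x.m.N := by
      exact_mod_cast h2
    have h5 : (x.NJ : ℝ) * (x.m.N * s) ≤ x.NJ * (x.m.N + x.m.hi) :=
      mul_le_mul_of_nonneg_left (by linarith) hNJ'.le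
    have h6 : (x.NJ * s) * x.m.N ≤ (lastE x.AJ x.pcs : ℝ) * x.m.N := by linarith
    exact le_of_mul_le_mul_right h6 hN'
  · intro hn
    rw [hn] at hne
    simp at hne

theorem nth_allZ {l : List ℤ} (h : allZ l = true) (m : ℕ) : nth l m = 0 := by
  induction l generalizing m with
  | nil => simp
  | cons a l ih =>
    unfold allZ at h
    split at h
    · cases m with
      | zero => rfl
      | succ m => exact ih h m
    · simp at h

/-! ### entropy certificates of cells -/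

structure OC where
  K : ℤ
  pi : List ℤ
  pi0 : List ℤ
  N : ℤ
  A : ℤ
  pcs : List Pc
  N0 : ℤ
  A0 : ℤ
  pcs0 : List Pc

def neB (l : List Pc) : Bool := match l with | [] => false | _ :: _ => true

theorem neB_ne {l : List Pc} (h : neB l = true) : l ≠ [] := by
  rintro rfl; simp [neB] at h

/-- `xm / 256`, `cm / 256`: bounds of the coordinates -/
def geoOK (X : CI) (ρ0 xm cm : ℤ) (o : OC) : Bool :=
  decide (0 < o.K) && decide (0 < o.N) && decide (0 < o.N0) && decide (0 ≤ o.A) &&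
  decide (0 ≤ o.A0) && neB o.pcs && neB o.pcs0 &&
  decide (Int.mul 4096 o.A ≤ Int.mul o.N (Int.add 4096 (Int.mul X.ρ xm))) &&
  decide (Int.mul o.N (Int.add 4096 (Int.mul X.ρ cm)) ≤ Int.mul 4096 (lastE o.A o.pcs)) &&
  decide (Int.mul 16 o.A0 ≤ Int.mul o.N0 (Int.sub 16 X.ρ)) &&
  decide (Int.mul o.N0 (Int.sub 16 ρ0) ≤ Int.mul 16 (lastE o.A0 o.pcs0)) &&
  decide (0 ≤ X.ρ) && decide (256 ≤ Int.mul 3 cm) &&
  decide (Int.mul 32768 X.q ≤ Int.add (Int.sub (Int.mul 3 (sqI cm)) (Int.mul 512 cm)) 196608) &&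
  decide (xm ≤ 0) && (decide (xm = -256) ||
    decide (Int.mul 32768 X.q ≤ Int.add (Int.sub (Int.mul 3 (sqI xm)) (Int.mul 512 xm)) 196608))

def upOK (DS : ℤ) (X : CI) (ρ0 xm cm : ℤ) (o : OC) : Bool :=
  geoOK X ρ0 xm cm o && dOK DS o.K X.c o.pi o.pi0 &&
  upChk 5 o.K o.pi o.N o.A o.pcs && upChk 5 o.K o.pi0 o.N0 o.A0 o.pcs0

def loOK (DS : ℤ) (X : CI) (ρ0 xm cm : ℤ) (o : OC) : Bool :=
  geoOK X ρ0 xm cm o && dOK DS o.K X.c o.pi o.pi0 &&
  lowChk 5 o.K o.pi o.N o.A o.pcs && lowChk 5 o.K o.pi0 o.N0 o.A0 o.pcs0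

structure Geo (X : CI) (ρ0 : ℤ) (o : OC) (r : ℝ) (x : Fin 3 → ℝ) : Prop where
  K0 : 0 < o.K
  N0 : 0 < o.N
  N00 : 0 < o.N0
  A0 : 0 ≤ o.A
  A00 : 0 ≤ o.A0
  ne : o.pcs ≠ []
  ne0 : o.pcs0 ≠ []
  ρ : 0 ≤ X.ρ
  g1 : ∀ i, (o.A : ℝ) ≤ o.N * (1 + r * x i)
  g2 : ∀ i, o.N * (1 + r * x i) ≤ (lastE o.A o.pcs : ℝ)
  g3 : (o.A0 : ℝ) ≤ o.N0 * (1 - r)
  g4 : o.N0 * (1 - r) ≤ (lastE o.A0 o.pcs0 : ℝ)

theorem geo_of {X : CI} {ρ0 xm cm : ℤ} {o : OC} (h : geoOK X ρ0 xm cm o = true)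
    {y : Fin 4 → ℝ} {r : ℝ} {x : Fin 3 → ℝ} (hf : Face y r x) (hr0 : (ρ0 : ℝ) / 16 ≤ r)
    (hr1 : r ≤ (X.ρ : ℝ) / 16) (hQ : xQ x ≤ (X.q : ℝ) / 16) : Geo X ρ0 o r x := by
  unfold geoOK at h
  simp only [Bool.and_eq_true, Bool.or_eq_true, decide_eq_true_eq, imul, iadd, isub, sqI] at h
  obtain ⟨⟨⟨⟨⟨⟨⟨⟨⟨⟨⟨⟨⟨⟨⟨a1, a2⟩, a3⟩, a4⟩, a5⟩, a6⟩, a7⟩, a8⟩, a9⟩, a10⟩, a11⟩, a12⟩, a13⟩, a14⟩,
    a15⟩, a16⟩ := h
  have hN' : (0 : ℝ) < o.N := by exact_mod_cast a2
  have hN0' : (0 : ℝ) < o.N0 := by exact_mod_cast a3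
  have hr := hf.r0
  have a13' : (256 : ℝ) ≤ 3 * cm := by exact_mod_cast a13
  have a14' : (32768 : ℝ) * X.q ≤ 3 * (cm * cm) - 512 * cm + 196608 := by
    exact_mod_cast (of_decide_eq_true a14)
  have a15' : (xm : ℝ) ≤ 0 := by exact_mod_cast a15
  have hxc : ∀ i, x i ≤ (cm : ℝ) / 256 := by
    intro i
    have h1 := x_quad x hf.hs i
    by_contra hcon
    push Not at hcon
    have h2 : (0 : ℝ) < (x i - cm / 256) * (3 * (x i + cm / 256) - 2) := by
      apply mul_pos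
      · linarith
      · linarith
    nlinarith
  have hxm : ∀ i, (xm : ℝ) / 256 ≤ x i := by
    intro i
    rcases a16 with a16 | a16
    · rw [a16]
      have := hf.hx i
      push_cast
      linarith
    · have a16' : (32768 : ℝ) * X.q ≤ 3 * (xm * xm) - 512 * xm + 196608 := by
        exact_mod_cast (of_decide_eq_true a16)
      have h1 := x_quad x hf.hs i
      by_contra hcon
      push Not at hcon
      have h2 : (0 : ℝ) < (x i - xm / 256) * (3 * (x i + xm / 256) - 2) := by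
        apply mul_pos_of_neg_of_neg
        · linarith
        · linarith
      nlinarith
  refine ⟨a1, a2, a3, a4, a5, neB_ne a6, neB_ne a7, a12, ?_, ?_, ?_, ?_⟩
  · intro i
    have a8' : (4096 : ℝ) * o.A ≤ o.N * (4096 + X.ρ * xm) := by exact_mod_cast a8
    have h1 : (X.ρ : ℝ) / 16 * (xm / 256) ≤ r * x i := by
      have h2 : (X.ρ : ℝ) / 16 * (xm / 256) ≤ r * (xm / 256) :=
        mul_le_mul_of_nonpos_right hr1 (by linarith)
      exact h2.trans (mul_le_mul_of_nonneg_left (hxm i) hr)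
    have h3 : (o.N : ℝ) * (1 + (X.ρ : ℝ) / 16 * (xm / 256)) ≤ o.N * (1 + r * x i) :=
      mul_le_mul_of_nonneg_left (by linarith) hN'.le
    linarith
  · intro i
    have a9' : (o.N : ℝ) * (4096 + X.ρ * cm) ≤ 4096 * (lastE o.A o.pcs : ℝ) := by exact_mod_cast a9
    have h1 : r * x i ≤ (X.ρ : ℝ) / 16 * (cm / 256) := by
      have h2 : r * x i ≤ r * (cm / 256) := mul_le_mul_of_nonneg_left (hxc i) hr
      exact h2.trans (mul_le_mul_of_nonneg_right hr1 (by linarith))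
    have h3 : (o.N : ℝ) * (1 + r * x i) ≤ o.N * (1 + (X.ρ : ℝ) / 16 * (cm / 256)) :=
      mul_le_mul_of_nonneg_left (by linarith) hN'.le
    linarith
  · have a10' : (16 : ℝ) * o.A0 ≤ o.N0 * (16 - X.ρ) := by exact_mod_cast a10
    have h3 : (o.N0 : ℝ) * (1 - X.ρ / 16) ≤ o.N0 * (1 - r) :=
      mul_le_mul_of_nonneg_left (by linarith) hN0'.le
    linarith
  · have a11' : (o.N0 : ℝ) * (16 - ρ0) ≤ 16 * (lastE o.A0 o.pcs0 : ℝ) := by exact_mod_cast a11
    have h3 : (o.N0 : ℝ) * (1 - r) ≤ o.N0 * (1 - ρ0 / 16) :=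
      mul_le_mul_of_nonneg_left (by linarith) hN0'.le
    linarith

theorem I2_cell {X : CI} {y : Fin 4 → ℝ} {r : ℝ} {x : Fin 3 → ℝ} (hf : Face y r x)
    (hρ : 0 ≤ X.ρ) (hr1 : r ≤ (X.ρ : ℝ) / 16) (hQ : xQ x ≤ (X.q : ℝ) / 16) :
    I2 y ≤ ((X.ρ : ℝ) / 16) ^ 2 * ((X.q : ℝ) / 16) := by
  rw [(I2_face y r x hf.hs hf.hF).1]
  have h1 := (xQ_bounds x hf.hs hf.hx).1
  have hρ' : (0 : ℝ) ≤ X.ρ := by exact_mod_cast hρ
  exact mul_le_mul (pow_le_pow_left₀ hf.r0 hr1 2) hQ (by linarith) (by positivity)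

theorem cellData_up {DS : ℤ} (hDS : 0 < DS) {X : CI} {ρ0 xm cm : ℤ} {o : OC}
    (h : upOK DS X ρ0 xm cm o = true) {y : Fin 4 → ℝ} (hy : ∑ i, y i = 4) {r : ℝ}
    {x : Fin 3 → ℝ} (hf : Face y r x) (hr0 : (ρ0 : ℝ) / 16 ≤ r)
    (hr1 : r ≤ (X.ρ : ℝ) / 16) (hQ : xQ x ≤ (X.q : ℝ) / 16)
    (rep : Nonempty (Rep (15 * X.p) DS (AA * BB * DS) X.c X.z (fe y (Dh DS X.c y r)))) :
    CellData DS (· ≤ ·) X y := by
  unfold upOK at h
  simp only [Bool.and_eq_true] at h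
  obtain ⟨⟨⟨h1, h2⟩, h3⟩, h4⟩ := h
  have g := geo_of h1 hf hr0 hr1 hQ
  refine ⟨Dh DS X.c y r, r, ?_, rep, hf.r0, hr1, hf.hm, I2_cell hf g.ρ hr1 hQ⟩
  exact ent_le_Dh hDS g.K0 h2 hy hf
    (upChk_sound 5 _ g.K0 _ _ g.N00 _ g.A00 _ h4 _ g.g3 g.g4 g.ne0)
    (fun i => upChk_sound 5 _ g.K0 _ _ g.N0 _ g.A0 _ h3 _ (g.g1 i) (g.g2 i) g.ne)

theorem cellData_lo {DS : ℤ} (hDS : 0 < DS) {X : CI} {ρ0 xm cm : ℤ} {o : OC}
    (h : loOK DS X ρ0 xm cm o = true) {y : Fin 4 → ℝ} (hy : ∑ i, y i = 4) {r : ℝ}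
    {x : Fin 3 → ℝ} (hf : Face y r x) (hr0 : (ρ0 : ℝ) / 16 ≤ r)
    (hr1 : r ≤ (X.ρ : ℝ) / 16) (hQ : xQ x ≤ (X.q : ℝ) / 16)
    (rep : Nonempty (Rep (15 * X.p) DS (AA * BB * DS) X.c X.z (fe y (Dh DS X.c y r)))) :
    CellData DS (· ≥ ·) X y := by
  unfold loOK at h
  simp only [Bool.and_eq_true] at h
  obtain ⟨⟨⟨h1, h2⟩, h3⟩, h4⟩ := h
  have g := geo_of h1 hf hr0 hr1 hQ
  refine ⟨Dh DS X.c y r, r, ?_, rep, hf.r0, hr1, hf.hm, I2_cell hf g.ρ hr1 hQ⟩
  exact Dh_le_ent hDS g.K0 h2 hy hf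
    (lowChk_sound 5 _ g.K0 _ _ g.N00 _ g.A00 _ h4 _ g.g3 g.g4 g.ne0)
    (fun i => lowChk_sound 5 _ g.K0 _ _ g.N0 _ g.A0 _ h3 _ (g.g1 i) (g.g2 i) g.ne)

/-! ### groups of pairs -/

def unitL (h : ℕ) : List ℤ := (List.range 12).map (fun g => if g = h then 1 else 0)

theorem nth_unitL (h f : ℕ) (hf : f < 12) : nth (unitL h) f = delta h f := by
  unfold unitL delta
  interval_cases f <;> rfl

theorem tm_eq {G : List (List (List (ℕ × ℤ)))} (hG : idxP G) (ga : List ℤ) (f h : ℕ) :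
    tm G ga f h = dotI ga (rowDots (unitL h) (G.getD f [])) := by
  unfold tm gz
  rw [dotI_eq _ _ ga.length le_rfl]
  refine sum_congr rfl fun k _ => ?_
  rw [nth_rowDots]
  congr 1
  have key : ∀ l : List (ℕ × ℤ), (∀ p ∈ l, p.1 < 12) → rowV l (delta h) = rowDot (unitL h) l := by
    intro l
    induction l with
    | nil => intro _; rfl
    | cons p l ih =>
      intro hl
      have h1 := ih (fun q hq => hl q (by simp [hq]))
      have e : rowV (p :: l) (delta h) = p.2 * delta h p.1 + rowV l (delta h) := by simp [rowV]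
      have e2 : rowDot (unitL h) (p :: l) = p.2 * nth (unitL h) p.1 + rowDot (unitL h) l := rfl
      rw [e, e2, h1, nth_unitL h p.1 (hl p (by simp))]
  exact key _ (hG.row f k)

def nullRow (G : List (List (List (ℕ × ℤ)))) (ga : List ℤ) : Bool :=
  (List.range 12).all fun h => allZ [dotI ga (rowDots (unitL h) (G.getD 0 []))]

def nullCol (G : List (List (List (ℕ × ℤ)))) (ga : List ℤ) : Bool :=
  match unitL 0 with
  | u => (List.range 12).all fun f => allZ [dotI ga (rowDots u (G.getD f []))]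

theorem allZ_one {a : ℤ} (h : allZ [a] = true) : a = 0 := by
  unfold allZ at h
  split at h
  · rfl
  · simp at h

theorem nullRow_sound {G : List (List (List (ℕ × ℤ)))} (hG : idxP G) {ga : List ℤ}
    (h : nullRow G ga = true) : ∀ h, h < 12 → tm G ga 0 h = 0 := by
  intro k hk
  unfold nullRow at h
  rw [List.all_eq_true] at h
  rw [tm_eq hG]
  exact allZ_one (h k (List.mem_range.2 hk))

theorem nullCol_sound {G : List (List (List (ℕ × ℤ)))} (hG : idxP G) {ga : List ℤ}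
    (h : nullCol G ga = true) : ∀ f, f < 12 → tm G ga f 0 = 0 := by
  intro k hk
  unfold nullCol at h
  simp only [List.all_eq_true] at h
  rw [tm_eq hG]
  exact allZ_one (h k (List.mem_range.2 hk))

def dfltCI : CI := ⟨⟨[], [], [], [], []⟩, 0, false, 0, 0⟩

def nthCI : List CI → ℕ → CI
  | [], _ => dfltCI
  | a :: _, 0 => a
  | _ :: l, n + 1 => nthCI l n

def cellsOf (cis : List CI) : List ℕ → List Cell
  | [] => []
  | i :: l => (nthCI cis i).c :: cellsOf cis l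

def pairSide (cis : List CI) (m : Mem) (Y : CI) (p : ℕ) : List ℕ → Bool
  | [] => true
  | i :: l => match nthCI cis i with
    | X => rangeOK m Y X && Nat.beq X.p p && pairSide cis m Y p l

def anyZ (cis : List CI) : List ℕ → Bool
  | [] => false
  | i :: l => (nthCI cis i).z || anyZ cis l

def grpChk (W : ℕ) (DS : ℤ) (G : List (List (List (ℕ × ℤ)))) (MX : List ℕ) (cis : List CI)
    (Y : CI) (ga : List ℤ) (m : Mem) (p : ℕ) (xs : List ℕ) : Bool :=
  (match grpOK W (Nat.mul 15 p) (Nat.mul 15 Y.p) DS G ga Y.c (cellsOf cis xs) with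
    | true => true
    | false => false) &&
  pairSide cis m Y p xs && Nat.blt (totBnd MX ga MX G) (Nat.pow 2 (Nat.sub W 1)) &&
  (!anyZ cis xs || nullCol G ga) && (!Y.z || nullRow G ga)

theorem cellsOf_mem (cis : List CI) (xs : List ℕ) (c : Cell) (h : c ∈ cellsOf cis xs) :
    ∃ i ∈ xs, c = (nthCI cis i).c := by
  induction xs with
  | nil => simp [cellsOf] at h
  | cons i l ih =>
    rcases List.mem_cons.1 h with h | h
    · exact ⟨i, by simp, h⟩
    · obtain ⟨j, hj, e⟩ := ih h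
      exact ⟨j, by simp [hj], e⟩

theorem mem_cellsOf (cis : List CI) (xs : List ℕ) (i : ℕ) (h : i ∈ xs) :
    (nthCI cis i).c ∈ cellsOf cis xs := by
  induction xs with
  | nil => simp at h
  | cons j l ih =>
    rcases List.mem_cons.1 h with h | h
    · subst h; exact List.mem_cons_self
    · exact List.mem_cons_of_mem _ (ih h)

theorem pairSide_sound (cis : List CI) (m : Mem) (Y : CI) (p : ℕ) (xs : List ℕ)
    (h : pairSide cis m Y p xs = true) (i : ℕ) (hi : i ∈ xs) :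
    rangeOK m Y (nthCI cis i) = true ∧ (nthCI cis i).p = p := by
  induction xs with
  | nil => simp at hi
  | cons j l ih =>
    unfold pairSide at h
    simp only [Bool.and_eq_true] at h
    rcases List.mem_cons.1 hi with hi | hi
    · subst hi; exact ⟨h.1.1, Nat.eq_of_beq_eq_true h.1.2⟩
    · exact ih h.2 hi

theorem anyZ_sound (cis : List CI) (xs : List ℕ) (i : ℕ) (hi : i ∈ xs)
    (h : (nthCI cis i).z = true) : anyZ cis xs = true := by
  induction xs with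
  | nil => simp at hi
  | cons j l ih =>
    unfold anyZ
    rcases List.mem_cons.1 hi with hi | hi
    · subst hi; rw [h]; rfl
    · rw [ih hi]; simp

/-- cells are well formed and bounded -/
def CellsOK (DS : ℤ) (MX : List ℕ) (cis : List CI) : Prop :=
  MX.length ≤ 12 ∧ ∀ i, i < cis.length → WF (nthCI cis i).p (nthCI cis i).c ∧
    Bnd DS MX (nthCI cis i).c

def cellsChk (DS : ℕ) (MX : List ℕ) (MXD : ℕ) : List CI → Bool
  | [] => true
  | X :: l => cellOK X.p DS MX MXD X.c && cellsChk DS MX MXD l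

theorem cellsOK_of (DS : ℕ) (MX : List ℕ) (MXD : ℕ) (cis : List CI) (hMX : MX.length = 11)
    (h : cellsChk DS MX MXD cis = true) : CellsOK (DS : ℤ) (MX ++ [MXD]) cis := by
  refine ⟨by simp [hMX], ?_⟩
  induction cis with
  | nil => intro i hi; simp at hi
  | cons X l ih =>
    unfold cellsChk at h
    simp only [Bool.and_eq_true] at h
    intro i hi
    cases i with
    | zero => exact ⟨cellOK_wf _ _ _ _ _ h.1, cellOK_bnd _ _ _ _ _ h.1⟩
    | succ i => exact ih h.2 i (by simpa using hi)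

theorem grpChk_sound {W : ℕ} (hW : 1 ≤ W) {DS : ℤ} {G : List (List (List (ℕ × ℤ)))} (hG : idxP G)
    {MX : List ℕ} {cis : List CI} (hC : CellsOK DS MX cis) {Y : CI} (hY : WF Y.p Y.c)
    (hYb : Bnd DS MX Y.c) {ga : List ℤ} {m : Mem} {p : ℕ} {xs : List ℕ}
    (hxs : ∀ i ∈ xs, i < cis.length)
    (h : grpChk W DS G MX cis Y ga m p xs = true) (i : ℕ) (hi : i ∈ xs) :
    rangeOK m Y (nthCI cis i) = true ∧
    (Y.z = true → ∀ h, h < 12 → tm G ga 0 h = 0) ∧
    ((nthCI cis i).z = true → ∀ f, f < 12 → tm G ga f 0 = 0) ∧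
    (∀ b, b < 15 * Y.p → ∀ a, a < 15 * (nthCI cis i).p →
      0 ≤ bilI G ga (fun f => entI DS Y.c f b) (fun f => entI DS (nthCI cis i).c f a)) := by
  unfold grpChk at h
  simp only [Bool.and_eq_true, Bool.or_eq_true, Bool.not_eq_true'] at h
  obtain ⟨⟨⟨⟨h1, h2⟩, h3⟩, h4⟩, h5⟩ := h
  have h1' : grpOK W (15 * p) (15 * Y.p) DS G ga Y.c (cellsOf cis xs) = true := by
    split at h1
    · rename_i h6; exact h6
    · simp at h1
  have h6 := pairSide_sound cis m Y p xs h2 i hi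
  refine ⟨h6.1, ?_, ?_, ?_⟩
  · intro hz
    rw [hz] at h5
    rcases h5 with h5 | h5
    · simp at h5
    · exact nullRow_sound hG h5
  · intro hz
    have h7 := anyZ_sound cis xs i hi hz
    rw [h7] at h4
    rcases h4 with h4 | h4
    · simp at h4
    · exact nullCol_sound hG h4
  · have h3' : totBnd MX ga MX G < 2 ^ (W - 1) := Nat.le_of_ble_eq_true h3
    rw [h6.2]
    refine grp_sound hW hG hC.1 hY hYb h3' _ ?_ h1' _ (mem_cellsOf cis xs i hi)
    intro c hc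
    obtain ⟨j, hj, e⟩ := cellsOf_mem cis xs c hc
    have h8 := hC.2 j (hxs j hj)
    have h9 := (pairSide_sound cis m Y p xs h2 j hj).2
    rw [e]
    rw [h9] at h8
    exact h8

end Vale.Agent.Lib.P154.Q4.Net
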