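import Vale.Agent.Lib.P154.Ineq4.Star4
import Vale.Agent.Lib.P154.Ineq4.Log1
import Vale.Agent.Lib.P154.Pot2

/-!
Channel facts and the potential for four colours.
-/

namespace Vale.Agent.Lib.P154.Q4

open scoped BigOperators

/-! ### the scaling of `psi` -/

noncomputable def psi (v : ℝ) : ℝ := v ^ 2 / 2 + v - (1 + v) * Real.log (1 + v)

/-- `3 psi v - v psi' v ≥ 0`, in the variable `w = 1 + v` -/
theorem chi_nonneg (w : ℝ) (hw : 0 < w) :
    0 ≤ (w - 1) ^ 2 / 2 + 3 * (w - 1) - (1 + 2 * w) * Real.log w := by
  obtain ⟨m, hm0, hm1, hmw⟩ : ∃ m : ℝ, 0 < m ∧ m < 1 ∧ m ≤ w := by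
    refine ⟨min w 1 / 2, ?_, ?_, ?_⟩
    · have := lt_min hw one_pos; linarith
    · have := min_le_right w 1; linarith
    · have := min_le_left w 1
      have := lt_min hw one_pos
      linarith
  have hD : ∀ s, m < s → HasDerivAt (fun w : ℝ => (w - 1) ^ 2 / 2 + 3 * (w - 1) -
      (1 + 2 * w) * Real.log w) (s - 1 / s - 2 * Real.log s) s := by
    intro s hs
    have hs0 : s ≠ 0 := by linarith
    have h1 : HasDerivAt (fun w : ℝ => (w - 1) ^ 2 / 2) (s - 1) s := by
      have := (((hasDerivAt_id s).sub_const 1).pow 2).div_const 2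
      refine this.congr_deriv ?_
      simp
    have h2 : HasDerivAt (fun w : ℝ => 3 * (w - 1)) 3 s := by
      have := ((hasDerivAt_id s).sub_const 1).const_mul 3
      refine this.congr_deriv ?_
      simp
    have h3 : HasDerivAt (fun w : ℝ => (1 + 2 * w) * Real.log w)
        (2 * Real.log s + (1 + 2 * s) * s⁻¹) s := by
      have h4 : HasDerivAt (fun w : ℝ => 1 + 2 * w) 2 s := by
        have := ((hasDerivAt_id s).const_mul 2).const_add 1
        refine this.congr_deriv ?_
        simp
      exact h4.mul (Real.hasDerivAt_log hs0)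
    refine ((h1.add h2).sub h3).congr_deriv ?_
    field_simp
    ring
  have hD2 : ∀ s, m < s → HasDerivAt (fun w : ℝ => w - 1 / w - 2 * Real.log w)
      (1 + 1 / s ^ 2 - 2 / s) s := by
    intro s hs
    have hs0 : s ≠ 0 := by linarith
    have h1 : HasDerivAt (fun w : ℝ => 1 / w) (-1 / s ^ 2) s := by
      have := hasDerivAt_inv hs0
      simp only [one_div]
      refine this.congr_deriv ?_
      ring
    have h2 := (Real.hasDerivAt_log hs0).const_mul 2
    refine (((hasDerivAt_id s).sub h1).sub h2).congr_deriv ?_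
    ring
  have h := nonneg_of_second (m := m) hm0.le hm1.le (D := fun w : ℝ => (w - 1) ^ 2 / 2 +
    3 * (w - 1) - (1 + 2 * w) * Real.log w) (D' := fun s => s - 1 / s - 2 * Real.log s)
    (D'' := fun s => 1 + 1 / s ^ 2 - 2 / s)
  refine h ?_ hD hD2 (by norm_num) (fun _ => by norm_num) (fun h1 => absurd h1 hm1.ne) ?_ w hmw
  · apply ContinuousOn.sub
    · fun_prop
    · apply ContinuousOn.mul
      · fun_prop
      · apply Real.continuousOn_log.mono
        intro x hx
        have : m ≤ x := hx
        simp only [Set.mem_compl_iff, Set.mem_singleton_iff]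
        linarith
  · intro s hs
    have hs0 : 0 < s := by linarith
    have : 1 + 1 / s ^ 2 - 2 / s = (1 - 1 / s) ^ 2 := by field_simp; ring
    rw [this]; positivity

/-- `t ↦ psi (t v) / t ^ 3` is nonincreasing: interior version -/
theorem psi_scale_lt (v r : ℝ) (hv : -1 < v) (h0 : 0 < r) (h1 : r ≤ 1) :
    r ^ 3 * psi v ≤ psi (r * v) := by
  have hpos : ∀ t, 0 < t → t ≤ 1 → 0 < 1 + t * v := by
    intro t ht ht1
    rcases le_total 0 v with h | h
    · have := mul_nonneg ht.le h; linarith
    · have : v ≤ t * v := by nlinarith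
      linarith
  have hd : ∀ t, 0 < t → t ≤ 1 → HasDerivAt (fun t : ℝ => psi (t * v) / t ^ 3)
      (-(((1 + t * v) - 1) ^ 2 / 2 + 3 * ((1 + t * v) - 1) -
        (1 + 2 * (1 + t * v)) * Real.log (1 + t * v)) / t ^ 4) t := by
    intro t ht ht1
    have hp := hpos t ht ht1
    have ht0 : t ≠ 0 := ht.ne'
    have a1 : HasDerivAt (fun t : ℝ => t * v) v t := by
      have := (hasDerivAt_id t).mul_const v
      refine this.congr_deriv ?_
      simp
    have a2 : HasDerivAt (fun t : ℝ => 1 + t * v) v t := by
      exact a1.const_add 1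
    have a3 : HasDerivAt (fun t : ℝ => Real.log (1 + t * v)) (v / (1 + t * v)) t :=
      a2.log hp.ne'
    have a4 : HasDerivAt (fun t : ℝ => psi (t * v))
        (t * v * v + v - (v * Real.log (1 + t * v) + (1 + t * v) * (v / (1 + t * v)))) t := by
      unfold psi
      have b1 := (a1.pow 2).div_const 2
      have b2 := (b1.add a1).sub (a2.mul a3)
      refine b2.congr_deriv ?_
      ring
    have a5 : HasDerivAt (fun t : ℝ => t ^ 3) (3 * t ^ 2) t := by
      have := hasDerivAt_pow 3 t
      refine this.congr_deriv ?_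
      norm_num
    have a6 := a4.div a5 (pow_ne_zero 3 ht0)
    refine a6.congr_deriv ?_
    unfold psi
    have hp' : 1 + t * v ≠ 0 := hp.ne'
    rw [show (1 + t * v) * (v / (1 + t * v)) = v by field_simp]
    rw [div_eq_div_iff (by positivity) (by positivity)]
    ring
  have hanti : AntitoneOn (fun t : ℝ => psi (t * v) / t ^ 3) (Set.Icc r 1) := by
    apply antitoneOn_of_deriv_nonpos (convex_Icc r 1)
    · intro x hx
      exact (hd x (by linarith [hx.1]) hx.2).continuousAt.continuousWithinAt
    · intro x hx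
      rw [interior_Icc] at hx
      exact (hd x (by linarith [hx.1]) hx.2.le).differentiableAt.differentiableWithinAt
    · intro x hx
      rw [interior_Icc] at hx
      have hx0 : 0 < x := by linarith [hx.1]
      rw [(hd x hx0 hx.2.le).deriv]
      have := chi_nonneg (1 + x * v) (hpos x hx0 hx.2.le)
      apply div_nonpos_of_nonpos_of_nonneg
      · linarith
      · positivity
  have h2 := hanti (Set.left_mem_Icc.2 h1) (Set.right_mem_Icc.2 h1) h1
  simp only [one_mul, one_pow, div_one] at h2
  rw [le_div_iff₀ (by positivity)] at h2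
  linarith

theorem psi_continuous : Continuous psi := by
  unfold psi
  have h : Continuous (fun v : ℝ => (1 + v) * Real.log (1 + v)) :=
    Real.continuous_mul_log.comp (continuous_const.add continuous_id)
  fun_prop

theorem psi_scale (v r : ℝ) (hv : -1 ≤ v) (h0 : 0 ≤ r) (h1 : r ≤ 1) :
    r ^ 3 * psi v ≤ psi (r * v) := by
  rcases h0.eq_or_lt with h | h
  · rw [← h]; simp [psi]
  · rcases hv.eq_or_lt with h2 | h2
    · have hl : Filter.Tendsto (fun u : ℝ => r ^ 3 * psi u) (nhdsWithin v (Set.Ioi v))
          (nhds (r ^ 3 * psi v)) :=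
        ((psi_continuous.const_mul _).tendsto v).mono_left nhdsWithin_le_nhds
      have hr : Filter.Tendsto (fun u : ℝ => psi (r * u)) (nhdsWithin v (Set.Ioi v))
          (nhds (psi (r * v))) :=
        ((psi_continuous.comp (continuous_const_mul r)).tendsto v).mono_left nhdsWithin_le_nhds
      refine le_of_tendsto_of_tendsto hl hr ?_
      filter_upwards [self_mem_nhdsWithin] with u hu
      exact psi_scale_lt u r (by rw [h2]; exact hu) h h1
    · exact psi_scale_lt v r h2 h h1

end Vale.Agent.Lib.P154.Q4
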