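import Vale.Agent.Lib.P154.Ineq4.GrpA

/-! kernel checks (A) -/

namespace Vale.Agent.Lib.P154.Q4.Net

set_option maxRecDepth 100000
set_option linter.defProp false

def pA0 : allGrpA xA0 gA0 = true := by decide +kernel
def pA4 : allGrpA xA4 gA4 = true := by decide +kernel
def pA9 : allGrpA xA6 gA9 = true := by decide +kernel
def pA13 : allGrpA xA8 gA13 = true := by decide +kernel
def pA22 : allGrpA xA11 gA22 = true := by decide +kernel
def pA27 : allGrpA xA12 gA27 = true := by decide +kernel
def pA29 : allGrpA xA13 gA29 = true := by decide +kernel
def pA37 : allGrpA xA15 gA37 = true := by decide +kernel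
def pA43 : allGrpA xA16 gA43 = true := by decide +kernel
def pA51 : allGrpA xA18 gA51 = true := by decide +kernel
def pA58 : allGrpA xA19 gA58 = true := by decide +kernel
def pA64 : allGrpA xA20 gA64 = true := by decide +kernel
def pA71 : allGrpA xA21 gA71 = true := by decide +kernel
def pA72 : allGrpA xA22 gA72 = true := by decide +kernel
def pA79 : allGrpA xA23 gA79 = true := by decide +kernel
def pA85 : allGrpA xA24 gA85 = true := by decide +kernel
def pA92 : allGrpA xA25 gA92 = true := by decide +kernel
def pA99 : allGrpA xA26 gA99 = true := by decide +kernel
def pA106 : allGrpA xA27 gA106 = true := by decide +kernel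
def pA112 : allGrpA xA28 gA112 = true := by decide +kernel
def pA118 : allGrpA xA28 gA118 = true := by decide +kernel
def pA125 : allGrpA xA29 gA125 = true := by decide +kernel
def pA132 : allGrpA xA30 gA132 = true := by decide +kernel
def pA135 : allGrpA xA30 gA135 = true := by decide +kernel
def pA139 : allGrpA xA31 gA139 = true := by decide +kernel
def pA145 : allGrpA xA32 gA145 = true := by decide +kernel
def pA151 : allGrpA xA32 gA151 = true := by decide +kernel
def pA158 : allGrpA xA33 gA158 = true := by decide +kernel
def pA165 : allGrpA xA34 gA165 = true := by decide +kernel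
def pA172 : allGrpA xA35 gA172 = true := by decide +kernel
def pA178 : allGrpA xA35 gA178 = true := by decide +kernel
def pA184 : allGrpA xA36 gA184 = true := by decide +kernel
def pA189 : allGrpA xA36 gA189 = true := by decide +kernel
def pA191 : allGrpA xA37 gA191 = true := by decide +kernel
def pA197 : allGrpA xA37 gA197 = true := by decide +kernel
def pA204 : allGrpA xA38 gA204 = true := by decide +kernel
def pA211 : allGrpA xA39 gA211 = true := by decide +kernel
def pA217 : allGrpA xA39 gA217 = true := by decide +kernel
def pA223 : allGrpA xA40 gA223 = true := by decide +kernel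
def pA229 : allGrpA xA40 gA229 = true := by decide +kernel
def pA236 : allGrpA xA41 gA236 = true := by decide +kernel

end Vale.Agent.Lib.P154.Q4.Net
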