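import Vale.Agent.Lib.P154.Ineq4.GrpA

/-! kernel checks (A) -/

namespace Vale.Agent.Lib.P154.Q4.Net

set_option maxRecDepth 100000
set_option linter.defProp false

def pA5 : allGrpA xA4 gA5 = true := by decide +kernel
def pA6 : allGrpA xA5 gA6 = true := by decide +kernel
def pA15 : allGrpA xA9 gA15 = true := by decide +kernel
def pA20 : allGrpA xA10 gA20 = true := by decide +kernel
def pA23 : allGrpA xA11 gA23 = true := by decide +kernel
def pA30 : allGrpA xA13 gA30 = true := by decide +kernel
def pA38 : allGrpA xA15 gA38 = true := by decide +kernel
def pA44 : allGrpA xA16 gA44 = true := by decide +kernel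
def pA45 : allGrpA xA17 gA45 = true := by decide +kernel
def pA52 : allGrpA xA18 gA52 = true := by decide +kernel
def pA59 : allGrpA xA19 gA59 = true := by decide +kernel
def pA66 : allGrpA xA21 gA66 = true := by decide +kernel
def pA73 : allGrpA xA22 gA73 = true := by decide +kernel
def pA80 : allGrpA xA23 gA80 = true := by decide +kernel
def pA86 : allGrpA xA24 gA86 = true := by decide +kernel
def pA93 : allGrpA xA25 gA93 = true := by decide +kernel
def pA97 : allGrpA xA25 gA97 = true := by decide +kernel
def pA100 : allGrpA xA26 gA100 = true := by decide +kernel
def pA107 : allGrpA xA27 gA107 = true := by decide +kernel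
def pA113 : allGrpA xA28 gA113 = true := by decide +kernel
def pA120 : allGrpA xA29 gA120 = true := by decide +kernel
def pA126 : allGrpA xA29 gA126 = true := by decide +kernel
def pA133 : allGrpA xA30 gA133 = true := by decide +kernel
def pA140 : allGrpA xA31 gA140 = true := by decide +kernel
def pA146 : allGrpA xA32 gA146 = true := by decide +kernel
def pA153 : allGrpA xA33 gA153 = true := by decide +kernel
def pA159 : allGrpA xA33 gA159 = true := by decide +kernel
def pA166 : allGrpA xA34 gA166 = true := by decide +kernel
def pA170 : allGrpA xA34 gA170 = true := by decide +kernel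
def pA173 : allGrpA xA35 gA173 = true := by decide +kernel
def pA179 : allGrpA xA35 gA179 = true := by decide +kernel
def pA185 : allGrpA xA36 gA185 = true := by decide +kernel
def pA192 : allGrpA xA37 gA192 = true := by decide +kernel
def pA198 : allGrpA xA37 gA198 = true := by decide +kernel
def pA205 : allGrpA xA38 gA205 = true := by decide +kernel
def pA212 : allGrpA xA39 gA212 = true := by decide +kernel
def pA218 : allGrpA xA39 gA218 = true := by decide +kernel
def pA224 : allGrpA xA40 gA224 = true := by decide +kernel
def pA230 : allGrpA xA40 gA230 = true := by decide +kernel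
def pA231 : allGrpA xA41 gA231 = true := by decide +kernel
def pA237 : allGrpA xA41 gA237 = true := by decide +kernel

end Vale.Agent.Lib.P154.Q4.Net
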