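import Vale.Agent.Lib.P154.Ineq4.GrpA

/-! kernel checks (A) -/

namespace Vale.Agent.Lib.P154.Q4.Net

set_option maxRecDepth 100000
set_option linter.defProp false

def pA8 : allGrpA xA6 gA8 = true := by decide +kernel
def pA14 : allGrpA xA8 gA14 = true := by decide +kernel
def pA16 : allGrpA xA9 gA16 = true := by decide +kernel
def pA24 : allGrpA xA12 gA24 = true := by decide +kernel
def pA32 : allGrpA xA14 gA32 = true := by decide +kernel
def pA35 : allGrpA xA14 gA35 = true := by decide +kernel
def pA39 : allGrpA xA15 gA39 = true := by decide +kernel
def pA46 : allGrpA xA17 gA46 = true := by decide +kernel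
def pA53 : allGrpA xA18 gA53 = true := by decide +kernel
def pA60 : allGrpA xA20 gA60 = true := by decide +kernel
def pA65 : allGrpA xA20 gA65 = true := by decide +kernel
def pA67 : allGrpA xA21 gA67 = true := by decide +kernel
def pA74 : allGrpA xA22 gA74 = true := by decide +kernel
def pA81 : allGrpA xA23 gA81 = true := by decide +kernel
def pA87 : allGrpA xA24 gA87 = true := by decide +kernel
def pA94 : allGrpA xA25 gA94 = true := by decide +kernel
def pA101 : allGrpA xA26 gA101 = true := by decide +kernel
def pA108 : allGrpA xA27 gA108 = true := by decide +kernel
def pA114 : allGrpA xA28 gA114 = true := by decide +kernel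
def pA121 : allGrpA xA29 gA121 = true := by decide +kernel
def pA127 : allGrpA xA29 gA127 = true := by decide +kernel
def pA128 : allGrpA xA30 gA128 = true := by decide +kernel
def pA134 : allGrpA xA30 gA134 = true := by decide +kernel
def pA141 : allGrpA xA31 gA141 = true := by decide +kernel
def pA147 : allGrpA xA32 gA147 = true := by decide +kernel
def pA154 : allGrpA xA33 gA154 = true := by decide +kernel
def pA160 : allGrpA xA33 gA160 = true := by decide +kernel
def pA167 : allGrpA xA34 gA167 = true := by decide +kernel
def pA174 : allGrpA xA35 gA174 = true := by decide +kernel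
def pA180 : allGrpA xA36 gA180 = true := by decide +kernel
def pA186 : allGrpA xA36 gA186 = true := by decide +kernel
def pA193 : allGrpA xA37 gA193 = true := by decide +kernel
def pA200 : allGrpA xA38 gA200 = true := by decide +kernel
def pA206 : allGrpA xA38 gA206 = true := by decide +kernel
def pA209 : allGrpA xA38 gA209 = true := by decide +kernel
def pA213 : allGrpA xA39 gA213 = true := by decide +kernel
def pA219 : allGrpA xA39 gA219 = true := by decide +kernel
def pA225 : allGrpA xA40 gA225 = true := by decide +kernel
def pA232 : allGrpA xA41 gA232 = true := by decide +kernel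
def pA238 : allGrpA xA41 gA238 = true := by decide +kernel

end Vale.Agent.Lib.P154.Q4.Net
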