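import Vale.Agent.Lib.P154.Ineq4.GrpA

/-! kernel checks (A) -/

namespace Vale.Agent.Lib.P154.Q4.Net

set_option maxRecDepth 100000
set_option linter.defProp false

def pA1 : allGrpA xA1 gA1 = true := by decide +kernel
def pA10 : allGrpA xA7 gA10 = true := by decide +kernel
def pA17 : allGrpA xA9 gA17 = true := by decide +kernel
def pA18 : allGrpA xA10 gA18 = true := by decide +kernel
def pA25 : allGrpA xA12 gA25 = true := by decide +kernel
def pA33 : allGrpA xA14 gA33 = true := by decide +kernel
def pA40 : allGrpA xA16 gA40 = true := by decide +kernel
def pA47 : allGrpA xA17 gA47 = true := by decide +kernel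
def pA54 : allGrpA xA18 gA54 = true := by decide +kernel
def pA55 : allGrpA xA19 gA55 = true := by decide +kernel
def pA61 : allGrpA xA20 gA61 = true := by decide +kernel
def pA68 : allGrpA xA21 gA68 = true := by decide +kernel
def pA75 : allGrpA xA22 gA75 = true := by decide +kernel
def pA82 : allGrpA xA23 gA82 = true := by decide +kernel
def pA88 : allGrpA xA24 gA88 = true := by decide +kernel
def pA90 : allGrpA xA24 gA90 = true := by decide +kernel
def pA95 : allGrpA xA25 gA95 = true := by decide +kernel
def pA102 : allGrpA xA26 gA102 = true := by decide +kernel
def pA109 : allGrpA xA27 gA109 = true := by decide +kernel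
def pA115 : allGrpA xA28 gA115 = true := by decide +kernel
def pA122 : allGrpA xA29 gA122 = true := by decide +kernel
def pA129 : allGrpA xA30 gA129 = true := by decide +kernel
def pA136 : allGrpA xA31 gA136 = true := by decide +kernel
def pA142 : allGrpA xA31 gA142 = true := by decide +kernel
def pA148 : allGrpA xA32 gA148 = true := by decide +kernel
def pA155 : allGrpA xA33 gA155 = true := by decide +kernel
def pA161 : allGrpA xA33 gA161 = true := by decide +kernel
def pA162 : allGrpA xA34 gA162 = true := by decide +kernel
def pA168 : allGrpA xA34 gA168 = true := by decide +kernel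
def pA175 : allGrpA xA35 gA175 = true := by decide +kernel
def pA181 : allGrpA xA36 gA181 = true := by decide +kernel
def pA187 : allGrpA xA36 gA187 = true := by decide +kernel
def pA194 : allGrpA xA37 gA194 = true := by decide +kernel
def pA201 : allGrpA xA38 gA201 = true := by decide +kernel
def pA207 : allGrpA xA38 gA207 = true := by decide +kernel
def pA214 : allGrpA xA39 gA214 = true := by decide +kernel
def pA220 : allGrpA xA40 gA220 = true := by decide +kernel
def pA226 : allGrpA xA40 gA226 = true := by decide +kernel
def pA233 : allGrpA xA41 gA233 = true := by decide +kernel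
def pA239 : allGrpA xA41 gA239 = true := by decide +kernel

end Vale.Agent.Lib.P154.Q4.Net
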