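import Vale.Agent.Lib.P154.Ineq4.GrpA

/-! kernel checks (A) -/

namespace Vale.Agent.Lib.P154.Q4.Net

set_option maxRecDepth 100000
set_option linter.defProp false

def pA7 : allGrpA xA5 gA7 = true := by decide +kernel
def pA11 : allGrpA xA7 gA11 = true := by decide +kernel
def pA19 : allGrpA xA10 gA19 = true := by decide +kernel
def pA26 : allGrpA xA12 gA26 = true := by decide +kernel
def pA31 : allGrpA xA13 gA31 = true := by decide +kernel
def pA34 : allGrpA xA14 gA34 = true := by decide +kernel
def pA41 : allGrpA xA16 gA41 = true := by decide +kernel
def pA48 : allGrpA xA17 gA48 = true := by decide +kernel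
def pA56 : allGrpA xA19 gA56 = true := by decide +kernel
def pA62 : allGrpA xA20 gA62 = true := by decide +kernel
def pA69 : allGrpA xA21 gA69 = true := by decide +kernel
def pA76 : allGrpA xA22 gA76 = true := by decide +kernel
def pA77 : allGrpA xA22 gA77 = true := by decide +kernel
def pA83 : allGrpA xA23 gA83 = true := by decide +kernel
def pA89 : allGrpA xA24 gA89 = true := by decide +kernel
def pA96 : allGrpA xA25 gA96 = true := by decide +kernel
def pA103 : allGrpA xA26 gA103 = true := by decide +kernel
def pA110 : allGrpA xA27 gA110 = true := by decide +kernel
def pA116 : allGrpA xA28 gA116 = true := by decide +kernel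
def pA119 : allGrpA xA28 gA119 = true := by decide +kernel
def pA123 : allGrpA xA29 gA123 = true := by decide +kernel
def pA130 : allGrpA xA30 gA130 = true := by decide +kernel
def pA137 : allGrpA xA31 gA137 = true := by decide +kernel
def pA143 : allGrpA xA31 gA143 = true := by decide +kernel
def pA149 : allGrpA xA32 gA149 = true := by decide +kernel
def pA156 : allGrpA xA33 gA156 = true := by decide +kernel
def pA163 : allGrpA xA34 gA163 = true := by decide +kernel
def pA169 : allGrpA xA34 gA169 = true := by decide +kernel
def pA176 : allGrpA xA35 gA176 = true := by decide +kernel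
def pA182 : allGrpA xA36 gA182 = true := by decide +kernel
def pA188 : allGrpA xA36 gA188 = true := by decide +kernel
def pA195 : allGrpA xA37 gA195 = true := by decide +kernel
def pA199 : allGrpA xA37 gA199 = true := by decide +kernel
def pA202 : allGrpA xA38 gA202 = true := by decide +kernel
def pA208 : allGrpA xA38 gA208 = true := by decide +kernel
def pA215 : allGrpA xA39 gA215 = true := by decide +kernel
def pA221 : allGrpA xA40 gA221 = true := by decide +kernel
def pA227 : allGrpA xA40 gA227 = true := by decide +kernel
def pA234 : allGrpA xA41 gA234 = true := by decide +kernel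
def pA240 : allGrpA xA41 gA240 = true := by decide +kernel

end Vale.Agent.Lib.P154.Q4.Net
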