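import Vale.Agent.Lib.P154.Ineq4.GrpB

/-! kernel checks (B) -/

namespace Vale.Agent.Lib.P154.Q4.Net

set_option maxRecDepth 100000
set_option linter.defProp false

def pB0 : allGrpB xB0 gB0 = true := by decide +kernel
def pB1 : allGrpB xB1 gB1 = true := by decide +kernel
def pB2 : allGrpB xB2 gB2 = true := by decide +kernel
def pB3 : allGrpB xB3 gB3 = true := by decide +kernel
def pB6 : allGrpB xB5 gB6 = true := by decide +kernel
def pB10 : allGrpB xB7 gB10 = true := by decide +kernel
def pB12 : allGrpB xB8 gB12 = true := by decide +kernel
def pB14 : allGrpB xB8 gB14 = true := by decide +kernel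
def pB15 : allGrpB xB9 gB15 = true := by decide +kernel
def pB17 : allGrpB xB9 gB17 = true := by decide +kernel
def pB18 : allGrpB xB10 gB18 = true := by decide +kernel
def pB20 : allGrpB xB10 gB20 = true := by decide +kernel
def pB21 : allGrpB xB11 gB21 = true := by decide +kernel
def pB23 : allGrpB xB11 gB23 = true := by decide +kernel
def pB25 : allGrpB xB12 gB25 = true := by decide +kernel
def pB28 : allGrpB xB13 gB28 = true := by decide +kernel
def pB30 : allGrpB xB13 gB30 = true := by decide +kernel
def pB33 : allGrpB xB14 gB33 = true := by decide +kernel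
def pB36 : allGrpB xB15 gB36 = true := by decide +kernel
def pB38 : allGrpB xB15 gB38 = true := by decide +kernel
def pB40 : allGrpB xB16 gB40 = true := by decide +kernel
def pB42 : allGrpB xB16 gB42 = true := by decide +kernel
def pB44 : allGrpB xB16 gB44 = true := by decide +kernel
def pB45 : allGrpB xB17 gB45 = true := by decide +kernel
def pB47 : allGrpB xB17 gB47 = true := by decide +kernel
def pB49 : allGrpB xB17 gB49 = true := by decide +kernel
def pB50 : allGrpB xB18 gB50 = true := by decide +kernel
def pB52 : allGrpB xB18 gB52 = true := by decide +kernel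
def pB54 : allGrpB xB18 gB54 = true := by decide +kernel
def pB55 : allGrpB xB19 gB55 = true := by decide +kernel
def pB57 : allGrpB xB19 gB57 = true := by decide +kernel
def pB59 : allGrpB xB19 gB59 = true := by decide +kernel
def pB61 : allGrpB xB20 gB61 = true := by decide +kernel
def pB63 : allGrpB xB20 gB63 = true := by decide +kernel
def pB66 : allGrpB xB21 gB66 = true := by decide +kernel
def pB68 : allGrpB xB21 gB68 = true := by decide +kernel
def pB70 : allGrpB xB21 gB70 = true := by decide +kernel
def pB73 : allGrpB xB22 gB73 = true := by decide +kernel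
def pB75 : allGrpB xB22 gB75 = true := by decide +kernel
def pB78 : allGrpB xB23 gB78 = true := by decide +kernel
def pB80 : allGrpB xB23 gB80 = true := by decide +kernel
def pB82 : allGrpB xB23 gB82 = true := by decide +kernel
def pB84 : allGrpB xB24 gB84 = true := by decide +kernel
def pB86 : allGrpB xB24 gB86 = true := by decide +kernel
def pB88 : allGrpB xB24 gB88 = true := by decide +kernel
def pB90 : allGrpB xB24 gB90 = true := by decide +kernel

end Vale.Agent.Lib.P154.Q4.Net
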