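import Vale.Agent.Lib.P154.Ineq4.GrpB

/-! kernel checks (B) -/

namespace Vale.Agent.Lib.P154.Q4.Net

set_option maxRecDepth 100000
set_option linter.defProp false

def pB4 : allGrpB xB4 gB4 = true := by decide +kernel
def pB5 : allGrpB xB4 gB5 = true := by decide +kernel
def pB7 : allGrpB xB5 gB7 = true := by decide +kernel
def pB8 : allGrpB xB6 gB8 = true := by decide +kernel
def pB9 : allGrpB xB6 gB9 = true := by decide +kernel
def pB11 : allGrpB xB7 gB11 = true := by decide +kernel
def pB13 : allGrpB xB8 gB13 = true := by decide +kernel
def pB16 : allGrpB xB9 gB16 = true := by decide +kernel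
def pB19 : allGrpB xB10 gB19 = true := by decide +kernel
def pB22 : allGrpB xB11 gB22 = true := by decide +kernel
def pB24 : allGrpB xB12 gB24 = true := by decide +kernel
def pB26 : allGrpB xB12 gB26 = true := by decide +kernel
def pB27 : allGrpB xB12 gB27 = true := by decide +kernel
def pB29 : allGrpB xB13 gB29 = true := by decide +kernel
def pB31 : allGrpB xB13 gB31 = true := by decide +kernel
def pB32 : allGrpB xB14 gB32 = true := by decide +kernel
def pB34 : allGrpB xB14 gB34 = true := by decide +kernel
def pB35 : allGrpB xB14 gB35 = true := by decide +kernel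
def pB37 : allGrpB xB15 gB37 = true := by decide +kernel
def pB39 : allGrpB xB15 gB39 = true := by decide +kernel
def pB41 : allGrpB xB16 gB41 = true := by decide +kernel
def pB43 : allGrpB xB16 gB43 = true := by decide +kernel
def pB46 : allGrpB xB17 gB46 = true := by decide +kernel
def pB48 : allGrpB xB17 gB48 = true := by decide +kernel
def pB51 : allGrpB xB18 gB51 = true := by decide +kernel
def pB53 : allGrpB xB18 gB53 = true := by decide +kernel
def pB56 : allGrpB xB19 gB56 = true := by decide +kernel
def pB58 : allGrpB xB19 gB58 = true := by decide +kernel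
def pB60 : allGrpB xB20 gB60 = true := by decide +kernel
def pB62 : allGrpB xB20 gB62 = true := by decide +kernel
def pB64 : allGrpB xB20 gB64 = true := by decide +kernel
def pB65 : allGrpB xB20 gB65 = true := by decide +kernel
def pB67 : allGrpB xB21 gB67 = true := by decide +kernel
def pB69 : allGrpB xB21 gB69 = true := by decide +kernel
def pB71 : allGrpB xB21 gB71 = true := by decide +kernel
def pB72 : allGrpB xB22 gB72 = true := by decide +kernel
def pB74 : allGrpB xB22 gB74 = true := by decide +kernel
def pB76 : allGrpB xB22 gB76 = true := by decide +kernel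
def pB77 : allGrpB xB22 gB77 = true := by decide +kernel
def pB79 : allGrpB xB23 gB79 = true := by decide +kernel
def pB81 : allGrpB xB23 gB81 = true := by decide +kernel
def pB83 : allGrpB xB23 gB83 = true := by decide +kernel
def pB85 : allGrpB xB24 gB85 = true := by decide +kernel
def pB87 : allGrpB xB24 gB87 = true := by decide +kernel
def pB89 : allGrpB xB24 gB89 = true := by decide +kernel

end Vale.Agent.Lib.P154.Q4.Net
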