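import Vale.Agent.Lib.P154.Ineq4.PairsA0
import Vale.Agent.Lib.P154.Ineq4.PairsA1
import Vale.Agent.Lib.P154.Ineq4.PairsA2
import Vale.Agent.Lib.P154.Ineq4.PairsA3
import Vale.Agent.Lib.P154.Ineq4.PairsA4
import Vale.Agent.Lib.P154.Ineq4.PairsA5
import Vale.Agent.Lib.P154.Ineq4.PairsB0
import Vale.Agent.Lib.P154.Ineq4.PairsB1

/-!
The two core inequalities for four colours.
-/

namespace Vale.Agent.Lib.P154.Q4

open scoped BigOperators
open Finset Net

/-! ### symmetry -/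

theorem Sg_symm (y z : Fin 4 → ℝ) (g : Equiv.Perm (Fin 4)) : Sg z y g = Sg y z g⁻¹ := by
  unfold Sg
  congr 1
  rw [← Equiv.sum_comp g⁻¹ (fun i => z i * y (g i))]
  refine Finset.sum_congr rfl fun i _ => ?_
  have e : g (g⁻¹ i) = i := by simp
  simp only [e]
  ring

theorem Vg_symm (y z : Fin 4 → ℝ) (g : Equiv.Perm (Fin 4)) : Vg z y g = Vg y z g⁻¹ := by
  unfold Vg
  rw [Sg_symm]
  congr 2
  rw [← Equiv.sum_comp g⁻¹ (fun i => (z i * y (g i)) ^ 2)]
  refine Finset.sum_congr rfl fun i _ => ?_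
  have e : g (g⁻¹ i) = i := by simp
  simp only [e]
  ring

theorem avg_symm (F : ℝ → ℝ → ℝ) (y z : Fin 4 → ℝ) :
    avg (fun g => F (Vg z y g) (Sg z y g)) = avg (fun g => F (Vg y z g) (Sg y z g)) := by
  unfold avg
  congr 1
  rw [← Equiv.sum_comp (Equiv.inv (Equiv.Perm (Fin 4))) (fun g => F (Vg y z g) (Sg y z g))]
  refine Finset.sum_congr rfl fun g _ => ?_
  rw [Sg_symm, Vg_symm]
  rfl

theorem I2_le {y : Fin 4 → ℝ} (hy : Nrm y) : I2 y ≤ 3 := by
  have h4 : ∀ i, y i ≤ 4 := by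
    intro i
    rw [← hy.2]
    exact Finset.single_le_sum (fun j _ => hy.1 j) (Finset.mem_univ i)
  unfold I2
  have h : ∑ i, (y i - 1) ^ 2 ≤ ∑ i, (1 + 2 * y i) := by
    refine Finset.sum_le_sum fun i _ => ?_
    nlinarith [mul_nonneg (hy.1 i) (sub_nonneg.2 (h4 i))]
  rw [Finset.sum_add_distrib, ← Finset.mul_sum, hy.2] at h
  simp at h
  linarith

theorem I3_le {y : Fin 4 → ℝ} (hy : Nrm y) : I3 y ≤ 1 := by
  have h4 : ∀ i, y i ≤ 4 := by
    intro i
    rw [← hy.2]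
    exact Finset.single_le_sum (fun j _ => hy.1 j) (Finset.mem_univ i)
  unfold I3
  have h : ∑ i, (y i - 1) ^ 3 ≤ ∑ i, (7 * y i - 1) := by
    refine Finset.sum_le_sum fun i _ => ?_
    have h1 : 0 ≤ y i * (4 - y i) * (y i + 1) :=
      mul_nonneg (mul_nonneg (hy.1 i) (sub_nonneg.2 (h4 i))) (by linarith [hy.1 i])
    nlinarith
  rw [Finset.sum_sub_distrib, ← Finset.mul_sum, hy.2] at h
  simp at h
  linarith

end Vale.Agent.Lib.P154.Q4

namespace Vale.Agent.Lib.P154.Q4.Net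

open scoped BigOperators
open Finset

set_option maxRecDepth 100000

def chunksOKA : List (ℕ × List (ℕ × ℕ × List ℕ)) → Prop
  | [] => True
  | e :: l => allGrpA (nthCI ciA e.1) e.2 = true ∧ chunksOKA l

theorem gsA_ok : chunksOKA gsA := ⟨pA0, pA1, pA2, pA3, pA4, pA5, pA6, pA7, pA8, pA9, pA10, pA11, pA12, pA13, pA14, pA15, pA16, pA17, pA18, pA19, pA20, pA21, pA22, pA23, pA24, pA25, pA26, pA27, pA28, pA29, pA30, pA31, pA32, pA33, pA34, pA35, pA36, pA37, pA38, pA39, pA40, pA41, pA42, pA43, pA44, pA45, pA46, pA47, pA48, pA49, pA50, pA51, pA52, pA53, pA54, pA55, pA56, pA57, pA58, pA59, pA60, pA61, pA62, pA63, pA64, pA65, pA66, pA67, pA68, pA69, pA70, pA71, pA72, pA73, pA74, pA75, pA76, pA77, pA78, pA79, pA80, pA81, pA82, pA83, pA84, pA85, pA86, pA87, pA88, pA89, pA90, pA91, pA92, pA93, pA94, pA95, pA96, pA97, pA98, pA99, pA100, pA101, pA102, pA103, pA104, pA105, pA106, pA107, pA108, pA109, pA110, pA111, pA112, pA113, pA114, pA115,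 pA116, pA117, pA118, pA119, pA120, pA121, pA122, pA123, pA124, pA125, pA126, pA127, pA128, pA129, pA130, pA131, pA132, pA133, pA134, pA135, pA136, pA137, pA138, pA139, pA140, pA141, pA142, pA143, pA144, pA145, pA146, pA147, pA148, pA149, pA150, pA151, pA152, pA153, pA154, pA155, pA156, pA157, pA158, pA159, pA160, pA161, pA162, pA163, pA164, pA165, pA166, pA167, pA168, pA169, pA170, pA171, pA172, pA173, pA174, pA175, pA176, pA177, pA178, pA179, pA180, pA181, pA182, pA183, pA184, pA185, pA186, pA187, pA188, pA189, pA190, pA191, pA192, pA193, pA194, pA195, pA196, pA197, pA198, pA199, pA200, pA201, pA202, pA203, pA204, pA205, pA206, pA207, pA208, pA209, pA210, pA211, pA212, pA213, pA214, pA215, pA216, pA217, pA218, pA219, pA220, pA221, pA222, pA223, pA224, pA225, pA226, pA227, pA228, pA229, pA230, pA231, pA232, pA233, pA234, pA235, pA236, pA237, pA238, pA239, pA240, pA241, trivial⟩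

theorem chunksOKA_mem {l : List (ℕ × List (ℕ × ℕ × List ℕ))} (h : chunksOKA l) {e : ℕ × List (ℕ × ℕ × List ℕ)}
    (he : e ∈ l) : allGrpA (nthCI ciA e.1) e.2 = true := by
  induction l with
  | nil => simp at he
  | cons a l ih =>
    rcases List.mem_cons.1 he with he | he
    · rw [he]; exact h.1
    · exact ih h.2 he

theorem gsA_idx : gsA.all (fun e => Nat.blt e.1 42 && e.2.all (fun g => (g.2.2).all
    (fun i => Nat.blt i 42))) = true := by decide +kernel

theorem gsA_cover : (List.range 42).all (fun j => (List.range (j + 1)).all (fun i =>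
    gsA.any (fun e => Nat.beq e.1 j && e.2.any (fun g => (g.2.2).any (fun k => Nat.beq k i))))) = true := by
  decide +kernel

theorem gsA_find {i j : ℕ} (hj : j < 42) (hij : i ≤ j) :
    ∃ e ∈ gsA, e.1 = j ∧ ∃ g ∈ e.2, i ∈ g.2.2 := by
  have h := List.all_eq_true.1 gsA_cover j (List.mem_range.2 hj)
  have h2 := List.all_eq_true.1 h i (List.mem_range.2 (by omega))
  obtain ⟨e, he, h3⟩ := List.any_eq_true.1 h2
  rw [Bool.and_eq_true] at h3
  obtain ⟨h4, h5⟩ := h3
  obtain ⟨g, hg, h6⟩ := List.any_eq_true.1 h5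
  obtain ⟨k, hk, h7⟩ := List.any_eq_true.1 h6
  refine ⟨e, he, Nat.eq_of_beq_eq_true h4, g, hg, ?_⟩
  rw [← Nat.eq_of_beq_eq_true h7]; exact hk

def chunksOKB : List (ℕ × List (ℕ × ℕ × (ℕ × ℕ × ℕ × ℕ) × List ℕ)) → Prop
  | [] => True
  | e :: l => allGrpB (nthCI ciB e.1) e.2 = true ∧ chunksOKB l

theorem gsB_ok : chunksOKB gsB := ⟨pB0, pB1, pB2, pB3, pB4, pB5, pB6, pB7, pB8, pB9, pB10, pB11, pB12, pB13, pB14, pB15, pB16, pB17, pB18, pB19, pB20, pB21, pB22, pB23, pB24, pB25, pB26, pB27, pB28, pB29, pB30, pB31, pB32, pB33, pB34, pB35, pB36, pB37, pB38, pB39, pB40, pB41, pB42, pB43, pB44, pB45, pB46, pB47, pB48, pB49, pB50, pB51, pB52, pB53, pB54, pB55, pB56, pB57, pB58, pB59, pB60, pB61, pB62, pB63, pB64, pB65, pB66, pB67, pB68, pB69, pB70, pB71, pB72, pB73, pB74, pB75, pB76, pB77, pB78, pB79, pB80, pB81, pB82, pB83, pB84, pB85, pB86, pB87, pB88, pB89, pB90, trivial⟩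

theorem chunksOKB_mem {l : List (ℕ × List (ℕ × ℕ × (ℕ × ℕ × ℕ × ℕ) × List ℕ))} (h : chunksOKB l) {e : ℕ × List (ℕ × ℕ × (ℕ × ℕ × ℕ × ℕ) × List ℕ)}
    (he : e ∈ l) : allGrpB (nthCI ciB e.1) e.2 = true := by
  induction l with
  | nil => simp at he
  | cons a l ih =>
    rcases List.mem_cons.1 he with he | he
    · rw [he]; exact h.1
    · exact ih h.2 he

theorem gsB_idx : gsB.all (fun e => Nat.blt e.1 25 && e.2.all (fun g => (g.2.2.2).all
    (fun i => Nat.blt i 25))) = true := by decide +kernel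

theorem gsB_cover : (List.range 25).all (fun j => (List.range (j + 1)).all (fun i =>
    gsB.any (fun e => Nat.beq e.1 j && e.2.any (fun g => (g.2.2.2).any (fun k => Nat.beq k i))))) = true := by
  decide +kernel

theorem gsB_find {i j : ℕ} (hj : j < 25) (hij : i ≤ j) :
    ∃ e ∈ gsB, e.1 = j ∧ ∃ g ∈ e.2, i ∈ g.2.2.2 := by
  have h := List.all_eq_true.1 gsB_cover j (List.mem_range.2 hj)
  have h2 := List.all_eq_true.1 h i (List.mem_range.2 (by omega))
  obtain ⟨e, he, h3⟩ := List.any_eq_true.1 h2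
  rw [Bool.and_eq_true] at h3
  obtain ⟨h4, h5⟩ := h3
  obtain ⟨g, hg, h6⟩ := List.any_eq_true.1 h5
  obtain ⟨k, hk, h7⟩ := List.any_eq_true.1 h6
  refine ⟨e, he, Nat.eq_of_beq_eq_true h4, g, hg, ?_⟩
  rw [← Nat.eq_of_beq_eq_true h7]; exact hk

theorem allGrpA_mem {Y : CI} {l : List (ℕ × ℕ × List ℕ)} (h : allGrpA Y l = true)
    {g : ℕ × ℕ × List ℕ} (hg : g ∈ l) :
    grpChk 288 DSA GA MXTA ciA Y (gaA (nthMCA memA g.1).m) (nthMCA memA g.1).m g.2.1 g.2.2 = true := by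
  induction l with
  | nil => simp at hg
  | cons a l ih =>
    unfold allGrpA at h
    split at h
    · rename_i h2
      rcases List.mem_cons.1 hg with hg | hg
      · rw [hg]; exact h2
      · exact ih h hg
    · simp at h

theorem allGrpB_mem {Y : CI} {l : List (ℕ × ℕ × (ℕ × ℕ × ℕ × ℕ) × List ℕ)}
    (h : allGrpB Y l = true) {g : ℕ × ℕ × (ℕ × ℕ × ℕ × ℕ) × List ℕ} (hg : g ∈ l) :
    grpChk 288 DSB GB MXTB ciB Y (gaB (nthMCB memB g.1).m g.2.2.1.1 g.2.2.1.2.1
      g.2.2.1.2.2.1 g.2.2.1.2.2.2) (nthMCB memB g.1).m g.2.1 g.2.2.2 = true := by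
  induction l with
  | nil => simp at hg
  | cons a l ih =>
    unfold allGrpB at h
    split at h
    · rename_i h2
      rcases List.mem_cons.1 hg with hg | hg
      · rw [hg]; exact h2
      · exact ih h hg
    · simp at h

theorem ciA_len : ciA.length = 42 := rfl
theorem ciB_len : ciB.length = 25 := rfl

theorem coreA_le {i j : ℕ} (hj : j < 42) (hij : i ≤ j) {y z : Fin 4 → ℝ} (hy : Nrm y) (hz : Nrm z)
    (hY : CellData DSA (· ≤ ·) (nthCI ciA j) y) (hX : CellData DSA (· ≤ ·) (nthCI ciA i) z) :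
    kap z * zeta y + kap y * zeta z + (1 / 8192) * I2 y * I2 z ≤
      avg (fun g => Vg y z g / (2 * Sg y z g) + Sg y z g * Real.log (Sg y z g)) -
        ent y - ent z := by
  obtain ⟨e, he, hej, g, hg, hig⟩ := gsA_find hj hij
  have h1 := chunksOKA_mem gsA_ok he
  rw [hej] at h1
  have h2 := allGrpA_mem h1 hg
  have hidx := List.all_eq_true.1 gsA_idx e he
  rw [Bool.and_eq_true] at hidx
  have hidx2 := List.all_eq_true.1 hidx.2 g hg
  have hxs : ∀ k ∈ g.2.2, k < ciA.length := by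
    intro k hk
    rw [ciA_len]
    exact Nat.le_of_ble_eq_true (List.all_eq_true.1 hidx2 k hk)
  have hC := ciA_ok.2 j (by rw [ciA_len]; exact hj)
  obtain ⟨a1, a2, a3, a4⟩ := grpChk_sound (by norm_num) GA_idx ciA_ok hC.1 hC.2 hxs h2 i hig
  exact coreA_pair DSA_pos (memA_memG _) (memA_memJ _) a1 hy hz (I2_le hy) (I2_le hz) hY hX
    a2 a3 a4

theorem coreB_le {i j : ℕ} (hj : j < 25) (hij : i ≤ j) {y z : Fin 4 → ℝ} (hy : Nrm y) (hz : Nrm z)
    (hY : CellData DSB (· ≥ ·) (nthCI ciB j) y) (hX : CellData DSB (· ≥ ·) (nthCI ciB i) z) :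
    avg (fun g => Vg y z g / (3 * Sg y z g)) ≤
      I2 y / 3 + I2 z / 3 - eta z * zeta y - eta y * zeta z := by
  obtain ⟨e, he, hej, g, hg, hig⟩ := gsB_find hj hij
  have h1 := chunksOKB_mem gsB_ok he
  rw [hej] at h1
  have h2 := allGrpB_mem h1 hg
  have hidx := List.all_eq_true.1 gsB_idx e he
  rw [Bool.and_eq_true] at hidx
  have hidx2 := List.all_eq_true.1 hidx.2 g hg
  have hxs : ∀ k ∈ g.2.2.2, k < ciB.length := by
    intro k hk
    rw [ciB_len]
    exact Nat.le_of_ble_eq_true (List.all_eq_true.1 hidx2 k hk)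
  have hC := ciB_ok.2 j (by rw [ciB_len]; exact hj)
  obtain ⟨a1, a2, a3, a4⟩ := grpChk_sound (by norm_num) GB_idx ciB_ok hC.1 hC.2 hxs h2 i hig
  exact coreB_pair DSB_pos (memB_memG _) a1 _ _ _ _ hy hz (eta_nonneg (I2_le hy) (I3_le hy))
    (eta_nonneg (I2_le hz) (I3_le hz)) hY hX a2 a3 a4

end Vale.Agent.Lib.P154.Q4.Net

namespace Vale.Agent.Lib.P154.Q4

open scoped BigOperators
open Finset Net

theorem coreA_all (y z : Fin 4 → ℝ) (hy : Nrm y) (hz : Nrm z) :
    kap z * zeta y + kap y * zeta z + (1 / 8192) * I2 y * I2 z ≤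
      avg (fun g => Vg y z g / (2 * Sg y z g) + Sg y z g * Real.log (Sg y z g)) -
        ent y - ent z := by
  obtain ⟨j, hj, hY⟩ := classA y hy
  obtain ⟨i, hi, hX⟩ := classA z hz
  rcases le_total i j with h | h
  · exact coreA_le hj h hy hz hY hX
  · have h2 := coreA_le hi h hz hy hX hY
    rw [avg_symm (fun v s => v / (2 * s) + s * Real.log s) y z] at h2
    linarith

theorem coreB_all (y z : Fin 4 → ℝ) (hy : Nrm y) (hz : Nrm z) :
    avg (fun g => Vg y z g / (3 * Sg y z g)) ≤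
      I2 y / 3 + I2 z / 3 - eta z * zeta y - eta y * zeta z := by
  obtain ⟨j, hj, hY⟩ := classB y hy
  obtain ⟨i, hi, hX⟩ := classB z hz
  rcases le_total i j with h | h
  · exact coreB_le hj h hy hz hY hX
  · have h2 := coreB_le hi h hz hy hX hY
    rw [avg_symm (fun v s => v / (3 * s)) y z] at h2
    linarith

end Vale.Agent.Lib.P154.Q4
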