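import Vale.Agent.Lib.P154.Ineq4.Hull
import Vale.Agent.Lib.P154.Ineq4.Basic

/-!
Generators of the bilinear forms.
-/

namespace Vale.Agent.Lib.P154.Q4.Net

set_option linter.unusedSimpArgs false

open scoped BigOperators
open Finset

/-- generators for the side inequality: `24 Q_k` (`k < 6`), `24 R_k` (`k < 8`), `54 BaseA`, slack -/
def GA : List (List (List (ℕ × ℤ))) := [
  [[(1, 24)],
   [],
   [],
   [],
   [],
   [],
   [(0, 24)],
   [],
   [],
   [],
   [],
   [],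
   [],
   [],
   [(1, -27)],
   []],
  [[(0, 24), (1, 16)],
   [(1, 16), (2, 96)],
   [(3, 8)],
   [],
   [],
   [],
   [],
   [],
   [(1, 8)],
   [],
   [],
   [],
   [],
   [],
   [(0, -27), (1, 54), (3, -9), (6, 1), (11, -54)],
   [(1, 1)]],
  [[],
   [(1, 96), (2, 144)],
   [(2, 288), (3, 96), (4, -96)],
   [(5, 144)],
   [],
   [],
   [],
   [],
   [],
   [(2, 144)],
   [],
   [],
   [],
   [],
   [],
   []],
  [[],
   [],
   [(1, 8), (2, 96), (3, 12), (4, -4)],
   [(3, 24), (4, -24), (5, 96)],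
   [(6, 12), (8, -12)],
   [],
   [],
   [],
   [],
   [],
   [(3, 12), (4, -12)],
   [],
   [],
   [],
   [(1, -9), (11, 18)],
   []],
  [[],
   [],
   [(2, -96), (3, -4), (4, -4)],
   [(3, -24), (4, 40), (5, -64)],
   [(6, -12), (8, 20)],
   [],
   [],
   [],
   [],
   [],
   [(3, -12), (4, 20)],
   [],
   [],
   [],
   [],
   []],
  [[],
   [],
   [],
   [(2, 144), (3, 96), (4, -64), (5, 208)],
   [(5, 320), (6, 64), (7, 768), (8, -64)],
   [(9, 160)],
   [],
   [],
   [],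
   [],
   [],
   [(5, 160)],
   [],
   [],
   [],
   []],
  [[],
   [],
   [],
   [],
   [(3, 12), (4, -12), (5, 64), (6, 11), (7, 6), (8, -7)],
   [(6, 34), (7, -204), (8, -42), (9, 80), (10, -16)],
   [],
   [],
   [],
   [],
   [],
   [],
   [(6, 17), (7, -102), (8, -21)],
   [],
   [(1, 1), (11, -2)],
   []],
  [[],
   [],
   [],
   [],
   [(5, 768), (6, 6), (7, 1260), (8, -30)],
   [(6, -204), (7, 5544), (8, 252), (9, 960), (10, -1344)],
   [],
   [],
   [],
   [],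
   [],
   [],
   [(6, -102), (7, 2772), (8, 126)],
   [],
   [],
   []],
  [[],
   [],
   [],
   [],
   [(3, -12), (4, 20), (5, -64), (6, -7), (7, -30), (8, 3)],
   [(6, -42), (7, 252), (8, 66), (9, -80), (10, 48)],
   [],
   [],
   [],
   [],
   [],
   [],
   [(6, -21), (7, 126), (8, 33)],
   [],
   [],
   []],
  [[],
   [],
   [],
   [],
   [],
   [(5, 160), (6, 80), (7, 960), (8, -80), (9, 280), (10, -120)],
   [],
   [],
   [],
   [],
   [],
   [],
   [],
   [(9, 280), (10, -280)],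
   [],
   []],
  [[],
   [],
   [],
   [],
   [],
   [(6, -16), (7, -1344), (8, 48), (9, -120), (10, 136)],
   [],
   [],
   [],
   [],
   [],
   [],
   [],
   [(9, -280), (10, 616)],
   [],
   []],
  [[],
   [],
   [],
   [],
   [],
   [],
   [],
   [],
   [],
   [],
   [],
   [],
   [],
   [],
   [(1, -54), (3, 18), (6, -2)],
   []]]

/-- generators for the main inequality -/
def GB : List (List (List (ℕ × ℤ))) := [
  [[(0, 72), (1, -24)],
   [],
   [],
   [],
   [],
   [],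
   [(0, -9), (1, 3)],
   [],
   [],
   [],
   []],
  [[(0, -24), (1, 8)],
   [(1, 32), (2, -96)],
   [(1, 24), (3, -8)],
   [],
   [],
   [],
   [(0, 3), (1, -12), (3, 2), (5, 6), (9, -2), (11, 12)],
   [(3, 1), (4, -1)],
   [(3, 25), (4, -25)],
   [(6, 18)],
   [(3, 2), (4, -2)]],
  [[],
   [(1, -96), (2, 288)],
   [(2, 576), (3, -96), (4, 96)],
   [(2, 432), (5, -144)],
   [],
   [],
   [],
   [(2, -36)],
   [],
   [(3, 180)],
   []],
  [[],
   [],
   [(1, -8), (2, -96), (3, 24), (4, -32)],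
   [(3, 48), (4, -48), (5, -96)],
   [(3, 36), (4, -36), (6, -12), (8, 12)],
   [],
   [(1, 2), (11, -4)],
   [(1, 1)],
   [(2, 180)],
   [(1, 25)],
   [(2, 12)]],
  [[],
   [],
   [(2, 96), (3, -32), (4, 64)],
   [(3, -48), (4, 80), (5, 64)],
   [(3, -36), (4, 60), (6, 12), (8, -20)],
   [],
   [],
   [(1, -1)],
   [],
   [(1, -25)],
   []],
  [[],
   [],
   [],
   [(2, -144), (3, -96), (4, 64), (5, 272)],
   [(5, 640), (6, -64), (7, -768), (8, 64)],
   [(5, 480), (9, -160)],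
   [(1, 6), (11, -12)],
   [],
   [],
   [],
   []],
  [[],
   [],
   [],
   [],
   [(3, -12), (4, 12), (5, -64), (6, 40), (7, -312), (8, -56)],
   [(6, 68), (7, -408), (8, -84), (9, -80), (10, 16)],
   [],
   [],
   [(1, 18)],
   [],
   [(1, 1)]],
  [[],
   [],
   [],
   [],
   [(5, -768), (6, -312), (7, 7056), (8, 408)],
   [(6, -408), (7, 11088), (8, 504), (9, -960), (10, 1344)],
   [],
   [],
   [],
   [],
   []],
  [[],
   [],
   [],
   [],
   [(3, 12), (4, -20), (5, 64), (6, -56), (7, 408), (8, 96)],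
   [(6, -84), (7, 504), (8, 132), (9, 80), (10, -48)],
   [],
   [],
   [],
   [],
   []],
  [[],
   [],
   [],
   [],
   [],
   [(5, -160), (6, -80), (7, -960), (8, 80), (9, 560), (10, -720)],
   [(1, -2), (11, 4)],
   [],
   [],
   [],
   []],
  [[],
   [],
   [],
   [],
   [],
   [(6, 16), (7, 1344), (8, -48), (9, -720), (10, 1712)],
   [],
   [],
   [],
   [],
   []],
  [[],
   [],
   [],
   [],
   [],
   [],
   [(1, 12), (3, -4), (5, -12), (9, 4)],
   [],
   [],
   [],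
   []]]


theorem GA_idx : idxP GA := idxP_of _ (by decide +kernel)
theorem GB_idx : idxP GB := idxP_of _ (by decide +kernel)

noncomputable def rowR (l : List (ℕ × ℤ)) (ψ : ℕ → ℝ) : ℝ := (l.map fun p => (p.2 : ℝ) * ψ p.1).sum

/-- value of the generator `k` -/
noncomputable def genR (G : List (List (List (ℕ × ℤ)))) (k : ℕ) (φ ψ : ℕ → ℝ) : ℝ :=
  ∑ f ∈ range 12, φ f * rowR ((G.getD f []).getD k []) ψ

theorem rowR_eq (l : List (ℕ × ℤ)) (hl : ∀ p ∈ l, p.1 < 12) (ψ : ℕ → ℝ) :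
    rowR l ψ = ∑ h ∈ range 12, (rowV l (delta h) : ℝ) * ψ h := by
  induction l with
  | nil => simp [rowV, rowR]
  | cons p l ih =>
    have h1 := ih (fun q hq => hl q (by simp [hq]))
    have e : ∀ z : ℕ → ℤ, rowV (p :: l) z = p.2 * z p.1 + rowV l z := fun z => by simp [rowV]
    have e' : rowR (p :: l) ψ = p.2 * ψ p.1 + rowR l ψ := by simp [rowR]
    rw [e', h1]
    simp only [e]
    push_cast
    simp only [add_mul, sum_add_distrib]
    congr 1
    have hp : p.1 < 12 := hl p (by simp)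
    rw [Finset.sum_eq_single_of_mem p.1 (mem_range.2 hp)]
    · simp [delta]
    · intro b _ hb
      simp [delta, Ne.symm hb]

theorem bilT_gen {G : List (List (List (ℕ × ℤ)))} (hG : idxP G) (ga : List ℤ) (φ ψ : ℕ → ℝ) :
    bilT (fun f h => (tm G ga f h : ℝ)) φ ψ =
      ∑ k ∈ range ga.length, (nth ga k : ℝ) * genR G k φ ψ := by
  unfold bilT genR
  simp only [mul_sum]
  rw [sum_comm (s := range ga.length)]
  refine sum_congr rfl fun f _ => ?_
  have e : ∀ k, rowR ((G.getD f []).getD k []) ψ =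
      ∑ h ∈ range 12, (rowV ((G.getD f []).getD k []) (delta h) : ℝ) * ψ h :=
    fun k => rowR_eq _ (hG.row f k) ψ
  simp only [e, mul_sum]
  rw [sum_comm]
  refine sum_congr rfl fun h _ => ?_
  unfold tm gz
  push_cast
  simp only [sum_mul]
  refine sum_congr rfl fun k _ => ?_
  ring

theorem GA_Q0 (φ ψ : ℕ → ℝ) : genR GA 0 φ ψ = 24 * bil (Qtab.getD 0 []) φ ψ := by
  simp only [genR, GA, rowR, bil, Qtab, sum_range_succ, sum_range_zero, List.getD_cons_zero,
    List.getD_cons_succ, List.getD_nil, List.map_cons, List.map_nil, List.sum_cons, List.sum_nil]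
  push_cast
  ring

theorem GA_Q1 (φ ψ : ℕ → ℝ) : genR GA 1 φ ψ = 24 * bil (Qtab.getD 1 []) φ ψ := by
  simp only [genR, GA, rowR, bil, Qtab, sum_range_succ, sum_range_zero, List.getD_cons_zero,
    List.getD_cons_succ, List.getD_nil, List.map_cons, List.map_nil, List.sum_cons, List.sum_nil]
  push_cast
  ring

theorem GA_Q2 (φ ψ : ℕ → ℝ) : genR GA 2 φ ψ = 24 * bil (Qtab.getD 2 []) φ ψ := by
  simp only [genR, GA, rowR, bil, Qtab, sum_range_succ, sum_range_zero, List.getD_cons_zero,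
    List.getD_cons_succ, List.getD_nil, List.map_cons, List.map_nil, List.sum_cons, List.sum_nil]
  push_cast
  ring

theorem GA_Q3 (φ ψ : ℕ → ℝ) : genR GA 3 φ ψ = 24 * bil (Qtab.getD 3 []) φ ψ := by
  simp only [genR, GA, rowR, bil, Qtab, sum_range_succ, sum_range_zero, List.getD_cons_zero,
    List.getD_cons_succ, List.getD_nil, List.map_cons, List.map_nil, List.sum_cons, List.sum_nil]
  push_cast
  ring

theorem GA_Q4 (φ ψ : ℕ → ℝ) : genR GA 4 φ ψ = 24 * bil (Qtab.getD 4 []) φ ψ := by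
  simp only [genR, GA, rowR, bil, Qtab, sum_range_succ, sum_range_zero, List.getD_cons_zero,
    List.getD_cons_succ, List.getD_nil, List.map_cons, List.map_nil, List.sum_cons, List.sum_nil]
  push_cast
  ring

theorem GA_Q5 (φ ψ : ℕ → ℝ) : genR GA 5 φ ψ = 24 * bil (Qtab.getD 5 []) φ ψ := by
  simp only [genR, GA, rowR, bil, Qtab, sum_range_succ, sum_range_zero, List.getD_cons_zero,
    List.getD_cons_succ, List.getD_nil, List.map_cons, List.map_nil, List.sum_cons, List.sum_nil]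
  push_cast
  ring

theorem GA_R0 (φ ψ : ℕ → ℝ) : genR GA 6 φ ψ = 24 * bil (Rtab.getD 0 []) φ ψ := by
  simp only [genR, GA, rowR, bil, Rtab, sum_range_succ, sum_range_zero, List.getD_cons_zero,
    List.getD_cons_succ, List.getD_nil, List.map_cons, List.map_nil, List.sum_cons, List.sum_nil]
  push_cast
  ring

theorem GA_R1 (φ ψ : ℕ → ℝ) : genR GA 7 φ ψ = 24 * bil (Rtab.getD 1 []) φ ψ := by
  simp only [genR, GA, rowR, bil, Rtab, sum_range_succ, sum_range_zero, List.getD_cons_zero,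
    List.getD_cons_succ, List.getD_nil, List.map_cons, List.map_nil, List.sum_cons, List.sum_nil]
  push_cast
  ring

theorem GA_R2 (φ ψ : ℕ → ℝ) : genR GA 8 φ ψ = 24 * bil (Rtab.getD 2 []) φ ψ := by
  simp only [genR, GA, rowR, bil, Rtab, sum_range_succ, sum_range_zero, List.getD_cons_zero,
    List.getD_cons_succ, List.getD_nil, List.map_cons, List.map_nil, List.sum_cons, List.sum_nil]
  push_cast
  ring

theorem GA_R3 (φ ψ : ℕ → ℝ) : genR GA 9 φ ψ = 24 * bil (Rtab.getD 3 []) φ ψ := by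
  simp only [genR, GA, rowR, bil, Rtab, sum_range_succ, sum_range_zero, List.getD_cons_zero,
    List.getD_cons_succ, List.getD_nil, List.map_cons, List.map_nil, List.sum_cons, List.sum_nil]
  push_cast
  ring

theorem GA_R4 (φ ψ : ℕ → ℝ) : genR GA 10 φ ψ = 24 * bil (Rtab.getD 4 []) φ ψ := by
  simp only [genR, GA, rowR, bil, Rtab, sum_range_succ, sum_range_zero, List.getD_cons_zero,
    List.getD_cons_succ, List.getD_nil, List.map_cons, List.map_nil, List.sum_cons, List.sum_nil]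
  push_cast
  ring

theorem GA_R5 (φ ψ : ℕ → ℝ) : genR GA 11 φ ψ = 24 * bil (Rtab.getD 5 []) φ ψ := by
  simp only [genR, GA, rowR, bil, Rtab, sum_range_succ, sum_range_zero, List.getD_cons_zero,
    List.getD_cons_succ, List.getD_nil, List.map_cons, List.map_nil, List.sum_cons, List.sum_nil]
  push_cast
  ring

theorem GA_R6 (φ ψ : ℕ → ℝ) : genR GA 12 φ ψ = 24 * bil (Rtab.getD 6 []) φ ψ := by
  simp only [genR, GA, rowR, bil, Rtab, sum_range_succ, sum_range_zero, List.getD_cons_zero,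
    List.getD_cons_succ, List.getD_nil, List.map_cons, List.map_nil, List.sum_cons, List.sum_nil]
  push_cast
  ring

theorem GA_R7 (φ ψ : ℕ → ℝ) : genR GA 13 φ ψ = 24 * bil (Rtab.getD 7 []) φ ψ := by
  simp only [genR, GA, rowR, bil, Rtab, sum_range_succ, sum_range_zero, List.getD_cons_zero,
    List.getD_cons_succ, List.getD_nil, List.map_cons, List.map_nil, List.sum_cons, List.sum_nil]
  push_cast
  ring

/-- `1 - kap` and `kap` in terms of the features -/
noncomputable def kapF (φ : ℕ → ℝ) : ℝ := 1 - φ 1 + φ 3 / 3 - φ 6 / 27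

noncomputable def baseA (φ ψ : ℕ → ℝ) : ℝ :=
  -(φ 11 * (ψ 0 - (ψ 0 - ψ 1 + ψ 3 / 3 - ψ 6 / 27))) -
    ψ 11 * (φ 0 - (φ 0 - φ 1 + φ 3 / 3 - φ 6 / 27)) -
    (φ 0 - φ 1 + φ 3 / 3 - φ 6 / 27) * ψ 1 / 2 - (ψ 0 - ψ 1 + ψ 3 / 3 - ψ 6 / 27) * φ 1 / 2

theorem GA_base (φ ψ : ℕ → ℝ) : genR GA 14 φ ψ = 54 * baseA φ ψ := by
  simp only [genR, GA, rowR, baseA, sum_range_succ, sum_range_zero, List.getD_cons_zero,
    List.getD_cons_succ, List.getD_nil, List.map_cons, List.map_nil, List.sum_cons, List.sum_nil]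
  push_cast
  ring

theorem GA_slack (φ ψ : ℕ → ℝ) : genR GA 15 φ ψ = φ 1 * ψ 1 := by
  simp only [genR, GA, rowR, sum_range_succ, sum_range_zero, List.getD_cons_zero,
    List.getD_cons_succ, List.getD_nil, List.map_cons, List.map_nil, List.sum_cons, List.sum_nil]
  push_cast
  ring

/-- eta in terms of the features -/
noncomputable def etaF (φ : ℕ → ℝ) : ℝ := (4 / 3) * (φ 1 - φ 3 / 3 - φ 5 + φ 9 / 3)

noncomputable def baseB (φ ψ : ℕ → ℝ) : ℝ :=
  -(φ 0 * ψ 0) + φ 1 * ψ 0 / 3 + φ 0 * ψ 1 / 3 - etaF φ * (ψ 1 / 2 - ψ 11) -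
    etaF ψ * (φ 1 / 2 - φ 11)

theorem GB_base (φ ψ : ℕ → ℝ) : genR GB 6 φ ψ = 9 * baseB φ ψ := by
  simp only [genR, GB, rowR, baseB, etaF, sum_range_succ, sum_range_zero, List.getD_cons_zero,
    List.getD_cons_succ, List.getD_nil, List.map_cons, List.map_nil, List.sum_cons, List.sum_nil]
  push_cast
  ring

noncomputable def n33 (φ ψ : ℕ → ℝ) : ℝ :=
  φ 1 * ((ψ 3 - ψ 4) / 2) + ψ 1 * ((φ 3 - φ 4) / 2) - 18 * φ 2 * ψ 2

noncomputable def n43 (θ : ℝ) (φ ψ : ℕ → ℝ) : ℝ :=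
  θ * φ 6 * ψ 1 + θ⁻¹ * φ 1 * ((ψ 3 - ψ 4) / 2) + 6 * φ 3 * ψ 2

theorem GB_33 (φ ψ : ℕ → ℝ) : genR GB 7 φ ψ = 2 * n33 φ ψ := by
  simp only [genR, GB, rowR, n33, sum_range_succ, sum_range_zero, List.getD_cons_zero,
    List.getD_cons_succ, List.getD_nil, List.map_cons, List.map_nil, List.sum_cons, List.sum_nil]
  push_cast
  ring

theorem GB_43a (φ ψ : ℕ → ℝ) : genR GB 8 φ ψ = 30 * n43 (3 / 5) φ ψ := by
  simp only [genR, GB, rowR, n43, sum_range_succ, sum_range_zero, List.getD_cons_zero,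
    List.getD_cons_succ, List.getD_nil, List.map_cons, List.map_nil, List.sum_cons, List.sum_nil]
  push_cast
  ring

theorem GB_43b (φ ψ : ℕ → ℝ) : genR GB 9 φ ψ = 30 * n43 (3 / 5) ψ φ := by
  simp only [genR, GB, rowR, n43, sum_range_succ, sum_range_zero, List.getD_cons_zero,
    List.getD_cons_succ, List.getD_nil, List.map_cons, List.map_nil, List.sum_cons, List.sum_nil]
  push_cast
  ring

theorem GB_43c (φ ψ : ℕ → ℝ) : genR GB 10 φ ψ = 2 * n43 (1 / 2) φ ψ := by
  simp only [genR, GB, rowR, n43, sum_range_succ, sum_range_zero, List.getD_cons_zero,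
    List.getD_cons_succ, List.getD_nil, List.map_cons, List.map_nil, List.sum_cons, List.sum_nil]
  push_cast
  ring

theorem GB_0 (φ ψ : ℕ → ℝ) : genR GB 0 φ ψ = 72 * (bil (Rtab.getD 0 []) φ ψ +
    2 * bil (Rtab.getD 1 []) φ ψ + bil (Rtab.getD 2 []) φ ψ - bil (Qtab.getD 0 []) φ ψ / 3) := by
  simp only [genR, GB, rowR, bil, Rtab, Qtab, sum_range_succ, sum_range_zero, List.getD_cons_zero,
    List.getD_cons_succ, List.getD_nil, List.map_cons, List.map_nil, List.sum_cons, List.sum_nil]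
  push_cast
  ring

theorem GB_1 (φ ψ : ℕ → ℝ) : genR GB 1 φ ψ = 72 * (bil (Rtab.getD 1 []) φ ψ +
    2 * bil (Rtab.getD 2 []) φ ψ + bil (Rtab.getD 3 []) φ ψ - bil (Qtab.getD 1 []) φ ψ / 3) := by
  simp only [genR, GB, rowR, bil, Rtab, Qtab, sum_range_succ, sum_range_zero, List.getD_cons_zero,
    List.getD_cons_succ, List.getD_nil, List.map_cons, List.map_nil, List.sum_cons, List.sum_nil]
  push_cast
  ring

theorem GB_2 (φ ψ : ℕ → ℝ) : genR GB 2 φ ψ = 72 * (bil (Rtab.getD 2 []) φ ψ +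
    2 * bil (Rtab.getD 3 []) φ ψ + bil (Rtab.getD 4 []) φ ψ - bil (Qtab.getD 2 []) φ ψ / 3) := by
  simp only [genR, GB, rowR, bil, Rtab, Qtab, sum_range_succ, sum_range_zero, List.getD_cons_zero,
    List.getD_cons_succ, List.getD_nil, List.map_cons, List.map_nil, List.sum_cons, List.sum_nil]
  push_cast
  ring

theorem GB_3 (φ ψ : ℕ → ℝ) : genR GB 3 φ ψ = 72 * (bil (Rtab.getD 3 []) φ ψ +
    2 * bil (Rtab.getD 4 []) φ ψ + bil (Rtab.getD 5 []) φ ψ - bil (Qtab.getD 3 []) φ ψ / 3) := by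
  simp only [genR, GB, rowR, bil, Rtab, Qtab, sum_range_succ, sum_range_zero, List.getD_cons_zero,
    List.getD_cons_succ, List.getD_nil, List.map_cons, List.map_nil, List.sum_cons, List.sum_nil]
  push_cast
  ring

theorem GB_4 (φ ψ : ℕ → ℝ) : genR GB 4 φ ψ = 72 * (bil (Rtab.getD 4 []) φ ψ +
    2 * bil (Rtab.getD 5 []) φ ψ + bil (Rtab.getD 6 []) φ ψ - bil (Qtab.getD 4 []) φ ψ / 3) := by
  simp only [genR, GB, rowR, bil, Rtab, Qtab, sum_range_succ, sum_range_zero, List.getD_cons_zero,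
    List.getD_cons_succ, List.getD_nil, List.map_cons, List.map_nil, List.sum_cons, List.sum_nil]
  push_cast
  ring

theorem GB_5 (φ ψ : ℕ → ℝ) : genR GB 5 φ ψ = 72 * (bil (Rtab.getD 5 []) φ ψ +
    2 * bil (Rtab.getD 6 []) φ ψ + bil (Rtab.getD 7 []) φ ψ - bil (Qtab.getD 5 []) φ ψ / 3) := by
  simp only [genR, GB, rowR, bil, Rtab, Qtab, sum_range_succ, sum_range_zero, List.getD_cons_zero,
    List.getD_cons_succ, List.getD_nil, List.map_cons, List.map_nil, List.sum_cons, List.sum_nil]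
  push_cast
  ring

end Vale.Agent.Lib.P154.Q4.Net
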