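import Vale.Agent.Lib.P154.Ineq4.NetDef

/-!
Integer polynomials as lists, and a Bernstein positivity test evaluated by the kernel.
-/

namespace Vale.Agent.Lib.P154.Q4.Net

/-- value of an integer polynomial at a real number -/
noncomputable def evalL : List ℤ → ℝ → ℝ
  | [], _ => 0
  | a :: l, x => a + x * evalL l x

def addL : List ℤ → List ℤ → List ℤ
  | [], m => m
  | a :: l, [] => a :: l
  | a :: l, b :: m => Int.add a b :: addL l m

def mulLin (a b : ℤ) (l : List ℤ) : List ℤ := addL (scaleL a l) (0 :: scaleL b l)

def mulL : List ℤ → List ℤ → List ℤ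
  | [], _ => []
  | a :: l, m => addL (scaleL a m) (0 :: mulL l m)

def comp (a b : ℤ) : List ℤ → List ℤ
  | [] => []
  | c :: l => addL [c] (mulLin a b (comp a b l))

def bern (A B N : ℤ) : List ℤ → List ℤ × List ℤ
  | [] => ([], [1])
  | c :: l => match bern A B N l with
    | (q, w) => match mulLin N N w with
      | w' => (addL (scaleL c w') (mulLin A B q), w')

def allNN : List ℤ → Bool
  | [] => true
  | Int.ofNat _ :: l => allNN l
  | Int.negSucc _ :: _ => false

def chk : ℕ → ℤ → ℤ → ℤ → List ℤ → Bool
  | 0, A, B, N, p => allNN (bern A B N p).1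
  | d + 1, A, B, N, p => match allNN (bern A B N p).1 with
    | true => true
    | false => match chk d (Int.add A A) (Int.add A B) (Int.add N N) p with
      | true => chk d (Int.add A B) (Int.add B B) (Int.add N N) p
      | false => false

def allZ : List ℤ → Bool
  | [] => true
  | a :: l => match a with
    | Int.ofNat 0 => allZ l
    | _ => false

/-- remove factors `x ^ 2` -/
def strip : ℕ → List ℤ → List ℤ
  | 0, l => l
  | n + 1, a :: b :: l => match allZ [a, b] with
    | true => strip n l
    | false => a :: b :: l
  | _ + 1, l => l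

theorem evalL_addL (l m : List ℤ) (x : ℝ) : evalL (addL l m) x = evalL l x + evalL m x := by
  induction l generalizing m with
  | nil => simp [addL, evalL]
  | cons a l ih =>
    cases m with
    | nil => simp [addL, evalL]
    | cons b m =>
      have : addL (a :: l) (b :: m) = (a + b) :: addL l m := rfl
      rw [this]
      simp only [evalL, ih m]
      push_cast
      ring

theorem evalL_scaleL (c : ℤ) (l : List ℤ) (x : ℝ) : evalL (scaleL c l) x = c * evalL l x := by
  induction l with
  | nil => simp [scaleL, evalL]
  | cons a l ih =>
    have : scaleL c (a :: l) = (c * a) :: scaleL c l := rfl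
    rw [this]
    simp only [evalL, ih]
    push_cast
    ring

theorem evalL_cons0 (l : List ℤ) (x : ℝ) : evalL (0 :: l) x = x * evalL l x := by
  simp [evalL]

theorem evalL_mulLin (a b : ℤ) (l : List ℤ) (x : ℝ) :
    evalL (mulLin a b l) x = (a + b * x) * evalL l x := by
  unfold mulLin
  rw [evalL_addL, evalL_scaleL, evalL_cons0, evalL_scaleL]
  ring

theorem evalL_mulL (l m : List ℤ) (x : ℝ) : evalL (mulL l m) x = evalL l x * evalL m x := by
  induction l with
  | nil => simp [mulL, evalL]
  | cons a l ih =>
    have : mulL (a :: l) m = addL (scaleL a m) (0 :: mulL l m) := rfl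
    rw [this, evalL_addL, evalL_scaleL, evalL_cons0, ih]
    simp only [evalL]
    ring

theorem evalL_comp (a b : ℤ) (l : List ℤ) (x : ℝ) :
    evalL (comp a b l) x = evalL l (a + b * x) := by
  induction l with
  | nil => rfl
  | cons c l ih =>
    have : comp a b (c :: l) = addL [c] (mulLin a b (comp a b l)) := rfl
    rw [this, evalL_addL, evalL_mulLin, ih]
    simp [evalL]

/-! ### homogeneous evaluation -/

noncomputable def hev (α β : ℝ) : ℕ → List ℤ → ℝ
  | _, [] => 0
  | d, c :: l => c * α ^ d + β * hev α β (d - 1) l

theorem hev_addL (α β : ℝ) (d : ℕ) (l m : List ℤ) :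
    hev α β d (addL l m) = hev α β d l + hev α β d m := by
  induction l generalizing d m with
  | nil => simp [addL, hev]
  | cons a l ih =>
    cases m with
    | nil => simp [addL, hev]
    | cons b m =>
      have : addL (a :: l) (b :: m) = (a + b) :: addL l m := rfl
      rw [this]
      simp only [hev, ih (d - 1) m]
      push_cast
      ring

theorem hev_scaleL (α β : ℝ) (d : ℕ) (c : ℤ) (l : List ℤ) :
    hev α β d (scaleL c l) = c * hev α β d l := by
  induction l generalizing d with
  | nil => simp [scaleL, hev]
  | cons a l ih =>
    have : scaleL c (a :: l) = (c * a) :: scaleL c l := rfl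
    rw [this]
    simp only [hev, ih]
    push_cast
    ring

theorem hev_succ (α β : ℝ) (d : ℕ) (l : List ℤ) (h : l.length ≤ d + 1) :
    hev α β (d + 1) l = α * hev α β d l := by
  induction l generalizing d with
  | nil => simp [hev]
  | cons a l ih =>
    cases d with
    | zero =>
      have : l = [] := by simpa using h
      subst this
      simp only [hev]
      ring
    | succ d =>
      have h2 := ih d (by simpa using h)
      simp only [hev, Nat.add_sub_cancel]
      rw [h2]
      ring

theorem hev_cons0 (α β : ℝ) (d : ℕ) (l : List ℤ) :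
    hev α β (d + 1) (0 :: l) = β * hev α β d l := by
  simp [hev]

theorem length_addL (l m : List ℤ) : (addL l m).length = max l.length m.length := by
  induction l generalizing m with
  | nil => simp [addL]
  | cons a l ih =>
    cases m with
    | nil => simp [addL]
    | cons b m => simp [addL, ih]

theorem length_scaleL' (c : ℤ) (l : List ℤ) : (scaleL c l).length = l.length := by
  induction l with
  | nil => rfl
  | cons a l ih => simp [scaleL, ih]

theorem length_mulLin (a b : ℤ) (l : List ℤ) : (mulLin a b l).length = l.length + 1 := by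
  unfold mulLin
  simp [length_addL, length_scaleL']

theorem hev_mulLin (α β : ℝ) (d : ℕ) (A B : ℤ) (l : List ℤ) (h : l.length ≤ d + 1) :
    hev α β (d + 1) (mulLin A B l) = (A * α + B * β) * hev α β d l := by
  unfold mulLin
  rw [hev_addL, hev_scaleL, hev_cons0, hev_scaleL, hev_succ _ _ _ _ h]
  ring

theorem hev_nonneg (α β : ℝ) (hα : 0 ≤ α) (hβ : 0 ≤ β) (d : ℕ) (l : List ℤ)
    (h : allNN l = true) : 0 ≤ hev α β d l := by
  induction l generalizing d with
  | nil => simp [hev]
  | cons a l ih =>
    cases a with
    | ofNat a =>
      have h' : allNN l = true := h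
      simp only [hev]
      have := ih (d - 1) h'
      have h2 : (0 : ℝ) ≤ ((Int.ofNat a : ℤ) : ℝ) := by
        have : (0 : ℤ) ≤ Int.ofNat a := Int.natCast_nonneg a
        exact_mod_cast this
      positivity
    | negSucc a => simp [allNN] at h

theorem bern_spec (A B N : ℤ) (α β x : ℝ) (hx : N * (α + β) * x = A * α + B * β) (l : List ℤ) :
    (bern A B N l).1.length ≤ l.length + 1 ∧ (bern A B N l).2.length = l.length + 1 ∧
    hev α β l.length (bern A B N l).2 = (N * (α + β)) ^ l.length ∧
    hev α β l.length (bern A B N l).1 = (N * (α + β)) ^ l.length * evalL l x := by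
  induction l with
  | nil => simp [bern, hev, evalL]
  | cons c l ih =>
    obtain ⟨h1, h2, h3, h4⟩ := ih
    have e1 : (bern A B N (c :: l)).2 = mulLin N N (bern A B N l).2 := by
      conv_lhs => unfold bern
    have e2 : (bern A B N (c :: l)).1 =
        addL (scaleL c (mulLin N N (bern A B N l).2)) (mulLin A B (bern A B N l).1) := by
      conv_lhs => unfold bern
    have h5 : hev α β (l.length + 1) (mulLin N N (bern A B N l).2) =
        (N * (α + β)) ^ (l.length + 1) := by
      rw [hev_mulLin _ _ _ _ _ _ h2.le, h3, pow_succ]
      ring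
    rw [e1, e2]
    refine ⟨?_, ?_, ?_, ?_⟩
    · rw [length_addL, length_scaleL', length_mulLin, length_mulLin, h2]
      simp only [List.length_cons]
      omega
    · rw [length_mulLin, h2]; simp
    · rw [List.length_cons, h5]
    · rw [List.length_cons, hev_addL, hev_scaleL, h5, hev_mulLin _ _ _ _ _ _ h1, h4]
      simp only [evalL]
      rw [← hx]
      ring

theorem bern_nonneg (A B N : ℤ) (hAB : A < B) (hN : 0 < N) (l : List ℤ)
    (h : allNN (bern A B N l).1 = true) (x : ℝ) (h1 : A ≤ N * x) (h2 : N * x ≤ B) :
    0 ≤ evalL l x := by
  have hAB' : (A : ℝ) < B := by exact_mod_cast hAB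
  have hN' : (0 : ℝ) < N := by exact_mod_cast hN
  have hs := bern_spec A B N (B - N * x) (N * x - A) x (by ring) l
  have h3 := hev_nonneg (B - N * x) (N * x - A) (by linarith) (by linarith) l.length _ h
  rw [hs.2.2.2] at h3
  have h4 : 0 < (N * ((B - N * x) + (N * x - A))) ^ l.length := by
    apply pow_pos
    apply mul_pos hN'
    linarith
  exact nonneg_of_mul_nonneg_right h3 h4

theorem chk_sound (d : ℕ) (A B N : ℤ) (hAB : A < B) (hN : 0 < N) (l : List ℤ)
    (h : chk d A B N l = true) (x : ℝ) (h1 : A ≤ N * x) (h2 : N * x ≤ B) :
    0 ≤ evalL l x := by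
  induction d generalizing A B N with
  | zero => exact bern_nonneg A B N hAB hN l h x h1 h2
  | succ d ih =>
    unfold chk at h
    split at h
    · rename_i h3
      exact bern_nonneg A B N hAB hN l h3 x h1 h2
    · split at h
      · rename_i h4
        have e : ∀ a b : ℤ, Int.add a b = a + b := fun _ _ => rfl
        simp only [e] at h4 h
        by_cases hx : ((A + B : ℤ) : ℝ) ≤ ((N + N : ℤ) : ℝ) * x
        · refine ih (A + B) (B + B) (N + N) (by omega) (by omega) h hx ?_
          push_cast
          linarith
        · refine ih (A + A) (A + B) (N + N) (by omega) (by omega) h4 ?_ (le_of_lt (not_le.1 hx))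
          push_cast
          linarith
      · simp at h

theorem strip_nonneg (n : ℕ) (l : List ℤ) (x : ℝ) (h : 0 ≤ evalL (strip n l) x) :
    0 ≤ evalL l x := by
  induction n generalizing l with
  | zero => exact h
  | succ n ih =>
    match l with
    | [] => simpa [strip] using h
    | [a] => simpa [strip] using h
    | a :: b :: l =>
      unfold strip at h
      split at h
      · rename_i h2
        have h3 : a = 0 ∧ b = 0 := by
          unfold allZ at h2
          split at h2
          · unfold allZ at h2
            split at h2
            · exact ⟨rfl, rfl⟩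
            · simp at h2
          · simp at h2
        have h4 := ih l h
        rw [h3.1, h3.2, evalL_cons0, evalL_cons0, ← mul_assoc]
        exact mul_nonneg (mul_self_nonneg x) h4
      · exact h

end Vale.Agent.Lib.P154.Q4.Net
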