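import Vale.Agent.Lib.P154.Ineq4.Net2
import Vale.Agent.Lib.P154.Ineq4.Poly1

/-!
From control values to real numbers.
-/

namespace Vale.Agent.Lib.P154.Q4.Net

open scoped BigOperators
open Finset

/-! ### matrices -/

def delta (h : ℕ) : ℕ → ℤ := fun g => if g = h then 1 else 0

/-- matrix of the combination `ga` -/
def tm (G : List (List (List (ℕ × ℤ)))) (ga : List ℤ) (f h : ℕ) : ℤ :=
  gz ga (G.getD f []) (delta h)

theorem rowV_lin (l : List (ℕ × ℤ)) (hl : ∀ p ∈ l, p.1 < 12) (y : ℕ → ℤ) :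
    rowV l y = ∑ h ∈ range 12, y h * rowV l (delta h) := by
  induction l with
  | nil => simp [rowV]
  | cons p l ih =>
    have h1 := ih (fun q hq => hl q (by simp [hq]))
    have e : ∀ z : ℕ → ℤ, rowV (p :: l) z = p.2 * z p.1 + rowV l z := fun z => by simp [rowV]
    rw [e, h1]
    simp only [e, mul_add, sum_add_distrib]
    congr 1
    have hp : p.1 < 12 := hl p (by simp)
    rw [Finset.sum_eq_single_of_mem p.1 (mem_range.2 hp)]
    · simp [delta]; ring
    · intro b _ hb
      simp [delta, Ne.symm hb]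

theorem gz_lin {ga : List ℤ} {r : List (List (ℕ × ℤ))}
    (hr : ∀ k, ∀ p ∈ r.getD k [], p.1 < 12) (y : ℕ → ℤ) :
    gz ga r y = ∑ h ∈ range 12, y h * gz ga r (delta h) := by
  unfold gz
  simp only [mul_sum]
  rw [sum_comm]
  refine sum_congr rfl fun k _ => ?_
  rw [rowV_lin _ (hr k) y, mul_sum]
  refine sum_congr rfl fun h _ => ?_
  ring

/-- bilinear form with a real matrix -/
noncomputable def bilT (T : ℕ → ℕ → ℝ) (φ ψ : ℕ → ℝ) : ℝ :=
  ∑ f ∈ range 12, ∑ h ∈ range 12, T f h * φ f * ψ h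

theorem bilI_cast {G : List (List (List (ℕ × ℤ)))} (hG : idxP G) (ga : List ℤ) (x y : ℕ → ℤ) :
    ((bilI G ga x y : ℤ) : ℝ) =
      bilT (fun f h => (tm G ga f h : ℝ)) (fun f => (x f : ℝ)) (fun h => (y h : ℝ)) := by
  unfold bilI bilT tm
  push_cast
  refine sum_congr rfl fun f _ => ?_
  rw [gz_lin (hG.row f) y]
  push_cast
  rw [mul_sum]
  refine sum_congr rfl fun h _ => ?_
  ring

theorem bilT_hull (T : ℕ → ℕ → ℝ) (n n' : ℕ) (x : ℕ → ℕ → ℝ) (y : ℕ → ℕ → ℝ) (w w' : ℕ → ℝ)
    (hw : ∀ i, 0 ≤ w i) (hw' : ∀ i, 0 ≤ w' i) (s s' ρ ρ' : ℝ) (hs : 0 < s) (hs' : 0 < s')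
    (hρ : 0 ≤ ρ) (hρ' : 0 ≤ ρ') (φ ψ : ℕ → ℝ)
    (hφ : ∀ f, f < 12 → φ f * s = ρ * ∑ i ∈ range n, w i * x f i)
    (hψ : ∀ f, f < 12 → ψ f * s' = ρ' * ∑ i ∈ range n', w' i * y f i)
    (hpos : ∀ i, i < n → ∀ j, j < n' → 0 ≤ bilT T (fun f => x f i) (fun f => y f j)) :
    0 ≤ bilT T φ ψ := by
  have key : bilT T φ ψ * (s * s') = ρ * ρ' * ∑ i ∈ range n, ∑ j ∈ range n',
      (w i * w' j) * bilT T (fun f => x f i) (fun f => y f j) := by
    unfold bilT
    simp only [mul_sum, sum_mul]
    have e1 : ∀ f ∈ range 12, ∀ h ∈ range 12, T f h * φ f * ψ h * (s * s') =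
        ∑ i ∈ range n, ∑ j ∈ range n', ρ * ρ' * (w i * w' j * (T f h * x f i * y h j)) := by
      intro f hf h hh
      have h1 := hφ f (mem_range.1 hf)
      have h2 := hψ h (mem_range.1 hh)
      calc T f h * φ f * ψ h * (s * s') = T f h * ((φ f * s) * (ψ h * s')) := by ring
        _ = T f h * ((ρ * ∑ i ∈ range n, w i * x f i) * (ρ' * ∑ j ∈ range n', w' j * y h j)) := by
          rw [h1, h2]
        _ = (T f h * (ρ * ρ')) * ((∑ i ∈ range n, w i * x f i) *
              (∑ j ∈ range n', w' j * y h j)) := by ring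
        _ = _ := by
          rw [sum_mul_sum, mul_sum]
          refine sum_congr rfl fun i _ => ?_
          rw [mul_sum]
          refine sum_congr rfl fun j _ => ?_
          ring
    rw [sum_congr rfl fun f hf => sum_congr rfl fun h hh => e1 f hf h hh]
    rw [sum_congr rfl fun f _ => sum_comm, sum_comm]
    refine sum_congr rfl fun i _ => ?_
    rw [sum_congr rfl fun f _ => sum_comm, sum_comm]
  have hnn : 0 ≤ bilT T φ ψ * (s * s') := by
    rw [key]
    refine mul_nonneg (mul_nonneg hρ hρ') (sum_nonneg fun i hi => sum_nonneg fun j hj => ?_)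
    exact mul_nonneg (mul_nonneg (hw i) (hw' j)) (hpos i (mem_range.1 hi) j (mem_range.1 hj))
  exact nonneg_of_mul_nonneg_left hnn (by positivity)

/-! ### cells -/

/-- control point representation of the features of a point of a cell -/
structure Rep (n : ℕ) (DS : ℤ) (s : ℝ) (c : Cell) (z : Bool) (φ : ℕ → ℝ) where
  w : ℕ → ℝ
  ρ : ℝ
  φ' : ℕ → ℝ
  hw : ∀ i, 0 ≤ w i
  hρ : 0 ≤ ρ
  hφ : ∀ f, f < 12 → φ' f * s = ρ * ∑ i ∈ range n, w i * (entI DS c f i : ℝ)
  h1 : ∀ f, 1 ≤ f → φ' f = φ f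
  h0 : z = false → φ' 0 = φ 0

theorem bilT_nonneg {n n' : ℕ} {DS : ℤ} {s : ℝ} {X Y : Cell} {z z' : Bool} {φ ψ : ℕ → ℝ}
    (hs : 0 < s)
    (hX : Rep n DS s X z φ) (hY : Rep n' DS s Y z' ψ) {G : List (List (List (ℕ × ℤ)))}
    (hG : idxP G) (ga : List ℤ)
    (hz : z = true → ∀ h, h < 12 → tm G ga 0 h = 0)
    (hz' : z' = true → ∀ f, f < 12 → tm G ga f 0 = 0)
    (hpos : ∀ i, i < n → ∀ j, j < n' →
      0 ≤ bilI G ga (fun f => entI DS X f i) (fun f => entI DS Y f j)) :
    0 ≤ bilT (fun f h => (tm G ga f h : ℝ)) φ ψ := by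
  have h1 : 0 ≤ bilT (fun f h => (tm G ga f h : ℝ)) hX.φ' hY.φ' := by
    refine bilT_hull _ n n' (fun f i => (entI DS X f i : ℝ)) (fun f i => (entI DS Y f i : ℝ))
      hX.w hY.w hX.hw hY.hw s s hX.ρ hY.ρ hs hs hX.hρ hY.hρ _ _ hX.hφ hY.hφ ?_
    intro i hi j hj
    have := hpos i hi j hj
    have h2 : (0 : ℝ) ≤ ((bilI G ga (fun f => entI DS X f i) (fun f => entI DS Y f j) : ℤ) : ℝ) := by
      exact_mod_cast this
    rwa [bilI_cast hG] at h2
  have h2 : bilT (fun f h => (tm G ga f h : ℝ)) hX.φ' hY.φ' =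
      bilT (fun f h => (tm G ga f h : ℝ)) φ ψ := by
    unfold bilT
    refine sum_congr rfl fun f hf => sum_congr rfl fun h hh => ?_
    have hf' := mem_range.1 hf
    have hh' := mem_range.1 hh
    have e1 : (tm G ga f h : ℝ) * hX.φ' f = (tm G ga f h : ℝ) * φ f := by
      rcases Nat.eq_zero_or_pos f with rfl | hf0
      · by_cases hzv : z = true
        · rw [hz hzv h hh']; simp
        · rw [hX.h0 (by simpa using hzv)]
      · rw [hX.h1 f hf0]
    have e2 : (tm G ga f h : ℝ) * hY.φ' h = (tm G ga f h : ℝ) * ψ h := by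
      rcases Nat.eq_zero_or_pos h with rfl | hh0
      · by_cases hzv : z' = true
        · rw [hz' hzv f hf']; simp
        · rw [hY.h0 (by simpa using hzv)]
      · rw [hY.h1 h hh0]
    calc (tm G ga f h : ℝ) * hX.φ' f * hY.φ' h = φ f * ((tm G ga f h : ℝ) * hY.φ' h) := by
          rw [e1]; ring
      _ = (tm G ga f h : ℝ) * φ f * ψ h := by rw [e2]; ring
  rw [← h2]; exact h1

theorem sum_split (p : ℕ) (f : ℕ → ℝ) :
    ∑ i ∈ range (15 * p), f i = ∑ k ∈ range p, ∑ j ∈ range 15, f (15 * k + j) :=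
  sum_mul_range f 15 p

theorem hull_ent0 (p : ℕ) (c : Cell) (a b r : ℝ) (u v X : ℕ → ℝ)
    (hR : ∀ m, m < c.R.length → a * r ^ m = ∑ k ∈ range p, u k * (nth (nthL c.R m) k : ℝ))
    (hS : ∀ f, f < 11 → b * X f = ∑ j ∈ range 15, v j * (nth (nthL c.S f) j : ℝ)) (f : ℕ)
    (hf : f < 11) (hm : nthN c.mf f < c.R.length) :
    ∑ i ∈ range (15 * p), u (i / 15) * v (i % 15) * (ent0 c f i : ℝ) =
      a * b * (r ^ (nthN c.mf f) * X f) := by
  rw [sum_split]
  have e : ∀ k, ∀ j ∈ range 15, u ((15 * k + j) / 15) * v ((15 * k + j) % 15) *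
      (ent0 c f (15 * k + j) : ℝ) =
      (u k * (nth (nthL c.R (nthN c.mf f)) k : ℝ)) * (v j * (nth (nthL c.S f) j : ℝ)) := by
    intro k j hj
    have hj' := mem_range.1 hj
    have e1 : (15 * k + j) / 15 = k := by omega
    have e2 : (15 * k + j) % 15 = j := by omega
    unfold ent0
    rw [e1, e2]
    push_cast
    ring
  rw [sum_congr rfl fun k _ => sum_congr rfl fun j hj => e k j hj]
  rw [← sum_mul_sum, ← hR _ hm, ← hS f hf]
  ring

theorem hull_e (p : ℕ) (c : Cell) (a b r : ℝ) (u v X : ℕ → ℝ)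
    (hR : ∀ m, m < c.R.length → a * r ^ m = ∑ k ∈ range p, u k * (nth (nthL c.R m) k : ℝ))
    (hS : ∀ f, f < 11 → b * X f = ∑ j ∈ range 15, v j * (nth (nthL c.S f) j : ℝ)) :
    ∑ i ∈ range (15 * p), u (i / 15) * v (i % 15) *
      (((∑ m ∈ range c.R.length, nth c.e m * nth (nthL c.R m) (i / 15)) *
        nth (nthL c.S 0) (i % 15) : ℤ) : ℝ) =
      a * b * ((∑ m ∈ range c.R.length, (nth c.e m : ℝ) * r ^ m) * X 0) := by
  rw [sum_split]
  have e : ∀ k, ∀ j ∈ range 15, u ((15 * k + j) / 15) * v ((15 * k + j) % 15) *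
      (((∑ m ∈ range c.R.length, nth c.e m * nth (nthL c.R m) ((15 * k + j) / 15)) *
        nth (nthL c.S 0) ((15 * k + j) % 15) : ℤ) : ℝ) =
      (∑ m ∈ range c.R.length, (nth c.e m : ℝ) * (u k * (nth (nthL c.R m) k : ℝ))) *
        (v j * (nth (nthL c.S 0) j : ℝ)) := by
    intro k j hj
    have hj' := mem_range.1 hj
    have e1 : (15 * k + j) / 15 = k := by omega
    have e2 : (15 * k + j) % 15 = j := by omega
    rw [e1, e2]
    push_cast
    have e3 : ∑ m ∈ range c.R.length, (nth c.e m : ℝ) * (u k * (nth (nthL c.R m) k : ℝ)) =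
        u k * ∑ m ∈ range c.R.length, (nth c.e m : ℝ) * (nth (nthL c.R m) k : ℝ) := by
      rw [mul_sum]
      refine sum_congr rfl fun m _ => ?_
      ring
    rw [e3]
    ring
  rw [sum_congr rfl fun k _ => sum_congr rfl fun j hj => e k j hj]
  rw [← sum_mul_sum, ← hS 0 (by norm_num)]
  rw [sum_comm]
  have e4 : ∀ m ∈ range c.R.length, ∑ k ∈ range p, (nth c.e m : ℝ) *
      (u k * (nth (nthL c.R m) k : ℝ)) = (nth c.e m : ℝ) * (a * r ^ m) := by
    intro m hm
    rw [hR m (mem_range.1 hm), mul_sum]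
  rw [sum_congr rfl e4]
  have e5 : ∑ m ∈ range c.R.length, (nth c.e m : ℝ) * (a * r ^ m) =
      a * ∑ m ∈ range c.R.length, (nth c.e m : ℝ) * r ^ m := by
    rw [mul_sum]
    refine sum_congr rfl fun m _ => ?_
    ring
  rw [e5]
  ring

theorem hull_entI (p : ℕ) (DS : ℤ) (c : Cell) (a b r : ℝ) (u v X : ℕ → ℝ)
    (hR : ∀ m, m < c.R.length → a * r ^ m = ∑ k ∈ range p, u k * (nth (nthL c.R m) k : ℝ))
    (hS : ∀ f, f < 11 → b * X f = ∑ j ∈ range 15, v j * (nth (nthL c.S f) j : ℝ))
    (hm : ∀ f, f < 11 → nthN c.mf f < c.R.length) (f : ℕ) :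
    ∑ i ∈ range (15 * p), u (i / 15) * v (i % 15) * (entI DS c f i : ℝ) =
      a * b * (if f < 11 then DS * (r ^ (nthN c.mf f) * X f)
        else (∑ g ∈ range 11, (nth c.d g : ℝ) * (r ^ (nthN c.mf g) * X g)) +
          (∑ m ∈ range c.R.length, (nth c.e m : ℝ) * r ^ m) * X 0) := by
  by_cases hf : f < 11
  · simp only [hf, if_true]
    unfold entI
    simp only [hf, if_true]
    push_cast
    have := hull_ent0 p c a b r u v X hR hS f hf (hm f hf)
    calc ∑ i ∈ range (15 * p), u (i / 15) * v (i % 15) * ((DS : ℝ) * (ent0 c f i : ℝ)) =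
        DS * ∑ i ∈ range (15 * p), u (i / 15) * v (i % 15) * (ent0 c f i : ℝ) := by
          rw [mul_sum]
          refine sum_congr rfl fun i _ => ?_
          ring
      _ = _ := by rw [this]; ring
  · simp only [hf, if_false]
    unfold entI
    simp only [hf, if_false]
    have h1 := hull_e p c a b r u v X hR hS
    have h2 : ∑ i ∈ range (15 * p), u (i / 15) * v (i % 15) *
        ((∑ g ∈ range 11, nth c.d g * ent0 c g i : ℤ) : ℝ) =
        a * b * ∑ g ∈ range 11, (nth c.d g : ℝ) * (r ^ (nthN c.mf g) * X g) := by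
      push_cast
      simp only [mul_sum]
      rw [sum_comm]
      refine sum_congr rfl fun g hg => ?_
      have hg' := mem_range.1 hg
      have := hull_ent0 p c a b r u v X hR hS g hg' (hm g hg')
      calc ∑ i ∈ range (15 * p), u (i / 15) * v (i % 15) * ((nth c.d g : ℝ) * (ent0 c g i : ℝ)) =
          nth c.d g * ∑ i ∈ range (15 * p), u (i / 15) * v (i % 15) * (ent0 c g i : ℝ) := by
            rw [mul_sum]
            refine sum_congr rfl fun i _ => ?_
            ring
        _ = _ := by rw [this]; ring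
    have h3 : ∀ i ∈ range (15 * p), u (i / 15) * v (i % 15) *
        (((∑ g ∈ range 11, nth c.d g * ent0 c g i) +
          (∑ m ∈ range c.R.length, nth c.e m * nth (nthL c.R m) (i / 15)) *
            nth (nthL c.S 0) (i % 15) : ℤ) : ℝ) =
        u (i / 15) * v (i % 15) * ((∑ g ∈ range 11, nth c.d g * ent0 c g i : ℤ) : ℝ) +
        u (i / 15) * v (i % 15) *
          (((∑ m ∈ range c.R.length, nth c.e m * nth (nthL c.R m) (i / 15)) *
            nth (nthL c.S 0) (i % 15) : ℤ) : ℝ) := by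
      intro i _
      rw [Int.cast_add]
      ring
    rw [sum_congr rfl h3, sum_add_distrib, h1, h2]
    ring

/-! ### Bernstein nets in one variable -/

def powLin (A B : ℤ) : ℕ → List ℤ → List ℤ
  | 0, l => l
  | n + 1, l => mulLin A B (powLin A B n l)

theorem length_powLin (A B : ℤ) (n : ℕ) (l : List ℤ) :
    (powLin A B n l).length = l.length + n := by
  induction n with
  | zero => rfl
  | succ n ih => simp [powLin, length_mulLin, ih]; omega

theorem hev_powLin (α β : ℝ) (A B : ℤ) (n d : ℕ) (l : List ℤ) (h : l.length ≤ d + 1) :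
    hev α β (d + n) (powLin A B n l) = (A * α + B * β) ^ n * hev α β d l := by
  induction n with
  | zero => simp [powLin]
  | succ n ih =>
    have : powLin A B (n + 1) l = mulLin A B (powLin A B n l) := rfl
    rw [this, show d + (n + 1) = (d + n) + 1 by ring,
      hev_mulLin _ _ _ _ _ _ (by rw [length_powLin]; omega), ih, pow_succ]
    ring

def choI (n : ℕ) : List ℤ := powLin 1 1 n [1]

/-- pointwise product -/
def mulP : List ℤ → List ℤ → List ℤ
  | a :: l, b :: m => Int.mul a b :: mulP l m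
  | _, _ => []

theorem hev_eq (α β : ℝ) (d : ℕ) (l : List ℤ) (h : l.length ≤ d + 1) :
    hev α β d l = ∑ k ∈ range (d + 1), (nth l k : ℝ) * (α ^ (d - k) * β ^ k) := by
  induction l generalizing d with
  | nil => simp [hev]
  | cons a l ih =>
    rw [sum_range_succ']
    simp only [hev, nth_cons_succ, nth_cons_zero, Nat.sub_zero, pow_zero, mul_one]
    cases d with
    | zero =>
      have : l = [] := by simpa using h
      subst this
      simp [hev]
    | succ d =>
      rw [Nat.add_sub_cancel, ih d (by simpa using h), mul_sum, add_comm]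
      congr 1
      refine sum_congr rfl fun k _ => ?_
      rw [show d + 1 - (k + 1) = d - k by omega]
      ring

theorem nth_mulP (l m : List ℤ) (k : ℕ) : nth (mulP l m) k = nth l k * nth m k := by
  induction l generalizing m k with
  | nil => simp [mulP]
  | cons a l ih =>
    cases m with
    | nil => simp [mulP]
    | cons b m =>
      cases k with
      | zero => rfl
      | succ k => simpa [mulP] using ih m k

theorem length_mulP_le (l m : List ℤ) : (mulP l m).length ≤ l.length := by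
  induction l generalizing m with
  | nil => simp [mulP]
  | cons a l ih =>
    cases m with
    | nil => simp [mulP]
    | cons b m => simpa [mulP] using ih m

theorem nth_choI_nonneg (n k : ℕ) : 0 ≤ nth (choI n) k := by
  have key : ∀ (l : List ℤ), (∀ k, 0 ≤ nth l k) → ∀ k, 0 ≤ nth (mulLin 1 1 l) k := by
    intro l hl k
    unfold mulLin
    have h1 : ∀ (l m : List ℤ), (∀ k, 0 ≤ nth l k) → (∀ k, 0 ≤ nth m k) →
        ∀ k, 0 ≤ nth (addL l m) k := by
      intro l
      induction l with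
      | nil => intro m _ hm k; simpa [addL] using hm k
      | cons a l ih =>
        intro m hl hm k
        cases m with
        | nil => simpa [addL] using hl k
        | cons b m =>
          have : addL (a :: l) (b :: m) = (a + b) :: addL l m := rfl
          rw [this]
          cases k with
          | zero => exact add_nonneg (hl 0) (hm 0)
          | succ k => exact ih m (fun k => hl (k + 1)) (fun k => hm (k + 1)) k
    refine h1 _ _ (fun k => ?_) (fun k => ?_) k
    · rw [nth_scaleL]; simpa using hl k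
    · cases k with
      | zero => simp
      | succ k => rw [nth_cons_succ, nth_scaleL]; simpa using hl k
  unfold choI
  induction n generalizing k with
  | zero =>
    cases k with
    | zero => simp [powLin]
    | succ k => simp [powLin]
  | succ n ih => exact key _ (fun k => ih k) k

/-- test of one Bernstein net of degree `n = p - 1`: `C * a * r ^ m` on `[A / N, B / N]` -/
def rnetOK1 (n : ℕ) (a A B N : ℤ) (m : ℕ) (l : List ℤ) : Bool :=
  decide (scaleL (ipowN N m) (mulP (choI n) l) = scaleL a (powLin 1 1 (n - m) (powLin A B m [1])))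
    && Nat.ble m n && Nat.ble l.length (n + 1)
where ipowN (N : ℤ) : ℕ → ℤ
  | 0 => 1
  | k + 1 => Int.mul N (ipowN N k)

theorem ipowN_eq (N : ℤ) (k : ℕ) : rnetOK1.ipowN N k = N ^ k := by
  induction k with
  | zero => simp [rnetOK1.ipowN]
  | succ k ih =>
    have : rnetOK1.ipowN N (k + 1) = N * rnetOK1.ipowN N k := rfl
    rw [this, ih, pow_succ, mul_comm]

def rnetOK (n : ℕ) (a A B N : ℤ) : ℕ → List (List ℤ) → Bool
  | _, [] => true
  | m, l :: L => rnetOK1 n a A B N m l && rnetOK n a A B N (m + 1) L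

/-- Bernstein weights -/
noncomputable def bw (n : ℕ) (x : ℝ) (k : ℕ) : ℝ :=
  (nth (choI n) k : ℝ) * ((1 - x) ^ (n - k) * x ^ k)

theorem bw_nonneg (n : ℕ) (x : ℝ) (h0 : 0 ≤ x) (h1 : x ≤ 1) (k : ℕ) : 0 ≤ bw n x k := by
  unfold bw
  have h2 : (0 : ℝ) ≤ (nth (choI n) k : ℝ) := by exact_mod_cast nth_choI_nonneg n k
  have h3 : 0 ≤ 1 - x := by linarith
  positivity

theorem rnetOK1_sound (n : ℕ) (a A B N : ℤ) (hN : 0 < N) (m : ℕ) (l : List ℤ)
    (h : rnetOK1 n a A B N m l = true) (x r : ℝ) (hr : N * r = A * (1 - x) + B * x) :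
    a * r ^ m = ∑ k ∈ range (n + 1), bw n x k * (nth l k : ℝ) := by
  unfold rnetOK1 at h
  simp only [Bool.and_eq_true] at h
  obtain ⟨⟨h1, h2⟩, h3⟩ := h
  have h1' := of_decide_eq_true h1
  have h2' : m ≤ n := Nat.le_of_ble_eq_true h2
  have hN' : (N : ℝ) ≠ 0 := by exact_mod_cast hN.ne'
  have e1 := congrArg (hev (1 - x) x n) h1'
  rw [hev_scaleL, hev_scaleL, ipowN_eq] at e1
  have e2 : hev (1 - x) x n (powLin 1 1 (n - m) (powLin A B m [1])) = (N * r) ^ m := by
    have e3 : hev (1 - x) x (0 + m) (powLin A B m [1]) = (A * (1 - x) + B * x) ^ m * 1 := by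
      rw [hev_powLin _ _ _ _ _ _ _ (by simp)]
      simp [hev]
    have e4 : hev (1 - x) x ((0 + m) + (n - m)) (powLin 1 1 (n - m) (powLin A B m [1])) = _ :=
      hev_powLin _ _ 1 1 (n - m) (0 + m) _ (by rw [length_powLin]; simp; omega)
    rw [e3, show (0 + m) + (n - m) = n by omega] at e4
    rw [e4, hr]
    push_cast
    ring
  have hlen : (mulP (choI n) l).length ≤ n + 1 := by
    refine (length_mulP_le _ _).trans ?_
    unfold choI
    rw [length_powLin]; simp; omega
  rw [e2, hev_eq _ _ _ _ hlen, mul_pow] at e1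
  push_cast at e1
  have e5 : (N : ℝ) ^ m ≠ 0 := pow_ne_zero _ hN'
  have e6 : (∑ k ∈ range (n + 1), (nth (mulP (choI n) l) k : ℝ) * ((1 - x) ^ (n - k) * x ^ k)) =
      a * r ^ m := by
    have : (N : ℝ) ^ m * (∑ k ∈ range (n + 1), (nth (mulP (choI n) l) k : ℝ) *
      ((1 - x) ^ (n - k) * x ^ k)) = N ^ m * (a * r ^ m) := by rw [e1]; ring
    exact mul_left_cancel₀ e5 this
  rw [← e6]
  refine sum_congr rfl fun k _ => ?_
  rw [nth_mulP]
  unfold bw
  push_cast
  ring

theorem rnetOK_sound (n : ℕ) (a A B N : ℤ) (hN : 0 < N) (m : ℕ) (R : List (List ℤ))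
    (h : rnetOK n a A B N m R = true) (x r : ℝ) (hr : N * r = A * (1 - x) + B * x) (k : ℕ)
    (hk : k < R.length) :
    a * r ^ (m + k) = ∑ i ∈ range (n + 1), bw n x i * (nth (nthL R k) i : ℝ) := by
  induction R generalizing m k with
  | nil => simp at hk
  | cons l R ih =>
    have h' : rnetOK1 n a A B N m l = true ∧ rnetOK n a A B N (m + 1) R = true := by
      simpa [rnetOK] using h
    cases k with
    | zero => exact rnetOK1_sound n a A B N hN m l h'.1 x r hr
    | succ k =>
      have := ih (m + 1) h'.2 k (by simpa using hk)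
      rw [nthL_cons_succ, show m + (k + 1) = m + 1 + k by ring]
      exact this

end Vale.Agent.Lib.P154.Q4.Net
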