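import Vale.Agent.Lib.P154.Ineq4.Check

/-! library (B) -/

namespace Vale.Agent.Lib.P154.Q4.Net

set_option maxRecDepth 100000

/-- kind 9 s=(Fraction(1, 1), Fraction(3, 2), Fraction(1, 1), Fraction(3, 2)) -/
def mB0 : MC := ⟨⟨45, [45, -45, 45, -45, 40, -20],
  [], 1, -1, 3⟩, 3, [0, 0, 1, -2], 0, 1, 0, []⟩
/-- kind 9 s=(Fraction(1, 1), Fraction(1, 1), Fraction(1, 1), Fraction(1, 1)) -/
def mB1 : MC := ⟨⟨45, [45, -45, 45, -45, 45, -45],
  [], 1, -1, 3⟩, 1, [0, 0, 0, -1], 0, 1, 0, []⟩
/-- kind 0 -/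
def mB2 : MC := ⟨⟨24159191040, [23105018250, -14890482585, 2106574470, -31898143170, 96391356075, -70011421785],
  [], 1048576, -1048576, 1362141⟩, 0, [], 11, 1, 0, []⟩

def memB : List MC := [mB0, mB1, mB2]

def nthMCB : List MC → ℕ → MC
  | [], _ => mB0
  | a :: _, 0 => a
  | _ :: l, n + 1 => nthMCB l n

theorem memB_G : memB.all memGOK = true := by decide +kernel

theorem nthMCB_mem (l : List MC) (h : mB0 ∈ l) (n : ℕ) : nthMCB l n ∈ l ∨ nthMCB l n = mB0 := by
  clear h
  induction l generalizing n with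
  | nil => right; rfl
  | cons a l ih =>
    cases n with
    | zero => left; exact List.mem_cons_self
    | succ n =>
      rcases ih n with h | h
      · left; exact List.mem_cons_of_mem _ h
      · right; exact h

theorem memB_memG (n : ℕ) : MemG (nthMCB memB n).m := by
  apply memG_of
  have h0 : mB0 ∈ memB := by unfold memB; exact List.mem_cons_self
  rcases nthMCB_mem memB h0 n with h | h
  · exact List.all_eq_true.1 memB_G _ h
  · rw [h]; exact List.all_eq_true.1 memB_G _ h0

end Vale.Agent.Lib.P154.Q4.Net
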