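import Vale.Agent.Lib.P154.Ineq4.NetDef

/-!
Soundness of the packed verification.
-/

namespace Vale.Agent.Lib.P154.Q4.Net

open scoped BigOperators
open Finset

/-! ### lists -/

@[simp] theorem nth_nil (k : ℕ) : nth [] k = 0 := by cases k <;> rfl
@[simp] theorem nth_cons_zero (a : ℤ) (l : List ℤ) : nth (a :: l) 0 = a := rfl
@[simp] theorem nth_cons_succ (a : ℤ) (l : List ℤ) (k : ℕ) : nth (a :: l) (k + 1) = nth l k := rfl
@[simp] theorem nthL_nil (k : ℕ) : nthL [] k = [] := by cases k <;> rfl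
@[simp] theorem nthL_cons_zero (a : List ℤ) (l : List (List ℤ)) : nthL (a :: l) 0 = a := rfl
@[simp] theorem nthL_cons_succ (a : List ℤ) (l : List (List ℤ)) (k : ℕ) :
    nthL (a :: l) (k + 1) = nthL l k := rfl

theorem hor_cons (B a : ℤ) (l : List ℤ) : hor B (a :: l) = a + B * hor B l := rfl
theorem dotI_cons (a b : ℤ) (l m : List ℤ) : dotI (a :: l) (b :: m) = a * b + dotI l m := rfl

theorem hor_eq (B : ℤ) (l : List ℤ) (n : ℕ) (h : l.length ≤ n) :
    hor B l = ∑ k ∈ range n, nth l k * B ^ k := by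
  induction l generalizing n with
  | nil => simp [hor]
  | cons a l ih =>
    obtain ⟨n, rfl⟩ : ∃ m, n = m + 1 := ⟨n - 1, by simp at h; omega⟩
    rw [hor_cons, sum_range_succ', ih n (by simpa using h)]
    simp only [nth_cons_succ, nth_cons_zero, pow_zero, mul_one, mul_sum]
    rw [add_comm]
    congr 1
    refine sum_congr rfl fun k _ => ?_
    ring

theorem dotI_eq (l m : List ℤ) (n : ℕ) (h : l.length ≤ n) :
    dotI l m = ∑ k ∈ range n, nth l k * nth m k := by
  induction l generalizing m n with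
  | nil => simp [dotI]
  | cons a l ih =>
    obtain ⟨n, rfl⟩ : ∃ m, n = m + 1 := ⟨n - 1, by simp at h; omega⟩
    cases m with
    | nil => simp [dotI]
    | cons b m =>
      rw [dotI_cons, sum_range_succ', ih m n (by simpa using h)]
      simp [add_comm]

theorem nth_horAll (B : ℤ) (R : List (List ℤ)) (m : ℕ) :
    nth (horAll B R) m = hor B (nthL R m) := by
  induction R generalizing m with
  | nil => simp [horAll, hor]
  | cons r R ih =>
    cases m with
    | zero => rfl
    | succ m => simpa [horAll] using ih m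

theorem length_horAll (B : ℤ) (R : List (List ℤ)) : (horAll B R).length = R.length := by
  induction R with
  | nil => rfl
  | cons r R ih => simp [horAll, ih]

theorem nth_ft (B : ℤ) (P : List ℤ) (mf : List ℕ) (S : List (List ℤ)) (f : ℕ)
    (h : S.length ≤ mf.length) :
    nth (ft B P mf S) f = nth P (nthN mf f) * hor B (nthL S f) := by
  induction mf generalizing S f with
  | nil =>
    have : S = [] := by simpa using h
    subst this
    simp [ft, hor]
  | cons m mf ih =>
    cases S with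
    | nil => simp [ft, hor]
    | cons s S =>
      cases f with
      | zero => rfl
      | succ f => simpa [ft, nthN] using ih S f (by simpa using h)

theorem length_ft (B : ℤ) (P : List ℤ) (mf : List ℕ) (S : List (List ℤ))
    (h : S.length = mf.length) : (ft B P mf S).length = S.length := by
  induction mf generalizing S with
  | nil =>
    have : S = [] := by simpa using h
    subst this
    rfl
  | cons m mf ih =>
    cases S with
    | nil => rfl
    | cons s S => simpa [ft] using ih S (by simpa using h)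

theorem nth_scaleL (c : ℤ) (l : List ℤ) (f : ℕ) : nth (scaleL c l) f = c * nth l f := by
  induction l generalizing f with
  | nil => simp [scaleL]
  | cons a l ih =>
    cases f with
    | zero => rfl
    | succ f => simpa [scaleL] using ih f

theorem length_scaleL (c : ℤ) (l : List ℤ) : (scaleL c l).length = l.length := by
  induction l with
  | nil => rfl
  | cons a l ih => simp [scaleL, ih]

theorem nth_snoc_lt (l : List ℤ) (x : ℤ) (f : ℕ) (h : f < l.length) :
    nth (snoc l x) f = nth l f := by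
  induction l generalizing f with
  | nil => simp at h
  | cons a l ih =>
    cases f with
    | zero => rfl
    | succ f => simpa [snoc] using ih f (by simpa using h)

theorem nth_snoc_eq (l : List ℤ) (x : ℤ) : nth (snoc l x) l.length = x := by
  induction l with
  | nil => rfl
  | cons a l ih => simpa [snoc] using ih

theorem length_snoc (l : List ℤ) (x : ℤ) : (snoc l x).length = l.length + 1 := by
  induction l with
  | nil => rfl
  | cons a l ih => simp [snoc, ih]

/-! ### packed numbers -/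

def Pk (B : ℤ) (n : ℕ) (x : ℤ) (a : ℕ → ℤ) : Prop := x = ∑ k ∈ range n, a k * B ^ k

theorem sum_mul_range {M : Type*} [AddCommMonoid M] (f : ℕ → M) (q p : ℕ) :
    ∑ k ∈ range (q * p), f k = ∑ i ∈ range p, ∑ j ∈ range q, f (q * i + j) := by
  induction p with
  | zero => simp
  | succ p ih => rw [Nat.mul_succ, Finset.sum_range_add, ih, sum_range_succ]

theorem Pk.mul {B : ℤ} {q p : ℕ} {x y : ℤ} {a b : ℕ → ℤ}
    (hx : Pk (B ^ q) p x a) (hy : Pk B q y b) :
    Pk B (q * p) (x * y) (fun k => a (k / q) * b (k % q)) := by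
  unfold Pk at *
  rw [sum_mul_range, hx, hy, sum_mul_sum]
  refine sum_congr rfl fun i _ => sum_congr rfl fun j hj => ?_
  have hj' : j < q := mem_range.1 hj
  have hq : 0 < q := by omega
  have e1 : (q * i + j) / q = i := by
    rw [Nat.mul_add_div hq, Nat.div_eq_of_lt hj', add_zero]
  have e2 : (q * i + j) % q = j := by
    rw [Nat.mul_add_mod, Nat.mod_eq_of_lt hj']
  simp only [e1, e2, pow_add, pow_mul]
  ring

theorem Pk.smul {B : ℤ} {n : ℕ} {x : ℤ} {a : ℕ → ℤ} (c : ℤ) (hx : Pk B n x a) :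
    Pk B n (c * x) (fun k => c * a k) := by
  unfold Pk at *
  rw [hx, mul_sum]
  refine sum_congr rfl fun k _ => ?_
  ring

theorem Pk.add {B : ℤ} {n : ℕ} {x y : ℤ} {a b : ℕ → ℤ} (hx : Pk B n x a) (hy : Pk B n y b) :
    Pk B n (x + y) (fun k => a k + b k) := by
  unfold Pk at *
  rw [hx, hy, ← sum_add_distrib]
  refine sum_congr rfl fun k _ => ?_
  ring

theorem Pk.zero (B : ℤ) (n : ℕ) : Pk B n 0 (fun _ => 0) := by simp [Pk]

theorem Pk.sum {B : ℤ} {n : ℕ} (s : Finset ℕ) (x : ℕ → ℤ) (a : ℕ → ℕ → ℤ)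
    (h : ∀ f ∈ s, Pk B n (x f) (a f)) :
    Pk B n (∑ f ∈ s, x f) (fun k => ∑ f ∈ s, a f k) := by
  induction s using Finset.induction_on with
  | empty => simpa using Pk.zero B n
  | insert f s hf ih =>
    simp only [sum_insert hf]
    exact (h f (mem_insert_self f s)).add (ih fun g hg => h g (mem_insert_of_mem hg))

theorem Pk.hor {B : ℤ} {n : ℕ} (l : List ℤ) (h : l.length ≤ n) : Pk B n (hor B l) (nth l) :=
  hor_eq B l n h

/-! ### the mask test -/

theorem dig (B : ℕ) (hB : 0 < B) (b : ℕ → ℕ) (hb : ∀ k, b k < B) (k N : ℕ) (hk : k < N) :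
    (∑ i ∈ range N, b i * B ^ i) / B ^ k % B = b k := by
  induction k generalizing b N with
  | zero =>
    obtain ⟨N, rfl⟩ : ∃ m, N = m + 1 := ⟨N - 1, by omega⟩
    rw [sum_range_succ']
    simp only [pow_succ, pow_zero, mul_one, Nat.div_one]
    have : ∑ i ∈ range N, b (i + 1) * (B ^ i * B) = B * ∑ i ∈ range N, b (i + 1) * B ^ i := by
      rw [mul_sum]; refine sum_congr rfl fun i _ => ?_; ring
    rw [this, Nat.mul_add_mod, Nat.mod_eq_of_lt (hb 0)]
  | succ k ih =>
    obtain ⟨N, rfl⟩ : ∃ m, N = m + 1 := ⟨N - 1, by omega⟩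
    rw [sum_range_succ']
    have : ∑ i ∈ range N, b (i + 1) * B ^ (i + 1) = B * ∑ i ∈ range N, b (i + 1) * B ^ i := by
      rw [mul_sum]; refine sum_congr rfl fun i _ => ?_; ring
    rw [this, pow_zero, mul_one, pow_succ', ← Nat.div_div_eq_div_mul, Nat.mul_add_div hB,
      Nat.div_eq_of_lt (hb 0), add_zero]
    exact ih (fun i => b (i + 1)) (fun i => hb _) N (by omega)

theorem maskOf_eq (w N : ℕ) (hw : 1 ≤ w) :
    maskOf w N = ∑ k ∈ range N, 2 ^ (w - 1) * (2 ^ w) ^ k := by
  have h2 : 2 ≤ 2 ^ w := by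
    calc 2 = 2 ^ 1 := rfl
      _ ≤ 2 ^ w := Nat.pow_le_pow_right (by norm_num) hw
  have hg : (∑ k ∈ range N, (2 ^ w) ^ k) = ((2 ^ w) ^ N - 1) / (2 ^ w - 1) :=
    Nat.geomSum_eq h2 N
  unfold maskOf
  change 2 ^ (w - 1) * ((2 ^ (w * N) - 1) / (2 ^ w - 1)) = _
  rw [pow_mul, ← hg, mul_sum]

theorem testN_sound (w N : ℕ) (hw : 1 ≤ w) (x : ℤ) (a : ℕ → ℤ) (hx : Pk (2 ^ w) N x a)
    (hb : ∀ k, k < N → |a k| < 2 ^ (w - 1)) (ht : testN (maskOf w N) x = true) :
    ∀ k, k < N → 0 ≤ a k := by
  intro k hk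
  -- digits
  set b : ℕ → ℕ := fun i => if i < N then (a i + 2 ^ (w - 1)).toNat else 0 with hbdef
  have hw2 : (2 : ℤ) ^ w = 2 * 2 ^ (w - 1) := by
    obtain ⟨v, rfl⟩ : ∃ v, w = v + 1 := ⟨w - 1, by omega⟩
    simp [pow_succ, mul_comm]
  have hbz : ∀ i, i < N → (b i : ℤ) = a i + 2 ^ (w - 1) := by
    intro i hi
    have := abs_lt.1 (hb i hi)
    simp only [hbdef, hi, if_true]
    rw [Int.toNat_of_nonneg]
    linarith [this.1]
  have hblt : ∀ i, b i < 2 ^ w := by
    intro i
    by_cases hi : i < N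
    · have h1 := hbz i hi
      have h2 := abs_lt.1 (hb i hi)
      have h3 : (b i : ℤ) < 2 ^ w := by rw [h1, hw2]; linarith [h2.2]
      exact_mod_cast h3
    · simp [hbdef, hi]
  have hM : (maskOf w N : ℤ) = ∑ k ∈ range N, 2 ^ (w - 1) * ((2 : ℤ) ^ w) ^ k := by
    rw [maskOf_eq w N hw]; push_cast; rfl
  have hsum : x + (maskOf w N : ℤ) = ((∑ i ∈ range N, b i * (2 ^ w) ^ i : ℕ) : ℤ) := by
    rw [hM]
    unfold Pk at hx
    rw [hx, ← sum_add_distrib]
    push_cast
    refine sum_congr rfl fun i hi => ?_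
    rw [hbz i (mem_range.1 hi)]
    ring
  have ht2 : Nat.land (Int.toNat (x + (maskOf w N : ℤ))) (maskOf w N) = maskOf w N := by
    have := ht
    unfold testN at this
    exact Nat.eq_of_beq_eq_true this
  rw [hsum, Int.toNat_natCast] at ht2
  set M := ∑ i ∈ range N, b i * (2 ^ w) ^ i with hMdef
  have hdigM : M / (2 ^ w) ^ k % 2 ^ w = b k := dig (2 ^ w) (by positivity) b hblt k N hk
  have hdigm : maskOf w N / (2 ^ w) ^ k % 2 ^ w = 2 ^ (w - 1) := by
    rw [maskOf_eq w N hw]
    exact dig (2 ^ w) (by positivity) (fun _ => 2 ^ (w - 1))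
      (fun _ => Nat.pow_lt_pow_right (by norm_num) (by omega)) k N hk
  have tb : ∀ m : ℕ, (m / (2 ^ w) ^ k % 2 ^ w).testBit (w - 1) = m.testBit (w - 1 + w * k) := by
    intro m
    rw [← pow_mul, Nat.testBit_mod_two_pow, Nat.testBit_div_two_pow]
    simp only [show w - 1 < w by omega, decide_true, Bool.true_and]
  have h1 : (maskOf w N).testBit (w - 1 + w * k) = true := by
    rw [← tb, hdigm, Nat.testBit_two_pow_self]
  have h2 : M.testBit (w - 1 + w * k) = true := by
    have h3 : (Nat.land M (maskOf w N)).testBit (w - 1 + w * k) = true := by rw [ht2]; exact h1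
    have h4 : (M &&& maskOf w N).testBit (w - 1 + w * k) = true := h3
    rw [Nat.testBit_and] at h4
    simp only [Bool.and_eq_true] at h4
    exact h4.1
  have h5 : 2 ^ (w - 1) ≤ b k := by
    rw [← tb, hdigM] at h2
    exact Nat.ge_two_pow_of_testBit h2
  have h6 := hbz k hk
  have h7 : (2 : ℤ) ^ (w - 1) ≤ (b k : ℤ) := by exact_mod_cast h5
  linarith

end Vale.Agent.Lib.P154.Q4.Net
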