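import Vale.Agent.Lib.P154.Ineq4.Net

/-!
Soundness of the packed verification, second part: cells, generators and bounds.
-/

namespace Vale.Agent.Lib.P154.Q4.Net

open scoped BigOperators
open Finset

/-- product control value -/
def ent0 (c : Cell) (f k : ℕ) : ℤ :=
  nth (nthL c.R (nthN c.mf f)) (k / 15) * nth (nthL c.S f) (k % 15)

/-- control value of feature `f` at index `k` -/
def entI (DS : ℤ) (c : Cell) (f k : ℕ) : ℤ :=
  if f < 11 then DS * ent0 c f k
  else (∑ g ∈ range 11, nth c.d g * ent0 c g k) +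
    (∑ m ∈ range c.R.length, nth c.e m * nth (nthL c.R m) (k / 15)) * nth (nthL c.S 0) (k % 15)

structure WF (p : ℕ) (c : Cell) : Prop where
  hR : ∀ m, (nthL c.R m).length ≤ p
  hS : ∀ f, (nthL c.S f).length ≤ 15
  hSl : c.S.length = 11
  hm : c.mf.length = 11
  hd : c.d.length = 11
  he : c.e.length = c.R.length

theorem ft_pk {p : ℕ} {c : Cell} (hc : WF p c) (B : ℤ) (f : ℕ) :
    Pk B (15 * p) (nth (ft B (horAll (B ^ 15) c.R) c.mf c.S) f) (ent0 c f) := by
  rw [nth_ft _ _ _ _ _ (by rw [hc.hSl, hc.hm]), nth_horAll]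
  exact Pk.mul (Pk.hor _ (hc.hR _)) (Pk.hor _ (hc.hS _))

theorem rows_pk {p : ℕ} {c : Cell} (hc : WF p c) (DS B : ℤ) (f : ℕ) (hf : f < 12) :
    Pk B (15 * p) (nth (rowsOf DS B (B ^ 15) c) f) (entI DS c f) := by
  have hlen : (ft B (horAll (B ^ 15) c.R) c.mf c.S).length = 11 := by
    rw [length_ft _ _ _ _ (by rw [hc.hSl, hc.hm]), hc.hSl]
  unfold rowsOf
  by_cases h11 : f < 11
  · rw [nth_snoc_lt _ _ _ (by rw [length_scaleL, hlen]; exact h11), nth_scaleL]
    have := (ft_pk hc B f).smul DS
    unfold entI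
    simp only [h11, if_true]
    exact this
  · have hf11 : f = 11 := by omega
    subst hf11
    have h1 := nth_snoc_eq (scaleL DS (ft B (horAll (B ^ 15) c.R) c.mf c.S))
      (Int.add (dotI c.d (ft B (horAll (B ^ 15) c.R) c.mf c.S))
      (Int.mul (dotI c.e (horAll (B ^ 15) c.R)) (hor B (nthL c.S 0))))
    rw [length_scaleL, hlen] at h1
    rw [h1]
    have h2 : Pk B (15 * p) (dotI c.d (ft B (horAll (B ^ 15) c.R) c.mf c.S))
        (fun k => ∑ g ∈ range 11, nth c.d g * ent0 c g k) := by
      rw [dotI_eq _ _ 11 (by rw [hc.hd])]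
      exact Pk.sum _ _ _ fun g _ => (ft_pk hc B g).smul _
    have h3 : Pk (B ^ 15) p (dotI c.e (horAll (B ^ 15) c.R))
        (fun k => ∑ m ∈ range c.R.length, nth c.e m * nth (nthL c.R m) k) := by
      rw [dotI_eq _ _ c.R.length (by rw [hc.he])]
      refine Pk.sum _ _ _ fun m _ => ?_
      rw [nth_horAll]
      exact (Pk.hor _ (hc.hR _)).smul _
    have h4 := h2.add (Pk.mul h3 (Pk.hor (B := B) (nthL c.S 0) (hc.hS 0)))
    unfold entI
    simp only [show ¬ (11 < 11) by omega, if_false]
    exact h4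

/-- row of coefficients applied to a vector -/
def rowV (l : List (ℕ × ℤ)) (y : ℕ → ℤ) : ℤ := (l.map fun p => p.2 * y p.1).sum

theorem rowDot_pk {B : ℤ} {n : ℕ} {Y : List ℤ} {a : ℕ → ℕ → ℤ} (l : List (ℕ × ℤ))
    (hl : ∀ p ∈ l, p.1 < 12) (h : ∀ f, f < 12 → Pk B n (nth Y f) (a f)) :
    Pk B n (rowDot Y l) (fun j => rowV l (fun f => a f j)) := by
  induction l with
  | nil => simpa [rowDot, rowV] using Pk.zero B n
  | cons p l ih =>
    have h1 := (h p.1 (hl p (by simp))).smul p.2
    have h2 := ih (fun q hq => hl q (by simp [hq]))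
    have h3 := h1.add h2
    simpa [rowDot, rowV] using h3

theorem nth_rowDots (Y : List ℤ) (r : List (List (ℕ × ℤ))) (k : ℕ) :
    nth (rowDots Y r) k = rowDot Y (r.getD k []) := by
  induction r generalizing k with
  | nil => simp [rowDots, rowDot]
  | cons a r ih =>
    cases k with
    | zero => rfl
    | succ k => simpa [rowDots] using ih k

/-- digit of the combination of generators -/
def gz (ga : List ℤ) (r : List (List (ℕ × ℤ))) (y : ℕ → ℤ) : ℤ :=
  ∑ k ∈ range ga.length, nth ga k * rowV (r.getD k []) y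

theorem nth_comb (ga Y : List ℤ) (G : List (List (List (ℕ × ℤ)))) (f : ℕ) :
    nth (comb ga Y G) f = if f < G.length then dotI ga (rowDots Y (G.getD f [])) else 0 := by
  induction G generalizing f with
  | nil => simp [comb]
  | cons a G ih =>
    cases f with
    | zero => simp [comb]
    | succ f => simpa [comb] using ih f

theorem length_comb (ga Y : List ℤ) (G : List (List (List (ℕ × ℤ)))) :
    (comb ga Y G).length = G.length := by
  induction G with
  | nil => rfl
  | cons a G ih => simp [comb, ih]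

def idxP (G : List (List (List (ℕ × ℤ)))) : Prop :=
  G.length = 12 ∧ ∀ gf ∈ G, ∀ r ∈ gf, ∀ p ∈ r, p.1 < 12

theorem idxP_of (G : List (List (List (ℕ × ℤ)))) (h : idxOK G = true) : idxP G := by
  unfold idxOK at h
  simp only [Bool.and_eq_true] at h
  refine ⟨Nat.eq_of_beq_eq_true h.1, ?_⟩
  intro gf hgf r hr p hp
  have h1 := List.all_eq_true.1 h.2 gf hgf
  have h2 := List.all_eq_true.1 h1 r hr
  have h3 := List.all_eq_true.1 h2 p hp
  exact Nat.le_of_ble_eq_true h3

theorem idxP.row {G : List (List (List (ℕ × ℤ)))} (h : idxP G) (f k : ℕ) :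
    ∀ p ∈ (G.getD f []).getD k [], p.1 < 12 := by
  intro p hp
  by_cases hf : f < G.length
  · rw [List.getD_eq_getElem _ _ hf] at hp
    by_cases hk : k < (G[f]).length
    · rw [List.getD_eq_getElem _ _ hk] at hp
      exact h.2 _ (List.getElem_mem hf) _ (List.getElem_mem hk) p hp
    · rw [List.getD_eq_default _ _ (by omega)] at hp
      simp at hp
  · have e : G.getD f [] = [] := List.getD_eq_default _ _ (by omega)
    rw [e] at hp
    simp at hp

theorem comb_pk {B : ℤ} {n : ℕ} {Y ga : List ℤ} {a : ℕ → ℕ → ℤ} {G : List (List (List (ℕ × ℤ)))}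
    (hG : idxP G) (h : ∀ f, f < 12 → Pk B n (nth Y f) (a f)) (f : ℕ) (hf : f < 12) :
    Pk B n (nth (comb ga Y G) f) (fun j => gz ga (G.getD f []) (fun g => a g j)) := by
  rw [nth_comb, if_pos (by rw [hG.1]; exact hf), dotI_eq _ _ ga.length le_rfl]
  unfold gz
  refine Pk.sum _ _ _ fun k _ => ?_
  rw [nth_rowDots]
  exact (rowDot_pk _ (hG.row f k) h).smul _

/-- the bilinear form of the combination `ga` of the generators `G` -/
def bilI (G : List (List (List (ℕ × ℤ)))) (ga : List ℤ) (x y : ℕ → ℤ) : ℤ :=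
  ∑ f ∈ range 12, x f * gz ga (G.getD f []) y

theorem length_rowsOf {p : ℕ} {c : Cell} (hc : WF p c) (DS B B15 : ℤ) :
    (rowsOf DS B B15 c).length = 12 := by
  unfold rowsOf
  rw [length_snoc, length_scaleL, length_ft _ _ _ _ (by rw [hc.hSl, hc.hm]), hc.hSl]

theorem pair_pk {B : ℤ} {p n : ℕ} {X : Cell} (hX : WF p X) (DS : ℤ) {Yr ga : List ℤ}
    {a : ℕ → ℕ → ℤ} {G : List (List (List (ℕ × ℤ)))} (hG : idxP G) (hlen : Yr.length ≤ 12)
    (h : ∀ f, f < 12 → Pk (B ^ (15 * p)) n (nth Yr f) (a f)) :
    Pk B (15 * p * n) (dotI Yr (comb ga (rowsOf DS B (B ^ 15) X) G))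
      (fun k => bilI G ga (fun f => a f (k / (15 * p))) (fun g => entI DS X g (k % (15 * p)))) := by
  rw [dotI_eq _ _ 12 hlen]
  unfold bilI
  refine Pk.sum _ _ _ fun f hf => ?_
  have hf' := mem_range.1 hf
  exact Pk.mul (h f hf') (comb_pk (ga := ga) hG (fun g hg => rows_pk hX DS B g hg) f hf')

/-! ### bounds -/

theorem nth_le_mxa (l : List ℤ) (k : ℕ) : |nth l k| ≤ (mxa l : ℤ) := by
  induction l generalizing k with
  | nil => simp [mxa]
  | cons a l ih =>
    have hm : mxa (a :: l) = max a.natAbs (mxa l) := rfl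
    cases k with
    | zero =>
      rw [nth_cons_zero, hm, ← Int.natCast_natAbs]
      exact_mod_cast le_max_left _ _
    | succ k =>
      rw [nth_cons_succ, hm]
      refine (ih k).trans ?_
      exact_mod_cast le_max_right _ _

theorem nthN_mxAll (R : List (List ℤ)) (m : ℕ) : nthN (mxAll R) m = mxa (nthL R m) := by
  induction R generalizing m with
  | nil => cases m <;> simp [mxAll, nthN, mxa]
  | cons r R ih =>
    cases m with
    | zero => rfl
    | succ m => simpa [mxAll, nthN] using ih m

theorem length_mxAll (R : List (List ℤ)) : (mxAll R).length = R.length := by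
  induction R with
  | nil => rfl
  | cons r R ih => simp [mxAll, ih]

theorem nthN_ftN (P : List ℕ) (mf : List ℕ) (S : List (List ℤ)) (f : ℕ)
    (h : S.length ≤ mf.length) :
    nthN (ftN P mf S) f = nthN P (nthN mf f) * mxa (nthL S f) := by
  induction mf generalizing S f with
  | nil =>
    have : S = [] := by simpa using h
    subst this
    cases f <;> simp [ftN, nthN, mxa]
  | cons m mf ih =>
    cases S with
    | nil => cases f <;> simp [ftN, nthN, mxa]
    | cons s S =>
      cases f with
      | zero => rfl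
      | succ f => simpa [ftN, nthN] using ih S f (by simpa using h)

theorem length_ftN (P : List ℕ) (mf : List ℕ) (S : List (List ℤ))
    (h : S.length = mf.length) : (ftN P mf S).length = S.length := by
  induction mf generalizing S with
  | nil =>
    have : S = [] := by simpa using h
    subst this
    rfl
  | cons m mf ih =>
    cases S with
    | nil => rfl
    | cons s S => simpa [ftN] using ih S (by simpa using h)

theorem dotN_eq (l m : List ℕ) (n : ℕ) (h : l.length ≤ n) :
    dotN l m = ∑ k ∈ range n, nthN l k * nthN m k := by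
  induction l generalizing m n with
  | nil =>
    simp only [dotN]
    symm
    refine Finset.sum_eq_zero fun k _ => ?_
    cases k <;> simp [nthN]
  | cons a l ih =>
    obtain ⟨n, rfl⟩ : ∃ m, n = m + 1 := ⟨n - 1, by simp at h; omega⟩
    cases m with
    | nil =>
      simp only [dotN]
      symm
      refine Finset.sum_eq_zero fun k _ => ?_
      cases k <;> simp [nthN]
    | cons b m =>
      have : dotN (a :: l) (b :: m) = a * b + dotN l m := rfl
      rw [this, sum_range_succ', ih m n (by simpa using h)]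
      simp [nthN, add_comm]

theorem nthN_absL (l : List ℤ) (k : ℕ) : nthN (absL l) k = (nth l k).natAbs := by
  induction l generalizing k with
  | nil => cases k <;> simp [absL, nthN]
  | cons a l ih =>
    cases k with
    | zero => rfl
    | succ k => simpa [absL, nthN] using ih k

theorem length_absL (l : List ℤ) : (absL l).length = l.length := by
  induction l with
  | nil => rfl
  | cons a l ih => simp [absL, ih]

theorem ent0_bound {p : ℕ} {c : Cell} (hc : WF p c) (f k : ℕ) :
    |ent0 c f k| ≤ (nthN (ftN (mxAll c.R) c.mf c.S) f : ℤ) := by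
  rw [nthN_ftN _ _ _ _ (by rw [hc.hSl, hc.hm]), nthN_mxAll]
  unfold ent0
  rw [abs_mul]
  push_cast
  exact mul_le_mul (nth_le_mxa _ _) (nth_le_mxa _ _) (abs_nonneg _) (by positivity)

theorem allLe_sound (D : ℕ) (a b : List ℕ) (h : allLe D a b = true) (k : ℕ) :
    D * nthN a k ≤ nthN b k := by
  induction a generalizing b k with
  | nil => cases k <;> simp [nthN]
  | cons x a ih =>
    cases b with
    | nil => simp [allLe] at h
    | cons y b =>
      simp only [allLe, Bool.and_eq_true] at h
      cases k with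
      | zero => exact Nat.le_of_ble_eq_true h.1
      | succ k => simpa [nthN] using ih b h.2 k

structure Bnd (DS : ℤ) (MX : List ℕ) (c : Cell) : Prop where
  le : ∀ f, f < 12 → ∀ k, |entI DS c f k| ≤ (nthN MX f : ℤ)

theorem cellOK_wf (p DS : ℕ) (MX : List ℕ) (MXD : ℕ) (c : Cell)
    (h : cellOK p DS MX MXD c = true) : WF p c := by
  unfold cellOK at h
  simp only [Bool.and_eq_true] at h
  obtain ⟨⟨⟨⟨⟨⟨⟨⟨hR, hS⟩, hSl⟩, hm⟩, hd⟩, he⟩, -⟩, -⟩, -⟩ := h
  refine ⟨?_, ?_, Nat.eq_of_beq_eq_true hSl, Nat.eq_of_beq_eq_true hm,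
    Nat.eq_of_beq_eq_true hd, Nat.eq_of_beq_eq_true he⟩
  · intro m
    have key : ∀ (R : List (List ℤ)), (R.all fun r => Nat.beq r.length p) = true → ∀ m,
        (nthL R m).length ≤ p := by
      intro R
      induction R with
      | nil => intro _ m; simp
      | cons r R ih =>
        intro h m
        simp only [List.all_cons, Bool.and_eq_true] at h
        cases m with
        | zero => exact (Nat.eq_of_beq_eq_true h.1).le
        | succ m => exact ih h.2 m
    exact key _ hR m
  · intro m
    have key : ∀ (R : List (List ℤ)), (R.all fun r => Nat.beq r.length 15) = true → ∀ m,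
        (nthL R m).length ≤ 15 := by
      intro R
      induction R with
      | nil => intro _ m; simp
      | cons r R ih =>
        intro h m
        simp only [List.all_cons, Bool.and_eq_true] at h
        cases m with
        | zero => exact (Nat.eq_of_beq_eq_true h.1).le
        | succ m => exact ih h.2 m
    exact key _ hS m

theorem cellOK_bnd (p DS : ℕ) (MX : List ℕ) (MXD : ℕ) (c : Cell)
    (h : cellOK p DS MX MXD c = true) : Bnd (DS : ℤ) (MX ++ [MXD]) c := by
  have hc := cellOK_wf p DS MX MXD c h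
  unfold cellOK at h
  simp only [Bool.and_eq_true] at h
  obtain ⟨⟨⟨-, hMX⟩, hle⟩, hD⟩ := h
  have hMXl : MX.length = 11 := Nat.eq_of_beq_eq_true hMX
  have hnth : ∀ (l : List ℕ) (x : ℕ) (f : ℕ), f < l.length → nthN (l ++ [x]) f = nthN l f := by
    intro l x
    induction l with
    | nil => intro f hf; simp at hf
    | cons a l ih =>
      intro f hf
      cases f with
      | zero => rfl
      | succ f => simpa [nthN] using ih f (by simpa using hf)
  have hnth2 : ∀ (l : List ℕ) (x : ℕ), nthN (l ++ [x]) l.length = x := by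
    intro l x
    induction l with
    | nil => rfl
    | cons a l ih => simpa [nthN] using ih
  refine ⟨fun f hf k => ?_⟩
  unfold entI
  by_cases h11 : f < 11
  · simp only [h11, if_true]
    rw [hnth _ _ _ (by rw [hMXl]; exact h11), abs_mul]
    have h1 := allLe_sound _ _ _ hle f
    have h2 := ent0_bound hc f k
    calc |(DS : ℤ)| * |ent0 c f k| ≤ (DS : ℤ) * (nthN (ftN (mxAll c.R) c.mf c.S) f : ℤ) := by
          rw [abs_of_nonneg (by positivity : (0 : ℤ) ≤ DS)]
          exact mul_le_mul_of_nonneg_left h2 (by positivity)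
      _ ≤ (nthN MX f : ℤ) := by exact_mod_cast h1
  · have hf11 : f = 11 := by omega
    subst hf11
    simp only [show ¬ (11 < 11) by omega, if_false]
    have e1 : nthN (MX ++ [MXD]) 11 = MXD := by
      have := hnth2 MX MXD
      rwa [hMXl] at this
    rw [e1]
    have h1 : (dotN (absL c.d) (ftN (mxAll c.R) c.mf c.S)) +
      (dotN (absL c.e) (mxAll c.R)) * (mxa (nthL c.S 0)) ≤ MXD := Nat.le_of_ble_eq_true hD
    rw [dotN_eq _ _ 11 (by rw [length_absL, hc.hd]),
      dotN_eq _ _ c.R.length (by rw [length_absL, hc.he])] at h1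
    have h2 : |∑ g ∈ range 11, nth c.d g * ent0 c g k| ≤
        ∑ g ∈ range 11, ((nthN (absL c.d) g * nthN (ftN (mxAll c.R) c.mf c.S) g : ℕ) : ℤ) := by
      refine (abs_sum_le_sum_abs _ _).trans (sum_le_sum fun g _ => ?_)
      rw [abs_mul, nthN_absL]
      push_cast
      exact mul_le_mul (by rw [Int.abs_eq_natAbs]) (ent0_bound hc g k) (abs_nonneg _)
        (by positivity)
    have h3 : |(∑ m ∈ range c.R.length, nth c.e m * nth (nthL c.R m) (k / 15))| ≤
        ∑ m ∈ range c.R.length, ((nthN (absL c.e) m * nthN (mxAll c.R) m : ℕ) : ℤ) := by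
      refine (abs_sum_le_sum_abs _ _).trans (sum_le_sum fun g _ => ?_)
      rw [abs_mul, nthN_absL, nthN_mxAll]
      push_cast
      exact mul_le_mul (by rw [Int.abs_eq_natAbs]) (nth_le_mxa _ _) (abs_nonneg _)
        (by positivity)
    have h4 : |(∑ m ∈ range c.R.length, nth c.e m * nth (nthL c.R m) (k / 15)) *
        nth (nthL c.S 0) (k % 15)| ≤
        (∑ m ∈ range c.R.length, ((nthN (absL c.e) m * nthN (mxAll c.R) m : ℕ) : ℤ)) *
          (mxa (nthL c.S 0) : ℤ) := by
      rw [abs_mul]
      exact mul_le_mul h3 (nth_le_mxa _ _) (abs_nonneg _) (sum_nonneg fun _ _ => by positivity)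
    refine (abs_add_le _ _).trans ((add_le_add h2 h4).trans ?_)
    exact_mod_cast h1

theorem rowV_bound {MX : List ℕ} (l : List (ℕ × ℤ)) (hl : ∀ p ∈ l, p.1 < 12) (y : ℕ → ℤ)
    (hy : ∀ f, f < 12 → |y f| ≤ (nthN MX f : ℤ)) : |rowV l y| ≤ (rowBnd MX l : ℤ) := by
  induction l with
  | nil => simp [rowV, rowBnd]
  | cons p l ih =>
    have h1 := ih (fun q hq => hl q (by simp [hq]))
    have h2 := hy p.1 (hl p (by simp))
    have e : rowBnd MX (p :: l) = p.2.natAbs * nthN MX p.1 + rowBnd MX l := rfl
    have e2 : rowV (p :: l) y = p.2 * y p.1 + rowV l y := by simp [rowV]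
    rw [e, e2]
    refine (abs_add_le _ _).trans ?_
    push_cast
    refine add_le_add ?_ h1
    rw [abs_mul]
    exact mul_le_mul_of_nonneg_left h2 (abs_nonneg _)

theorem nthN_rowBnds (MX : List ℕ) (r : List (List (ℕ × ℤ))) (k : ℕ) :
    nthN (rowBnds MX r) k = rowBnd MX (r.getD k []) := by
  induction r generalizing k with
  | nil => cases k <;> simp [rowBnds, nthN, rowBnd]
  | cons a r ih =>
    cases k with
    | zero => rfl
    | succ k => simpa [rowBnds, nthN] using ih k

theorem gz_bound {MX : List ℕ} (ga : List ℤ) (r : List (List (ℕ × ℤ)))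
    (hr : ∀ k, ∀ p ∈ r.getD k [], p.1 < 12) (y : ℕ → ℤ)
    (hy : ∀ f, f < 12 → |y f| ≤ (nthN MX f : ℤ)) :
    |gz ga r y| ≤ (dotN (absL ga) (rowBnds MX r) : ℤ) := by
  rw [dotN_eq _ _ ga.length (by rw [length_absL])]
  unfold gz
  push_cast
  refine (abs_sum_le_sum_abs _ _).trans (sum_le_sum fun k _ => ?_)
  rw [abs_mul, nthN_absL, nthN_rowBnds]
  exact mul_le_mul (by rw [Int.abs_eq_natAbs]) (rowV_bound _ (hr k) y hy) (abs_nonneg _)
    (by positivity)

theorem totBnd_eq (MX : List ℕ) (ga : List ℤ) (l : List ℕ) (G : List (List (List (ℕ × ℤ))))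
    (n : ℕ) (h : l.length ≤ n) (h' : G.length = n) :
    totBnd MX ga l G = ∑ f ∈ range n, nthN l f * dotN (absL ga) (rowBnds MX (G.getD f [])) := by
  induction l generalizing G n with
  | nil =>
    simp only [totBnd]
    symm
    refine Finset.sum_eq_zero fun k _ => ?_
    cases k <;> simp [nthN]
  | cons a l ih =>
    obtain ⟨n, rfl⟩ : ∃ m, n = m + 1 := ⟨n - 1, by simp at h; omega⟩
    cases G with
    | nil => simp at h'
    | cons g G =>
      have : totBnd MX ga (a :: l) (g :: G) = a * dotN (absL ga) (rowBnds MX g) +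
        totBnd MX ga l G := rfl
      rw [this, sum_range_succ', ih G n (by simpa using h) (by simpa using h')]
      simp [nthN, add_comm]

theorem bilI_bound {MX : List ℕ} (ga : List ℤ) (G : List (List (List (ℕ × ℤ)))) (hG : idxP G)
    (hMX : MX.length ≤ 12) (x y : ℕ → ℤ) (hx : ∀ f, f < 12 → |x f| ≤ (nthN MX f : ℤ))
    (hy : ∀ f, f < 12 → |y f| ≤ (nthN MX f : ℤ)) :
    |bilI G ga x y| ≤ (totBnd MX ga MX G : ℤ) := by
  rw [totBnd_eq MX ga MX G 12 hMX hG.1]
  unfold bilI
  push_cast
  refine (abs_sum_le_sum_abs _ _).trans (sum_le_sum fun f hf => ?_)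
  have hf' := mem_range.1 hf
  rw [abs_mul]
  exact mul_le_mul (hx f hf') (gz_bound ga _ (hG.row f) y hy) (abs_nonneg _) (by positivity)

/-! ### the products on natural numbers -/

theorem rowDot_ins (Y : List ℤ) (h : ℕ) (c : ℤ) (l : List (ℕ × ℤ)) :
    rowDot Y (ins h c l) = c * nth Y h + rowDot Y l := by
  induction l with
  | nil => rfl
  | cons q l ih =>
    have e : ∀ (p : ℕ × ℤ) l, rowDot Y (p :: l) = p.2 * nth Y p.1 + rowDot Y l :=
      fun _ _ => rfl
    unfold ins
    split
    · rename_i hh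
      have hq : h = q.1 := Nat.eq_of_beq_eq_true hh
      have e2 : Int.add c q.2 = c + q.2 := rfl
      rw [e, e, e2, ← hq]
      ring
    · rw [e, ih, e]
      ring

theorem rowDot_insRow (Y : List ℤ) (g : ℤ) (acc r : List (ℕ × ℤ)) :
    rowDot Y (insRow g acc r) = g * rowDot Y r + rowDot Y acc := by
  induction r with
  | nil => simp [insRow, rowDot]
  | cons p r ih =>
    have e : rowDot Y (p :: r) = p.2 * nth Y p.1 + rowDot Y r := rfl
    have e2 : Int.mul g p.2 = g * p.2 := rfl
    unfold insRow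
    rw [rowDot_ins, ih, e, e2]
    ring

theorem rowDot_insRows (Y : List ℤ) (ga : List ℤ) (gf : List (List (ℕ × ℤ))) :
    rowDot Y (insRows ga gf) = dotI ga (rowDots Y gf) := by
  induction ga generalizing gf with
  | nil => rfl
  | cons g ga ih =>
    cases gf with
    | nil => rfl
    | cons r gf =>
      have e : dotI (g :: ga) (rowDots Y (r :: gf))
        = g * rowDot Y r + dotI ga (rowDots Y gf) := rfl
      rw [e, ← ih]
      exact rowDot_insRow _ _ _ _

theorem mulT_eq (ga X : List ℤ) (G : List (List (List (ℕ × ℤ)))) :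
    rowDots X (matS ga G) = comb ga X G := by
  induction G with
  | nil => rfl
  | cons gf G ih =>
    have e1 : rowDots X (matS ga (gf :: G))
        = rowDot X (insRows ga gf) :: rowDots X (matS ga G) := rfl
    have e2 : comb ga X (gf :: G) = dotI ga (rowDots X gf) :: comb ga X G := rfl
    rw [e1, e2, ih, rowDot_insRows]

theorem two_eq (k : ℕ) : two k = (2 : ℤ) ^ k := by
  have h1 : two k = ((2 ^ k : ℕ) : ℤ) := rfl
  rw [h1]; norm_cast

theorem shift_dot (k k' : ℕ) (y d : List ℤ) (hl : y.length = d.length)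
    (hy : posN (shiftN k' y) = true) (hd : posN (shiftN k d) = true) :
    dotI y d = (dotN (shiftN k' y) (shiftN k d) : ℤ) + y.length * 2 ^ (k + k')
      - sumN (shiftN k' y) * 2 ^ k - sumN (shiftN k d) * 2 ^ k' := by
  induction y generalizing d with
  | nil =>
    have : d = [] := by simpa using hl.symm
    subst this
    simp [dotI, dotN, sumN, shiftN]
  | cons a y ih =>
    cases d with
    | nil => simp at hl
    | cons b d =>
      have e1 : shiftN k' (a :: y) = Int.toNat (a + two k') :: shiftN k' y := rfl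
      have e2 : shiftN k (b :: d) = Int.toNat (b + two k) :: shiftN k d := rfl
      rw [e1] at hy ⊢
      rw [e2] at hd ⊢
      unfold posN at hy hd
      split at hy
      · split at hd
        · rename_i _ h1 _ h2
          have h1' : 0 < Int.toNat (a + two k') := Nat.le_of_ble_eq_true h1
          have h2' : 0 < Int.toNat (b + two k) := Nat.le_of_ble_eq_true h2
          have h3 : ((Int.toNat (a + two k') : ℕ) : ℤ) = a + 2 ^ k' := by
            rw [← two_eq]; omega
          have h4 : ((Int.toNat (b + two k) : ℕ) : ℤ) = b + 2 ^ k := by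
            rw [← two_eq]; omega
          have h5 := ih d (by simpa using hl) hy hd
          have e3 : dotI (a :: y) (b :: d) = a * b + dotI y d := rfl
          have e4 : dotN (Int.toNat (a + two k') :: shiftN k' y)
              (Int.toNat (b + two k) :: shiftN k d)
              = Int.toNat (a + two k') * Int.toNat (b + two k)
                + dotN (shiftN k' y) (shiftN k d) := rfl
          have e5 : ∀ (x : ℕ) l, sumN (x :: l) = x + sumN l := fun _ _ => rfl
          rw [e3, h5, e4, e5, e5]
          push_cast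
          rw [h3, h4]
          simp only [List.length_cons]
          push_cast
          ring
        · simp at hd
      · simp at hy

theorem testP_eq (mask k k' : ℕ) (y d : List ℤ) (hy : y.length = 12) (hd : d.length = 12)
    (h1 : posN (shiftN k' y) = true) (h2 : posN (shiftN k d) = true)
    (h : testP mask k' (Nat.add mask (Nat.mul 12 (Nat.pow 2 (Nat.add k k'))))
      (Nat.mul (sumN (shiftN k' y)) (Nat.pow 2 k)) (shiftN k' y) (shiftN k d) = true) :
    testN mask (dotI y d) = true := by
  have e : (dotN (shiftN k' y) (shiftN k d) + (mask + 12 * 2 ^ (k + k'))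
      - sumN (shiftN k' y) * 2 ^ k - sumN (shiftN k d) * 2 ^ k' : ℕ)
      = Int.toNat (dotI y d + (mask : ℤ)) := by
    rw [shift_dot k k' y d (by rw [hy, hd]) h1 h2, hy, Nat.sub_sub]
    have e2 : ((dotN (shiftN k' y) (shiftN k d) : ℤ) + ((12 : ℕ) : ℤ) * 2 ^ (k + k')
      - sumN (shiftN k' y) * 2 ^ k - sumN (shiftN k d) * 2 ^ k' + (mask : ℤ))
      = ((dotN (shiftN k' y) (shiftN k d) + (mask + 12 * 2 ^ (k + k')) : ℕ) : ℤ)
        - ((sumN (shiftN k' y) * 2 ^ k + sumN (shiftN k d) * 2 ^ k' : ℕ) : ℤ) := by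
      push_cast
      ring
    rw [e2, Int.toNat_sub]
  unfold testP at h
  unfold testN
  have e3 : Int.toNat (Int.add (dotI y d) (Int.ofNat mask))
      = Int.toNat (dotI y d + (mask : ℤ)) := rfl
  rw [e3, ← e]
  exact h

/-- Soundness of one group. -/
theorem grp_sound {w p p' : ℕ} (hw : 1 ≤ w) {DS : ℤ}
    {G : List (List (List (ℕ × ℤ)))} (hG : idxP G) {ga : List ℤ} {Y : Cell} {MX : List ℕ}
    (hMX : MX.length ≤ 12) (hY : WF p' Y) (hYb : Bnd DS MX Y)
    (hT : totBnd MX ga MX G < 2 ^ (w - 1)) (Xs : List Cell)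
    (hX : ∀ X ∈ Xs, WF p X ∧ Bnd DS MX X)
    (h : grpOK w (15 * p) (15 * p') DS G ga Y Xs = true) :
    ∀ X ∈ Xs, ∀ j, j < 15 * p' → ∀ i, i < 15 * p →
      0 ≤ bilI G ga (fun f => entI DS Y f j) (fun f => entI DS X f i) := by
  have e1 : two (Nat.mul (15 * p) w) = ((2 : ℤ) ^ w) ^ (15 * p) := by
    have h1 : two (Nat.mul (15 * p) w) = ((2 ^ (15 * p * w) : ℕ) : ℤ) := rfl
    rw [h1, ← pow_mul, mul_comm w]
    norm_cast
  have e2 : two (Nat.mul 15 (Nat.mul (15 * p) w)) = (((2 : ℤ) ^ w) ^ (15 * p)) ^ 15 := by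
    have h1 : two (Nat.mul 15 (Nat.mul (15 * p) w)) = ((2 ^ (15 * (15 * p * w)) : ℕ) : ℤ) := rfl
    rw [h1, ← pow_mul, ← pow_mul, show 15 * (15 * p * w) = w * (15 * p) * 15 by ring]
    push_cast
    congr 1
    ring
  have e3 : two w = (2 : ℤ) ^ w := by
    have h1 : two w = ((2 ^ w : ℕ) : ℤ) := rfl
    rw [h1]; norm_cast
  have e4 : two (Nat.mul 15 w) = ((2 : ℤ) ^ w) ^ 15 := by
    have h1 : two (Nat.mul 15 w) = ((2 ^ (15 * w) : ℕ) : ℤ) := rfl
    rw [h1, ← pow_mul, mul_comm w]
    norm_cast
  have e5 : Nat.mul (15 * p) (15 * p') = 15 * p * (15 * p') := rfl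
  unfold grpOK at h
  rw [e1, e2, e3, e4, e5] at h
  have hYpk := fun f hf => rows_pk hY DS (((2 : ℤ) ^ w) ^ (15 * p)) f hf
  intro X hXm j hj i hi
  have htest : testN (maskOf w (15 * p * (15 * p')))
      (dotI (rowsOf DS (((2 : ℤ) ^ w) ^ (15 * p)) ((((2 : ℤ) ^ w) ^ (15 * p)) ^ 15) Y)
        (comb ga (rowsOf DS (2 ^ w) ((2 ^ w) ^ 15) X) G)) = true := by
    unfold grp0 at h
    split at h
    · rename_i hpos
      induction Xs with
      | nil => simp at hXm
      | cons X' Xs ih =>
        unfold grp at h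
        split at h
        · rename_i heq
          rcases List.mem_cons.1 hXm with rfl | hm
          · unfold chk1 at heq
            split at heq
            · rename_i hpos2
              rw [mulT_eq] at heq hpos2
              exact testP_eq _ _ _ _ _ (length_rowsOf hY _ _ _)
                (by rw [length_comb, hG.1]) hpos hpos2 heq
            · simp at heq
          · exact ih (fun Z hZ => hX Z (by simp [hZ])) hm h
        · simp at h
    · simp at h
  have hpk := pair_pk (ga := ga) (hX X hXm).1 DS hG (by rw [length_rowsOf hY]) hYpk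
  have hb : ∀ k, k < 15 * p * (15 * p') → |bilI G ga (fun f => entI DS Y f (k / (15 * p)))
      (fun g => entI DS X g (k % (15 * p)))| < 2 ^ (w - 1) := by
    intro k _
    refine lt_of_le_of_lt (bilI_bound ga G hG hMX _ _ (fun f hf => hYb.le f hf _)
      (fun f hf => (hX X hXm).2.le f hf _)) ?_
    exact_mod_cast hT
  have := testN_sound w _ hw _ _ hpk hb htest (15 * p * j + i) (by
    calc 15 * p * j + i < 15 * p * j + 15 * p := by omega
      _ = 15 * p * (j + 1) := by ring
      _ ≤ 15 * p * (15 * p') := Nat.mul_le_mul_left _ (by omega))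
  have hp : 0 < 15 * p := by omega
  have e6 : (15 * p * j + i) % (15 * p) = i := by
    rw [Nat.mul_add_mod, Nat.mod_eq_of_lt hi]
  have e7 : (15 * p * j + i) / (15 * p) = j := by
    rw [Nat.mul_add_div hp, Nat.div_eq_of_lt hi, add_zero]
  simp only [e6, e7] at this
  exact this

end Vale.Agent.Lib.P154.Q4.Net
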