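import Mathlib

/-!
Packed verification of the nonnegativity of a bilinear form on a pair of Bernstein nets.
The definitions of this file are evaluated by the kernel, so they only use raw operations.
-/

namespace Vale.Agent.Lib.P154.Q4.Net

/-- value of a list of digits in base `B` -/
def hor (B : ℤ) : List ℤ → ℤ
  | [] => 0
  | a :: l => Int.add a (Int.mul B (hor B l))

def dotI : List ℤ → List ℤ → ℤ
  | a :: l, b :: m => Int.add (Int.mul a b) (dotI l m)
  | _, _ => 0

def nth : List ℤ → ℕ → ℤ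
  | [], _ => 0
  | a :: _, 0 => a
  | _ :: l, n + 1 => nth l n

def nthN : List ℕ → ℕ → ℕ
  | [], _ => 0
  | a :: _, 0 => a
  | _ :: l, n + 1 => nthN l n

def nthL : List (List ℤ) → ℕ → List ℤ
  | [], _ => []
  | a :: _, 0 => a
  | _ :: l, n + 1 => nthL l n

def horAll (B : ℤ) : List (List ℤ) → List ℤ
  | [] => []
  | r :: rs => hor B r :: horAll B rs

def ft (B : ℤ) (P : List ℤ) : List ℕ → List (List ℤ) → List ℤ
  | m :: ms, s :: ss => Int.mul (nth P m) (hor B s) :: ft B P ms ss
  | _, _ => []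

def scaleL (c : ℤ) : List ℤ → List ℤ
  | [] => []
  | a :: l => Int.mul c a :: scaleL c l

def snoc : List ℤ → ℤ → List ℤ
  | [], x => [x]
  | a :: l, x => a :: snoc l x

/-- A cell: `R` nets of the powers of the radius, `S` nets of the shape features,
`mf` power of the radius in each feature, `d`, `e` coefficients of the entropy bound. -/
structure Cell where
  R : List (List ℤ)
  S : List (List ℤ)
  mf : List ℕ
  d : List ℤ
  e : List ℤ

/-- packed nets of the 12 features of a cell -/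
def rowsOf (DS B B15 : ℤ) (c : Cell) : List ℤ :=
  snoc (scaleL DS (ft B (horAll B15 c.R) c.mf c.S))
    (Int.add (dotI c.d (ft B (horAll B15 c.R) c.mf c.S))
      (Int.mul (dotI c.e (horAll B15 c.R)) (hor B (nthL c.S 0))))

def rowDot (Y : List ℤ) : List (ℕ × ℤ) → ℤ
  | [] => 0
  | p :: l => Int.add (Int.mul p.2 (nth Y p.1)) (rowDot Y l)

def rowDots (Y : List ℤ) : List (List (ℕ × ℤ)) → List ℤ
  | [] => []
  | r :: l => rowDot Y r :: rowDots Y l

/-- `G`: for each feature of the first vector, for each generator, a sparse row -/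
def comb (ga : List ℤ) (Y : List ℤ) : List (List (List (ℕ × ℤ))) → List ℤ
  | [] => []
  | gf :: gs => dotI ga (rowDots Y gf) :: comb ga Y gs

def testN (mask : ℕ) (N : ℤ) : Bool :=
  Nat.beq (Nat.land (Int.toNat (Int.add N (Int.ofNat mask))) mask) mask

def two (k : ℕ) : ℤ := Int.ofNat (Nat.pow 2 k)

def maskOf (w N : ℕ) : ℕ :=
  Nat.mul (Nat.pow 2 (Nat.sub w 1))
    (Nat.div (Nat.sub (Nat.pow 2 (Nat.mul w N)) 1) (Nat.sub (Nat.pow 2 w) 1))

/-! The products are evaluated on natural numbers: all entries are shifted by a power of two. -/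

def ins (h : ℕ) (c : ℤ) : List (ℕ × ℤ) → List (ℕ × ℤ)
  | [] => [(h, c)]
  | q :: l => match Nat.beq h q.1 with
    | true => (h, Int.add c q.2) :: l
    | false => q :: ins h c l

def insRow (g : ℤ) (acc : List (ℕ × ℤ)) : List (ℕ × ℤ) → List (ℕ × ℤ)
  | [] => acc
  | p :: r => ins p.1 (Int.mul g p.2) (insRow g acc r)

def insRows : List ℤ → List (List (ℕ × ℤ)) → List (ℕ × ℤ)
  | g :: ga, r :: rs => insRow g (insRows ga rs) r
  | _, _ => []

/-- the matrix of the combination `ga` of the generators, by sparse rows -/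
def matS (ga : List ℤ) : List (List (List (ℕ × ℤ))) → List (List (ℕ × ℤ))
  | [] => []
  | gf :: gs => insRows ga gf :: matS ga gs

def shiftN (k : ℕ) : List ℤ → List ℕ
  | [] => []
  | a :: l => Int.toNat (Int.add a (two k)) :: shiftN k l

def posN : List ℕ → Bool
  | [] => true
  | a :: l => match Nat.blt 0 a with
    | true => posN l
    | false => false

def sumN : List ℕ → ℕ
  | [] => 0
  | a :: l => Nat.add a (sumN l)

def dotN : List ℕ → List ℕ → ℕ
  | a :: l, b :: m => Nat.add (Nat.mul a b) (dotN l m)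
  | _, _ => 0

def testP (mask k' c1 c2 : ℕ) (Y D : List ℕ) : Bool :=
  Nat.beq (Nat.land (Nat.sub (Nat.sub (Nat.add (dotN Y D) c1) c2)
    (Nat.mul (sumN D) (Nat.pow 2 k'))) mask) mask

def chk1 (mask k' c1 c2 : ℕ) (Y D : List ℕ) : Bool :=
  match posN D with
  | true => testP mask k' c1 c2 Y D
  | false => false

def grp (DS B B15 : ℤ) (mask k k' c1 c2 : ℕ) (T : List (List (ℕ × ℤ))) (Y : List ℕ) :
    List Cell → Bool
  | [] => true
  | X :: Xs => match chk1 mask k' c1 c2 Y (shiftN k (rowDots (rowsOf DS B B15 X) T)) with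
    | true => grp DS B B15 mask k k' c1 c2 T Y Xs
    | false => false

def grp0 (DS B B15 : ℤ) (mask k k' : ℕ) (T : List (List (ℕ × ℤ))) (Xs : List Cell) (Y : List ℕ) :
    Bool :=
  match posN Y with
  | true => grp DS B B15 mask k k' (Nat.add mask (Nat.mul 12 (Nat.pow 2 (Nat.add k k'))))
      (Nat.mul (sumN Y) (Nat.pow 2 k)) T Y Xs
  | false => false

/-- `n`, `n'`: number of control points of the cells `Xs` and of the cell `Y`;
`w`: number of bits of a digit -/
def grpOK (w n n' : ℕ) (DS : ℤ) (G : List (List (List (ℕ × ℤ)))) (ga : List ℤ) (Y : Cell)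
    (Xs : List Cell) : Bool :=
  grp0 DS (two w) (two (Nat.mul 15 w)) (maskOf w (Nat.mul n n')) (Nat.mul n w)
    (Nat.mul (Nat.mul n n') w) (matS ga G) Xs
    (shiftN (Nat.mul (Nat.mul n n') w)
      (rowsOf DS (two (Nat.mul n w)) (two (Nat.mul 15 (Nat.mul n w))) Y))

/-! bounds -/

def mxa : List ℤ → ℕ
  | [] => 0
  | a :: l => Nat.max (Int.natAbs a) (mxa l)

def mxAll : List (List ℤ) → List ℕ
  | [] => []
  | r :: rs => mxa r :: mxAll rs

def absL : List ℤ → List ℕ
  | [] => []
  | a :: l => Int.natAbs a :: absL l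

def ftN (P : List ℕ) : List ℕ → List (List ℤ) → List ℕ
  | m :: ms, s :: ss => Nat.mul (nthN P m) (mxa s) :: ftN P ms ss
  | _, _ => []

def allLe (D : ℕ) : List ℕ → List ℕ → Bool
  | a :: l, b :: m => (Nat.ble (Nat.mul D a) b) && allLe D l m
  | [], _ => true
  | _ :: _, [] => false

/-- well-formedness and bounds of a cell with `p` control points for the radius -/
def cellOK (p : ℕ) (DS : ℕ) (MX : List ℕ) (MXD : ℕ) (c : Cell) : Bool :=
  c.R.all (fun r => Nat.beq r.length p) && c.S.all (fun s => Nat.beq s.length 15) &&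
  Nat.beq c.S.length 11 && Nat.beq c.mf.length 11 && Nat.beq c.d.length 11 &&
  Nat.beq c.e.length c.R.length && Nat.beq MX.length 11 &&
  allLe DS (ftN (mxAll c.R) c.mf c.S) MX &&
  Nat.ble (Nat.add (dotN (absL c.d) (ftN (mxAll c.R) c.mf c.S))
    (Nat.mul (dotN (absL c.e) (mxAll c.R)) (mxa (nthL c.S 0)))) MXD

def rowBnd (MX : List ℕ) : List (ℕ × ℤ) → ℕ
  | [] => 0
  | p :: l => Nat.add (Nat.mul (Int.natAbs p.2) (nthN MX p.1)) (rowBnd MX l)

def rowBnds (MX : List ℕ) : List (List (ℕ × ℤ)) → List ℕ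
  | [] => []
  | r :: l => rowBnd MX r :: rowBnds MX l

/-- bound of the digits: `Σ_f MX_f Σ_k |ga_k| Σ |c| MX_h` -/
def totBnd (MX : List ℕ) (ga : List ℤ) : List ℕ → List (List (List (ℕ × ℤ))) → ℕ
  | a :: l, gf :: gs => Nat.add (Nat.mul a (dotN (absL ga) (rowBnds MX gf))) (totBnd MX ga l gs)
  | _, _ => 0

def idxOK (G : List (List (List (ℕ × ℤ)))) : Bool :=
  Nat.beq G.length 12 && G.all (fun gf => gf.all (fun r => r.all (fun p => Nat.blt p.1 12)))

end Vale.Agent.Lib.P154.Q4.Net
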