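import Vale.Agent.Lib.P154.Ineq4.Moments

/-!
Elementary facts on `Sg`, `Vg` and the two relaxations.
-/

namespace Vale.Agent.Lib.P154.Q4

open scoped BigOperators

theorem Sg_nonneg (y z : Fin 4 → ℝ) (hy : Nrm y) (hz : Nrm z) (g : Equiv.Perm (Fin 4)) :
    0 ≤ Sg y z g := by
  unfold Sg
  exact div_nonneg (Finset.sum_nonneg fun i _ => mul_nonneg (hy.1 i) (hz.1 _)) (by norm_num)

theorem Vg_nonneg (y z : Fin 4 → ℝ) (g : Equiv.Perm (Fin 4)) : 0 ≤ Vg y z g := by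
  unfold Vg Sg
  obtain ⟨a, ha⟩ : ∃ a : Fin 4 → ℝ, ∀ i, a i = y i * z (g i) := ⟨_, fun _ => rfl⟩
  simp only [← ha, Fin.sum_univ_four]
  nlinarith [sq_nonneg (a 0 - a 1), sq_nonneg (a 0 - a 2), sq_nonneg (a 0 - a 3),
    sq_nonneg (a 1 - a 2), sq_nonneg (a 1 - a 3), sq_nonneg (a 2 - a 3)]

theorem Vg_le (y z : Fin 4 → ℝ) (hy : Nrm y) (hz : Nrm z) (g : Equiv.Perm (Fin 4)) :
    Vg y z g ≤ 3 * Sg y z g ^ 2 := by
  unfold Vg Sg
  obtain ⟨a, ha⟩ : ∃ a : Fin 4 → ℝ, ∀ i, a i = y i * z (g i) := ⟨_, fun _ => rfl⟩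
  have h : ∀ i, 0 ≤ a i := fun i => by rw [ha]; exact mul_nonneg (hy.1 i) (hz.1 _)
  simp only [← ha, Fin.sum_univ_four]
  nlinarith [mul_nonneg (h 0) (h 1), mul_nonneg (h 0) (h 2), mul_nonneg (h 0) (h 3),
    mul_nonneg (h 1) (h 2), mul_nonneg (h 1) (h 3), mul_nonneg (h 2) (h 3)]

theorem avg_Sg (y z : Fin 4 → ℝ) (hy : Nrm y) (hz : Nrm z) : avg (Sg y z) = 1 := by
  have h := momR y z hy.2 hz.2 1 (by norm_num)
  have e : bil (Rtab.getD 1 []) (feat y) (feat z) = 0 := by simp [Rtab, bil]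
  rw [e] at h
  have h2 : avg (fun g => (Sg y z g - 1) ^ 1) = avg (Sg y z) - 1 := by
    unfold avg
    simp only [pow_one, Finset.sum_sub_distrib]
    simp [Fintype.card_perm, Nat.factorial]
    ring
  linarith

theorem sum_comp_perm (z : Fin 4 → ℝ) (g : Equiv.Perm (Fin 4)) (F : ℝ → ℝ) :
    ∑ i, F (z (g i)) = ∑ i, F (z i) := Equiv.sum_comp g (fun i => F (z i))

theorem Sg_sub_one (y z : Fin 4 → ℝ) (hy : Nrm y) (hz : Nrm z) (g : Equiv.Perm (Fin 4)) :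
    Sg y z g - 1 = (∑ i, (y i - 1) * (z (g i) - 1)) / 4 := by
  have h1 := sum_comp_perm z g (fun t => t)
  rw [hz.2] at h1
  have h2 := hy.2
  unfold Sg
  rw [Fin.sum_univ_four] at h1 h2 ⊢
  rw [Fin.sum_univ_four]
  linarith

theorem Sg_lower (y z : Fin 4 → ℝ) (hy : Nrm y) (hz : Nrm z) (r r' : ℝ) (hr : ∀ i, 1 - r ≤ y i)
    (hr' : ∀ i, 1 - r' ≤ z i) (g : Equiv.Perm (Fin 4)) : 1 - r * r' ≤ Sg y z g := by
  have h1 := Sg_sub_one y z hy hz g
  have h2 : 0 ≤ ∑ i, (y i - 1 + r) * (z (g i) - 1 + r') :=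
    Finset.sum_nonneg fun i _ => mul_nonneg (by linarith [hr i]) (by linarith [hr' (g i)])
  have h3 := sum_comp_perm z g (fun t => t)
  rw [hz.2] at h3
  have h4 := hy.2
  rw [Fin.sum_univ_four] at h1 h2 h3 h4
  have e : (y 0 - 1 + r) * (z (g 0) - 1 + r') + (y 1 - 1 + r) * (z (g 1) - 1 + r') +
      (y 2 - 1 + r) * (z (g 2) - 1 + r') + (y 3 - 1 + r) * (z (g 3) - 1 + r') =
      4 * (Sg y z g - 1) + r' * (y 0 + y 1 + y 2 + y 3 - 4) +
        r * (z (g 0) + z (g 1) + z (g 2) + z (g 3) - 4) + 4 * (r * r') := by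
    rw [h1]; ring
  rw [e, h3, h4] at h2
  linarith

theorem Sg_cauchy (y z : Fin 4 → ℝ) (hy : Nrm y) (hz : Nrm z) (g : Equiv.Perm (Fin 4)) :
    (Sg y z g - 1) ^ 2 ≤ I2 y * I2 z := by
  rw [Sg_sub_one y z hy hz g]
  have h := Finset.sum_mul_sq_le_sq_mul_sq Finset.univ (fun i => y i - 1) (fun i => z (g i) - 1)
  have h2 := sum_comp_perm z g (fun t => (t - 1) ^ 2)
  rw [h2] at h
  unfold I2
  calc ((∑ i, (y i - 1) * (z (g i) - 1)) / 4) ^ 2 =
      (∑ i, (y i - 1) * (z (g i) - 1)) ^ 2 / 16 := by ring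
    _ ≤ ((∑ i, (y i - 1) ^ 2) * ∑ i, (z i - 1) ^ 2) / 16 := by
        exact div_le_div_of_nonneg_right h (by norm_num)
    _ = _ := by ring

theorem avg_mono {F G : Equiv.Perm (Fin 4) → ℝ} (h : ∀ g, F g ≤ G g) : avg F ≤ avg G := by
  unfold avg
  exact div_le_div_of_nonneg_right (Finset.sum_le_sum fun g _ => h g) (by norm_num)

theorem relaxA (y z : Fin 4 → ℝ) (hy : Nrm y) (hz : Nrm z) (G J : ℝ → ℝ)
    (hG : ∀ g, Sg y z g * G (Sg y z g - 1) ≤ 1)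
    (hJ : ∀ g, J (Sg y z g - 1) ≤ Sg y z g * Real.log (Sg y z g)) :
    avg (fun g => G (Sg y z g - 1) * Vg y z g / 2 + J (Sg y z g - 1)) ≤
      avg (fun g => Vg y z g / (2 * Sg y z g) + Sg y z g * Real.log (Sg y z g)) := by
  apply avg_mono
  intro g
  refine add_le_add ?_ (hJ g)
  have hV := Vg_nonneg y z g
  rcases (Sg_nonneg y z hy hz g).lt_or_eq with hS | hS
  · have h1 : G (Sg y z g - 1) ≤ 1 / Sg y z g := by
      rw [le_div_iff₀ hS]; linarith [hG g]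
    have h2 := mul_le_mul_of_nonneg_right h1 hV
    calc G (Sg y z g - 1) * Vg y z g / 2 ≤ 1 / Sg y z g * Vg y z g / 2 := by linarith
      _ = Vg y z g / (2 * Sg y z g) := by field_simp
  · have h3 := Vg_le y z hy hz g
    rw [← hS] at h3
    have h4 : Vg y z g = 0 := by nlinarith
    rw [h4]; simp

theorem relaxB (y z : Fin 4 → ℝ) (hy : Nrm y) (hz : Nrm z) (G : ℝ → ℝ)
    (hG : ∀ g, Sg y z g * G (Sg y z g - 1) ≤ 1) :
    avg (fun g => Vg y z g / (3 * Sg y z g)) ≤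
      1 - avg (fun g => G (Sg y z g - 1) * (Sg y z g ^ 2 - Vg y z g / 3)) := by
  have h1 := avg_Sg y z hy hz
  have h2 : avg (fun g => Vg y z g / (3 * Sg y z g)) ≤
      avg (fun g => Sg y z g - G (Sg y z g - 1) * (Sg y z g ^ 2 - Vg y z g / 3)) := by
    apply avg_mono
    intro g
    have hV := Vg_le y z hy hz g
    rcases (Sg_nonneg y z hy hz g).lt_or_eq with hS | hS
    · have h1 : G (Sg y z g - 1) ≤ 1 / Sg y z g := by
        rw [le_div_iff₀ hS]; linarith [hG g]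
      have h2 : G (Sg y z g - 1) * (Sg y z g ^ 2 - Vg y z g / 3) ≤
          1 / Sg y z g * (Sg y z g ^ 2 - Vg y z g / 3) :=
        mul_le_mul_of_nonneg_right h1 (by linarith)
      have h3 : 1 / Sg y z g * (Sg y z g ^ 2 - Vg y z g / 3) =
          Sg y z g - Vg y z g / (3 * Sg y z g) := by field_simp
      linarith
    · have h4 := Vg_nonneg y z g
      rw [← hS] at hV
      have h5 : Vg y z g = 0 := by nlinarith
      rw [h5, ← hS]; simp
  have h3 : avg (fun g => Sg y z g - G (Sg y z g - 1) * (Sg y z g ^ 2 - Vg y z g / 3)) =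
      avg (Sg y z) - avg (fun g => G (Sg y z g - 1) * (Sg y z g ^ 2 - Vg y z g / 3)) := by
    unfold avg
    rw [Finset.sum_sub_distrib]
    ring
  rw [h3, h1] at h2
  exact h2

end Vale.Agent.Lib.P154.Q4
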