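import Vale.Agent.Lib.P154.Ineq4.CellReal
import Vale.Agent.Lib.P154.Ineq4.Relax

/-!
From the packed verification of a pair of cells to the two core inequalities.
-/

namespace Vale.Agent.Lib.P154.Q4.Net

open scoped BigOperators
open Finset

/-- a cell with its numerical data: `ρ / 16` and `q / 16` upper bounds of the radius and of the
shape parameter -/
structure CI where
  c : Cell
  p : ℕ
  z : Bool
  ρ : ℤ
  q : ℤ

def CellData (DS : ℤ) (le : ℝ → ℝ → Prop) (X : CI) (y : Fin 4 → ℝ) : Prop :=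
  ∃ δ r : ℝ, le (ent y) δ ∧ Nonempty (Rep (15 * X.p) DS (AA * BB * DS) X.c X.z (fe y δ)) ∧
    0 ≤ r ∧ r ≤ (X.ρ : ℝ) / 16 ∧ (∀ i, 1 - r ≤ y i) ∧
    I2 y ≤ ((X.ρ : ℝ) / 16) ^ 2 * ((X.q : ℝ) / 16)

/-- a pair of polynomials `g / K`, `j / K`, valid for `lo ≤ N (s - 1) ≤ hi` -/
structure Mem where
  K : ℤ
  g : List ℤ
  j : List ℤ
  N : ℤ
  lo : ℤ
  hi : ℤ

structure MemG (m : Mem) : Prop where
  K0 : 0 < m.K
  N0 : 0 < m.N
  hg : m.g.length = 6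
  hG : ∀ s : ℝ, 0 ≤ s → (m.lo : ℝ) ≤ m.N * (s - 1) → m.N * (s - 1) ≤ (m.hi : ℝ) →
    s * (evalL m.g (s - 1) / m.K) ≤ 1

structure MemJ (m : Mem) : Prop where
  hj : m.j.length = 8
  hJ : ∀ s : ℝ, 0 ≤ s → (m.lo : ℝ) ≤ m.N * (s - 1) → m.N * (s - 1) ≤ (m.hi : ℝ) →
    evalL m.j (s - 1) / m.K ≤ s * Real.log s

def sqI (a : ℤ) : ℤ := Int.mul a a

/-- the values of `S - 1` on a pair of cells are in the range of validity -/
def rangeOK (m : Mem) (X Y : CI) : Bool :=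
  (decide (Int.mul m.N (Int.mul X.ρ Y.ρ) ≤ Int.mul (-256) m.lo) ||
    (decide (m.lo ≤ 0) && decide (Int.mul (sqI (Int.mul m.N (Int.mul X.ρ Y.ρ))) (Int.mul X.q Y.q) ≤
      Int.mul 16777216 (sqI m.lo)))) &&
  decide (0 ≤ m.hi) && decide (Int.mul (sqI (Int.mul m.N (Int.mul X.ρ Y.ρ))) (Int.mul X.q Y.q) ≤
      Int.mul 16777216 (sqI m.hi)) && decide (0 ≤ X.ρ) && decide (0 ≤ Y.ρ) &&
  decide (0 ≤ X.q) && decide (0 ≤ Y.q)

theorem I2_nonneg (y : Fin 4 → ℝ) : 0 ≤ I2 y := by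
  unfold I2
  exact div_nonneg (sum_nonneg fun _ _ => sq_nonneg _) (by norm_num)

theorem range_sound {DS : ℤ} {le le' : ℝ → ℝ → Prop} {m : Mem} (hN : 0 < m.N) {X Y : CI}
    (h : rangeOK m X Y = true) {y z : Fin 4 → ℝ} (hy : Nrm y) (hz : Nrm z)
    (hX : CellData DS le X y) (hY : CellData DS le' Y z) (g : Equiv.Perm (Fin 4)) :
    (m.lo : ℝ) ≤ m.N * (Sg y z g - 1) ∧ m.N * (Sg y z g - 1) ≤ (m.hi : ℝ) := by
  unfold rangeOK at h
  simp only [Bool.and_eq_true, Bool.or_eq_true, decide_eq_true_eq, imul, sqI] at h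
  obtain ⟨⟨⟨⟨⟨⟨h1, h2⟩, h3⟩, h4⟩, h5⟩, h6⟩, h7⟩ := h
  obtain ⟨δ, r, -, -, hr0, hr1, hrm, hI⟩ := hX
  obtain ⟨δ', r', -, -, hr0', hr1', hrm', hI'⟩ := hY
  have hN' : (0 : ℝ) < m.N := by exact_mod_cast hN
  have hc := Sg_cauchy y z hy hz g
  have hl := Sg_lower y z hy hz r r' hrm hrm' g
  have hρ : (0 : ℝ) ≤ X.ρ := by exact_mod_cast h4
  have hρ' : (0 : ℝ) ≤ Y.ρ := by exact_mod_cast h5
  have hq : (0 : ℝ) ≤ X.q := by exact_mod_cast h6
  have hq' : (0 : ℝ) ≤ Y.q := by exact_mod_cast h7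
  have hII : I2 y * I2 z ≤ (((X.ρ : ℝ) / 16) ^ 2 * ((X.q : ℝ) / 16)) *
      (((Y.ρ : ℝ) / 16) ^ 2 * ((Y.q : ℝ) / 16)) :=
    mul_le_mul hI hI' (I2_nonneg z) (by positivity)
  have hsq : (m.N * (Sg y z g - 1)) ^ 2 ≤
      (m.N * (X.ρ * Y.ρ)) * (m.N * (X.ρ * Y.ρ)) * (X.q * Y.q) / 16777216 := by
    have h8 : (Sg y z g - 1) ^ 2 ≤ (((X.ρ : ℝ) / 16) ^ 2 * ((X.q : ℝ) / 16)) *
      (((Y.ρ : ℝ) / 16) ^ 2 * ((Y.q : ℝ) / 16)) := hc.trans hII
    calc (m.N * (Sg y z g - 1)) ^ 2 = (m.N : ℝ) ^ 2 * (Sg y z g - 1) ^ 2 := by ring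
      _ ≤ (m.N : ℝ) ^ 2 * ((((X.ρ : ℝ) / 16) ^ 2 * ((X.q : ℝ) / 16)) *
      (((Y.ρ : ℝ) / 16) ^ 2 * ((Y.q : ℝ) / 16))) := mul_le_mul_of_nonneg_left h8 (by positivity)
      _ = _ := by ring
  have hrr : r * r' ≤ (X.ρ / 16) * (Y.ρ / 16) := mul_le_mul hr1 hr1' hr0' (by positivity)
  constructor
  · rcases h1 with h1 | ⟨h1a, h1b⟩
    · have h1' : (m.N : ℝ) * (X.ρ * Y.ρ) ≤ -256 * m.lo := by exact_mod_cast h1
      have h9 : (m.N : ℝ) * (-(X.ρ / 16) * (Y.ρ / 16)) ≤ m.N * (Sg y z g - 1) :=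
        mul_le_mul_of_nonneg_left (by linarith) hN'.le
      nlinarith
    · have h1a' : (m.lo : ℝ) ≤ 0 := by exact_mod_cast h1a
      have h1b' : (m.N : ℝ) * (X.ρ * Y.ρ) * (m.N * (X.ρ * Y.ρ)) * (X.q * Y.q) ≤
        16777216 * (m.lo * m.lo) := by exact_mod_cast (of_decide_eq_true h1b)
      have h9 : (m.N * (Sg y z g - 1)) ^ 2 ≤ (m.lo : ℝ) ^ 2 := by
        refine hsq.trans ?_
        rw [div_le_iff₀ (by norm_num)]
        linarith
      have h10 := abs_le_abs_of_sq_le_sq h9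
      rw [abs_of_nonpos h1a'] at h10
      have := neg_abs_le (m.N * (Sg y z g - 1))
      linarith
  · have h2' : (0 : ℝ) ≤ m.hi := by exact_mod_cast h2
    have h3' : (m.N : ℝ) * (X.ρ * Y.ρ) * (m.N * (X.ρ * Y.ρ)) * (X.q * Y.q) ≤
        16777216 * (m.hi * m.hi) := by exact_mod_cast (of_decide_eq_true h3)
    have h9 : (m.N * (Sg y z g - 1)) ^ 2 ≤ (m.hi : ℝ) ^ 2 := by
      refine hsq.trans ?_
      rw [div_le_iff₀ (by norm_num)]
      linarith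
    have h10 := abs_le_abs_of_sq_le_sq h9
    rw [abs_of_nonneg h2'] at h10
    exact (le_abs_self _).trans h10
where
  abs_le_abs_of_sq_le_sq {a b : ℝ} (h : a ^ 2 ≤ b ^ 2) : |a| ≤ |b| := sq_le_sq.1 h

/-! ### averages of polynomials -/

theorem avg_add (F G : Equiv.Perm (Fin 4) → ℝ) : avg (fun g => F g + G g) = avg F + avg G := by
  unfold avg; rw [sum_add_distrib]; ring

theorem avg_mul (c : ℝ) (F : Equiv.Perm (Fin 4) → ℝ) : avg (fun g => c * F g) = c * avg F := by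
  unfold avg; rw [← mul_sum]; ring

theorem avg_sum (s : Finset ℕ) (F : ℕ → Equiv.Perm (Fin 4) → ℝ) :
    avg (fun g => ∑ k ∈ s, F k g) = ∑ k ∈ s, avg (F k) := by
  unfold avg
  rw [sum_comm, sum_div]

theorem bil_congr (T : List (ℕ × ℕ × ℚ)) (φ ψ φ' ψ' : ℕ → ℝ)
    (h : ∀ e ∈ T, φ e.1 = φ' e.1 ∧ ψ e.2.1 = ψ' e.2.1) : bil T φ ψ = bil T φ' ψ' := by
  unfold bil
  congr 1
  apply List.map_congr_left
  intro e he
  rw [(h e he).1, (h e he).2]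

theorem Rtab_idx : ∀ k, ∀ e ∈ Rtab.getD k [], e.1 ≠ 11 ∧ e.2.1 ≠ 11 := by
  have h : ∀ T ∈ Rtab, ∀ e ∈ T, e.1 ≠ 11 ∧ e.2.1 ≠ 11 := by decide
  intro k e he
  by_cases hk : k < Rtab.length
  · rw [List.getD_eq_getElem _ _ hk] at he
    exact h _ (List.getElem_mem hk) e he
  · have : Rtab.getD k [] = [] := List.getD_eq_default _ _ (by omega)
    rw [this] at he; simp at he

theorem Qtab_idx : ∀ k, ∀ e ∈ Qtab.getD k [], e.1 ≠ 11 ∧ e.2.1 ≠ 11 := by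
  have h : ∀ T ∈ Qtab, ∀ e ∈ T, e.1 ≠ 11 ∧ e.2.1 ≠ 11 := by decide
  intro k e he
  by_cases hk : k < Qtab.length
  · rw [List.getD_eq_getElem _ _ hk] at he
    exact h _ (List.getElem_mem hk) e he
  · have : Qtab.getD k [] = [] := List.getD_eq_default _ _ (by omega)
    rw [this] at he; simp at he

theorem fe_ne {y : Fin 4 → ℝ} {δ : ℝ} {f : ℕ} (h : f ≠ 11) : fe y δ f = feat y f := by
  unfold fe; rw [if_neg h]

theorem bilR_fe (k : ℕ) (y z : Fin 4 → ℝ) (δ δ' : ℝ) :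
    bil (Rtab.getD k []) (fe y δ) (fe z δ') = bil (Rtab.getD k []) (feat y) (feat z) :=
  bil_congr _ _ _ _ _ fun e he => ⟨fe_ne (Rtab_idx k e he).1, fe_ne (Rtab_idx k e he).2⟩

theorem bilQ_fe (k : ℕ) (y z : Fin 4 → ℝ) (δ δ' : ℝ) :
    bil (Qtab.getD k []) (fe y δ) (fe z δ') = bil (Qtab.getD k []) (feat y) (feat z) :=
  bil_congr _ _ _ _ _ fun e he => ⟨fe_ne (Qtab_idx k e he).1, fe_ne (Qtab_idx k e he).2⟩

theorem avg_polyR (l : List ℤ) (hl : l.length = 8) (K : ℝ) (y z : Fin 4 → ℝ) (hy : ∑ i, y i = 4)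
    (hz : ∑ i, z i = 4) : avg (fun g => evalL l (Sg y z g - 1) / K) =
      (∑ k ∈ range 8, (nth l k : ℝ) * bil (Rtab.getD k []) (feat y) (feat z)) / K := by
  have e : (fun g => evalL l (Sg y z g - 1) / K) = fun g => ∑ k ∈ range 8,
      ((nth l k : ℝ) / K) * (Sg y z g - 1) ^ k := by
    funext g
    rw [evalL_eq l _ 8 hl.le, sum_div]
    refine sum_congr rfl fun k _ => ?_
    ring
  rw [e, avg_sum, sum_div]
  refine sum_congr rfl fun k hk => ?_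
  rw [avg_mul, momR y z hy hz k (by have := mem_range.1 hk; omega)]
  ring

theorem avg_polyQ (l : List ℤ) (hl : l.length = 6) (K : ℝ) (y z : Fin 4 → ℝ) (hy : ∑ i, y i = 4)
    (hz : ∑ i, z i = 4) : avg (fun g => evalL l (Sg y z g - 1) / K * Vg y z g) =
      (∑ k ∈ range 6, (nth l k : ℝ) * bil (Qtab.getD k []) (feat y) (feat z)) / K := by
  have e : (fun g => evalL l (Sg y z g - 1) / K * Vg y z g) = fun g => ∑ k ∈ range 6,
      ((nth l k : ℝ) / K) * ((Sg y z g - 1) ^ k * Vg y z g) := by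
    funext g
    rw [evalL_eq l _ 6 hl.le, sum_div, sum_mul]
    refine sum_congr rfl fun k _ => ?_
    ring
  rw [e, avg_sum, sum_div]
  refine sum_congr rfl fun k hk => ?_
  rw [avg_mul, momQ y z hy hz k (by have := mem_range.1 hk; omega)]
  ring

/-! ### the side inequality -/

/-- coefficients of the generators `GA` -/
def gaA (m : Mem) : List ℤ :=
  [Int.mul 4608 (nth m.g 0), Int.mul 4608 (nth m.g 1), Int.mul 4608 (nth m.g 2),
    Int.mul 4608 (nth m.g 3), Int.mul 4608 (nth m.g 4), Int.mul 4608 (nth m.g 5),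
    Int.mul 9216 (nth m.j 0), Int.mul 9216 (nth m.j 1), Int.mul 9216 (nth m.j 2),
    Int.mul 9216 (nth m.j 3), Int.mul 9216 (nth m.j 4), Int.mul 9216 (nth m.j 5),
    Int.mul 9216 (nth m.j 6), Int.mul 9216 (nth m.j 7), Int.mul 4096 m.K, Int.mul (-27) m.K]

theorem gaA_sum (m : Mem) (φ ψ : ℕ → ℝ) :
    ∑ k ∈ range (gaA m).length, (nth (gaA m) k : ℝ) * genR GA k φ ψ =
      221184 * ((∑ k ∈ range 6, (nth m.g k : ℝ) * bil (Qtab.getD k []) φ ψ) / 2 +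
        (∑ k ∈ range 8, (nth m.j k : ℝ) * bil (Rtab.getD k []) φ ψ) + m.K * baseA φ ψ -
        m.K * (φ 1 * ψ 1) / 8192) := by
  have e : (gaA m).length = 16 := rfl
  rw [e]
  simp only [sum_range_succ, sum_range_zero, gaA, nth_cons_zero, nth_cons_succ, imul,
    GA_Q0, GA_Q1, GA_Q2, GA_Q3, GA_Q4, GA_Q5, GA_R0, GA_R1, GA_R2, GA_R3, GA_R4, GA_R5, GA_R6,
    GA_R7, GA_base, GA_slack]
  push_cast
  ring

theorem kap_bounds {y : Fin 4 → ℝ} (h : I2 y ≤ 3) : 0 ≤ kap y ∧ kap y ≤ 1 := by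
  have h0 := I2_nonneg y
  unfold kap
  constructor
  · apply pow_nonneg; linarith
  · apply pow_le_one₀ <;> linarith

theorem coreA_pair {DS : ℤ} (hDS : 0 < DS) {m : Mem} (hmG : MemG m) (hmJ : MemJ m) {X Y : CI}
    (hr : rangeOK m X Y = true) {y z : Fin 4 → ℝ} (hy : Nrm y) (hz : Nrm z)
    (hy3 : I2 y ≤ 3) (hz3 : I2 z ≤ 3)
    (hX : CellData DS (· ≤ ·) X y) (hY : CellData DS (· ≤ ·) Y z)
    (h0 : X.z = true → ∀ h, h < 12 → tm GA (gaA m) 0 h = 0)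
    (h0' : Y.z = true → ∀ f, f < 12 → tm GA (gaA m) f 0 = 0)
    (hpos : ∀ i, i < 15 * X.p → ∀ j, j < 15 * Y.p →
      0 ≤ bilI GA (gaA m) (fun f => entI DS X.c f i) (fun f => entI DS Y.c f j)) :
    kap z * zeta y + kap y * zeta z + (1 / 8192) * I2 y * I2 z ≤
      avg (fun g => Vg y z g / (2 * Sg y z g) + Sg y z g * Real.log (Sg y z g)) -
        ent y - ent z := by
  have hrg := fun g => range_sound (m := m) hmG.N0 hr hy hz hX hY g
  have hK : (0 : ℝ) < m.K := by exact_mod_cast hmG.K0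
  have hrel := relaxA y z hy hz (fun v => evalL m.g v / m.K) (fun v => evalL m.j v / m.K)
    (fun g => hmG.hG _ (Sg_nonneg y z hy hz g) (hrg g).1 (hrg g).2)
    (fun g => hmJ.hJ _ (Sg_nonneg y z hy hz g) (hrg g).1 (hrg g).2)
  have e1 : avg (fun g => (fun v => evalL m.g v / (m.K : ℝ)) (Sg y z g - 1) * Vg y z g / 2 +
      (fun v => evalL m.j v / (m.K : ℝ)) (Sg y z g - 1)) =
      (∑ k ∈ range 6, (nth m.g k : ℝ) * bil (Qtab.getD k []) (feat y) (feat z)) / m.K / 2 +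
      (∑ k ∈ range 8, (nth m.j k : ℝ) * bil (Rtab.getD k []) (feat y) (feat z)) / m.K := by
    rw [avg_add (fun g => (fun v => evalL m.g v / (m.K : ℝ)) (Sg y z g - 1) * Vg y z g / 2)
      (fun g => (fun v => evalL m.j v / (m.K : ℝ)) (Sg y z g - 1))]
    rw [avg_polyR m.j hmJ.hj _ y z hy.2 hz.2]
    congr 1
    rw [← avg_polyQ m.g hmG.hg _ y z hy.2 hz.2]
    have : (fun g => (fun v => evalL m.g v / (m.K : ℝ)) (Sg y z g - 1) * Vg y z g / 2) =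
      fun g => (1 / 2 : ℝ) * (evalL m.g (Sg y z g - 1) / (m.K : ℝ) * Vg y z g) := by
      funext g; ring
    rw [this, avg_mul]
    ring
  rw [e1] at hrel
  obtain ⟨δ, r, hδ, ⟨RX⟩, -⟩ := hX
  obtain ⟨δ', r', hδ', ⟨RY⟩, -⟩ := hY
  have hDS' : (0 : ℝ) < DS := by exact_mod_cast hDS
  have hs : 0 < AA * BB * DS := by
    unfold AA BB; positivity
  have hb := bilT_nonneg hs RX RY GA_idx (gaA m) h0 h0' hpos
  rw [bilT_gen GA_idx, gaA_sum] at hb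
  simp only [bilQ_fe, bilR_fe] at hb
  have f0 : fe y δ 0 = 1 := rfl
  have f0' : fe z δ' 0 = 1 := rfl
  have f1 : fe y δ 1 = I2 y := rfl
  have f1' : fe z δ' 1 = I2 z := rfl
  have f3 : fe y δ 3 = I2 y ^ 2 := rfl
  have f3' : fe z δ' 3 = I2 z ^ 2 := rfl
  have f6 : fe y δ 6 = I2 y ^ 3 := rfl
  have f6' : fe z δ' 6 = I2 z ^ 3 := rfl
  have f11 : fe y δ 11 = δ := rfl
  have f11' : fe z δ' 11 = δ' := rfl
  have kb := kap_bounds hy3
  have kb' := kap_bounds hz3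
  have ek : kap y = 1 - I2 y + I2 y ^ 2 / 3 - I2 y ^ 3 / 27 := by unfold kap; ring
  have ek' : kap z = 1 - I2 z + I2 z ^ 2 / 3 - I2 z ^ 3 / 27 := by unfold kap; ring
  have eb : baseA (fe y δ) (fe z δ') = -(δ * (1 - kap z)) - δ' * (1 - kap y) -
      kap y * I2 z / 2 - kap z * I2 y / 2 := by
    unfold baseA
    rw [f0, f0', f1, f1', f3, f3', f6, f6', f11, f11', ek, ek']
  rw [eb, f1, f1'] at hb
  set A := ∑ k ∈ range 6, (nth m.g k : ℝ) * bil (Qtab.getD k []) (feat y) (feat z) with hA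
  set B := ∑ k ∈ range 8, (nth m.j k : ℝ) * bil (Rtab.getD k []) (feat y) (feat z) with hB
  have hb2 : 0 ≤ m.K * (A / m.K / 2 + B / m.K + (-(δ * (1 - kap z)) - δ' * (1 - kap y) -
      kap y * I2 z / 2 - kap z * I2 y / 2) - I2 y * I2 z / 8192) := by
    have : m.K * (A / m.K / 2 + B / m.K + (-(δ * (1 - kap z)) - δ' * (1 - kap y) -
      kap y * I2 z / 2 - kap z * I2 y / 2) - I2 y * I2 z / 8192) =
      A / 2 + B + m.K * (-(δ * (1 - kap z)) - δ' * (1 - kap y) -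
      kap y * I2 z / 2 - kap z * I2 y / 2) - m.K * (I2 y * I2 z) / 8192 := by
      field_simp
    rw [this]
    linarith
  have hb3 := nonneg_of_mul_nonneg_right hb2 hK
  have h5 : (ent y) * (1 - kap z) ≤ δ * (1 - kap z) :=
    mul_le_mul_of_nonneg_right hδ (by linarith [kb'.2])
  have h6 : (ent z) * (1 - kap y) ≤ δ' * (1 - kap y) :=
    mul_le_mul_of_nonneg_right hδ' (by linarith [kb.2])
  unfold zeta
  nlinarith

/-! ### the main inequality -/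

/-- coefficients of the generators `GB`; flags of the correction terms -/
def gaB (m : Mem) (f33 f43a f43b f43c : ℕ) : List ℤ :=
  [nth m.g 0, nth m.g 1, nth m.g 2, nth m.g 3, nth m.g 4, nth m.g 5, Int.mul 8 m.K,
    Int.mul (Int.mul (-4) m.K) f33, Int.mul (Int.mul (-8) (Int.tdiv m.K 45)) f43a,
    Int.mul (Int.mul (-8) (Int.tdiv m.K 45)) f43b, Int.mul (Int.mul (-8) (Int.tdiv m.K 3)) f43c]

theorem gaB_sum (m : Mem) (f33 f43a f43b f43c : ℕ) (φ ψ : ℕ → ℝ) :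
    ∑ k ∈ range (gaB m f33 f43a f43b f43c).length,
      (nth (gaB m f33 f43a f43b f43c) k : ℝ) * genR GB k φ ψ =
      72 * ((∑ k ∈ range 6, (nth m.g k : ℝ) * (bil (Rtab.getD k []) φ ψ +
        2 * bil (Rtab.getD (k + 1) []) φ ψ + bil (Rtab.getD (k + 2) []) φ ψ -
          bil (Qtab.getD k []) φ ψ / 3)) + m.K * baseB φ ψ) -
        8 * m.K * f33 * n33 φ ψ - 240 * (Int.tdiv m.K 45 : ℤ) * f43a * n43 (3 / 5) φ ψ -
        240 * (Int.tdiv m.K 45 : ℤ) * f43b * n43 (3 / 5) ψ φ -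
        16 * (Int.tdiv m.K 3 : ℤ) * f43c * n43 (1 / 2) φ ψ := by
  have e : (gaB m f33 f43a f43b f43c).length = 11 := rfl
  rw [e]
  simp only [sum_range_succ, sum_range_zero, gaB, nth_cons_zero, nth_cons_succ, imul,
    GB_0, GB_1, GB_2, GB_3, GB_4, GB_5, GB_base, GB_33, GB_43a, GB_43b, GB_43c]
  push_cast
  ring

/-- `9 I3² ≤ I2 · (I2² - I4) / 2` -/
theorem I3_bound (y : Fin 4 → ℝ) (hy : ∑ i, y i = 4) :
    0 ≤ (I2 y ^ 2 - I4 y) / 2 ∧ 9 * I3 y ^ 2 ≤ I2 y * ((I2 y ^ 2 - I4 y) / 2) := by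
  obtain ⟨p, q, r, rfl⟩ := exists_vc y hy
  rw [I2_vc, I3_vc, I4_vc]
  have e : ((p ^ 2 + q ^ 2 + r ^ 2) ^ 2 - (p ^ 4 + q ^ 4 + r ^ 4)) / 2 =
      p ^ 2 * q ^ 2 + p ^ 2 * r ^ 2 + q ^ 2 * r ^ 2 := by ring
  rw [e]
  constructor
  · positivity
  · nlinarith [mul_nonneg (sq_nonneg p) (sq_nonneg (q ^ 2 - r ^ 2)), sq_nonneg (p * (q ^ 2 - r ^ 2)),
      sq_nonneg (q * (p ^ 2 - r ^ 2)), sq_nonneg (r * (p ^ 2 - q ^ 2))]

theorem n33_nonneg (y z : Fin 4 → ℝ) (hy : ∑ i, y i = 4) (hz : ∑ i, z i = 4) (δ δ' : ℝ) :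
    0 ≤ n33 (fe y δ) (fe z δ') := by
  have e : n33 (fe y δ) (fe z δ') = I2 y * ((I2 z ^ 2 - I4 z) / 2) +
      I2 z * ((I2 y ^ 2 - I4 y) / 2) - 18 * I3 y * I3 z := rfl
  rw [e]
  obtain ⟨a1, a2⟩ := I3_bound y hy
  obtain ⟨b1, b2⟩ := I3_bound z hz
  have hy2 := I2_nonneg y
  have hz2 := I2_nonneg z
  set E := (I2 y ^ 2 - I4 y) / 2
  set E' := (I2 z ^ 2 - I4 z) / 2
  -- (XE' + X'E)^2 ≥ 4 XE'X'E ≥ 324 s²s'²
  have h1 : (18 * I3 y * I3 z) ^ 2 ≤ (I2 y * E' + I2 z * E) ^ 2 := by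
    have h2 : (9 * I3 y ^ 2) * (9 * I3 z ^ 2) ≤ (I2 y * E) * (I2 z * E') :=
      mul_le_mul a2 b2 (by positivity) (by positivity)
    nlinarith [sq_nonneg (I2 y * E' - I2 z * E)]
  have h3 : 0 ≤ I2 y * E' + I2 z * E := by positivity
  have h4 := abs_le.1 (abs_le_of_sq_le_sq h1 h3)
  linarith [h4.2]

theorem n43_nonneg (θ : ℝ) (hθ : 0 < θ) (y z : Fin 4 → ℝ) (hz : ∑ i, z i = 4) (δ δ' : ℝ) :
    0 ≤ n43 θ (fe y δ) (fe z δ') := by
  have e : n43 θ (fe y δ) (fe z δ') = θ * I2 y ^ 3 * I2 z +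
      θ⁻¹ * I2 y * ((I2 z ^ 2 - I4 z) / 2) + 6 * I2 y ^ 2 * I3 z := rfl
  rw [e]
  obtain ⟨b1, b2⟩ := I3_bound z hz
  have hy2 := I2_nonneg y
  have hz2 := I2_nonneg z
  set E' := (I2 z ^ 2 - I4 z) / 2
  have h1 : (6 * I2 y ^ 2 * I3 z) ^ 2 ≤ (θ * I2 y ^ 3 * I2 z + θ⁻¹ * I2 y * E') ^ 2 := by
    have h2 : θ * θ⁻¹ = 1 := mul_inv_cancel₀ hθ.ne'
    have h3 : (θ * I2 y ^ 3 * I2 z) * (θ⁻¹ * I2 y * E') = I2 y ^ 4 * (I2 z * E') := by
      calc (θ * I2 y ^ 3 * I2 z) * (θ⁻¹ * I2 y * E') = (θ * θ⁻¹) * (I2 y ^ 4 * (I2 z * E')) := by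
            ring
        _ = _ := by rw [h2, one_mul]
    have h4 : I2 y ^ 4 * (9 * I3 z ^ 2) ≤ I2 y ^ 4 * (I2 z * E') :=
      mul_le_mul_of_nonneg_left b2 (by positivity)
    nlinarith [sq_nonneg (θ * I2 y ^ 3 * I2 z - θ⁻¹ * I2 y * E')]
  have h3 : 0 ≤ θ * I2 y ^ 3 * I2 z + θ⁻¹ * I2 y * E' := by positivity
  have h4 := abs_le.1 (abs_le_of_sq_le_sq h1 h3)
  linarith [h4.1]

theorem eta_nonneg {y : Fin 4 → ℝ} (h : I2 y ≤ 3) (h' : I3 y ≤ 1) : 0 ≤ eta y := by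
  have h0 := I2_nonneg y
  unfold eta
  have h1 : 0 ≤ 1 - I2 y / 3 := by linarith
  have h2 : 0 ≤ 1 - I3 y := by linarith
  positivity

theorem coreB_pair {DS : ℤ} (hDS : 0 < DS) {m : Mem} (hmG : MemG m) {X Y : CI}
    (hr : rangeOK m X Y = true) (f33 f43a f43b f43c : ℕ) {y z : Fin 4 → ℝ} (hy : Nrm y)
    (hz : Nrm z) (hey : 0 ≤ eta y) (hez : 0 ≤ eta z)
    (hX : CellData DS (· ≥ ·) X y) (hY : CellData DS (· ≥ ·) Y z)
    (h0 : X.z = true → ∀ h, h < 12 → tm GB (gaB m f33 f43a f43b f43c) 0 h = 0)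
    (h0' : Y.z = true → ∀ f, f < 12 → tm GB (gaB m f33 f43a f43b f43c) f 0 = 0)
    (hpos : ∀ i, i < 15 * X.p → ∀ j, j < 15 * Y.p →
      0 ≤ bilI GB (gaB m f33 f43a f43b f43c) (fun f => entI DS X.c f i)
        (fun f => entI DS Y.c f j)) :
    avg (fun g => Vg y z g / (3 * Sg y z g)) ≤
      I2 y / 3 + I2 z / 3 - eta z * zeta y - eta y * zeta z := by
  have hrg := fun g => range_sound (m := m) hmG.N0 hr hy hz hX hY g
  have hK : (0 : ℝ) < m.K := by exact_mod_cast hmG.K0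
  have hrel := relaxB y z hy hz (fun v => evalL m.g v / m.K)
    (fun g => hmG.hG _ (Sg_nonneg y z hy hz g) (hrg g).1 (hrg g).2)
  have e1 : avg (fun g => (fun v => evalL m.g v / (m.K : ℝ)) (Sg y z g - 1) *
      (Sg y z g ^ 2 - Vg y z g / 3)) = (∑ k ∈ range 6, (nth m.g k : ℝ) *
      (bil (Rtab.getD k []) (feat y) (feat z) + 2 * bil (Rtab.getD (k + 1) []) (feat y) (feat z) +
        bil (Rtab.getD (k + 2) []) (feat y) (feat z) -
          bil (Qtab.getD k []) (feat y) (feat z) / 3)) / m.K := by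
    have e2 : (fun g => (fun v => evalL m.g v / (m.K : ℝ)) (Sg y z g - 1) *
      (Sg y z g ^ 2 - Vg y z g / 3)) = fun g => ∑ k ∈ range 6, ((nth m.g k : ℝ) / m.K) *
        ((Sg y z g - 1) ^ k + (2 * (Sg y z g - 1) ^ (k + 1) + ((Sg y z g - 1) ^ (k + 2) +
          (-1 / 3) * ((Sg y z g - 1) ^ k * Vg y z g)))) := by
      funext g
      simp only []
      rw [evalL_eq m.g _ 6 hmG.hg.le, sum_div, sum_mul]
      refine sum_congr rfl fun k _ => ?_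
      ring
    rw [e2, avg_sum, sum_div]
    refine sum_congr rfl fun k hk => ?_
    have hk' := mem_range.1 hk
    rw [avg_mul, avg_add (fun g => (Sg y z g - 1) ^ k) (fun g => 2 * (Sg y z g - 1) ^ (k + 1) +
      ((Sg y z g - 1) ^ (k + 2) + (-1 / 3) * ((Sg y z g - 1) ^ k * Vg y z g))),
      avg_add (fun g => 2 * (Sg y z g - 1) ^ (k + 1)) (fun g => (Sg y z g - 1) ^ (k + 2) +
        (-1 / 3) * ((Sg y z g - 1) ^ k * Vg y z g)),
      avg_add (fun g => (Sg y z g - 1) ^ (k + 2)) (fun g => (-1 / 3) * ((Sg y z g - 1) ^ k * Vg y z g)),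
      avg_mul, avg_mul, momR y z hy.2 hz.2 k (by omega), momR y z hy.2 hz.2 (k + 1) (by omega),
      momR y z hy.2 hz.2 (k + 2) (by omega), momQ y z hy.2 hz.2 k (by omega)]
    ring
  rw [e1] at hrel
  obtain ⟨δ, r, hδ, ⟨RX⟩, -⟩ := hX
  obtain ⟨δ', r', hδ', ⟨RY⟩, -⟩ := hY
  have hDS' : (0 : ℝ) < DS := by exact_mod_cast hDS
  have hs : 0 < AA * BB * DS := by
    unfold AA BB; positivity
  have hb := bilT_nonneg hs RX RY GB_idx (gaB m f33 f43a f43b f43c) h0 h0' hpos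
  rw [bilT_gen GB_idx, gaB_sum] at hb
  simp only [bilQ_fe, bilR_fe] at hb
  have n1 := n33_nonneg y z hy.2 hz.2 δ δ'
  have n2 := n43_nonneg (3 / 5) (by norm_num) y z hz.2 δ δ'
  have n3 := n43_nonneg (3 / 5) (by norm_num) z y hy.2 δ' δ
  have n4 := n43_nonneg (1 / 2) (by norm_num) y z hz.2 δ δ'
  have k1 : (0 : ℝ) ≤ (Int.tdiv m.K 45 : ℤ) := by
    exact_mod_cast Int.tdiv_nonneg hmG.K0.le (by norm_num)
  have k2 : (0 : ℝ) ≤ (Int.tdiv m.K 3 : ℤ) := by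
    exact_mod_cast Int.tdiv_nonneg hmG.K0.le (by norm_num)
  have m1 : 0 ≤ 8 * (m.K : ℝ) * f33 * n33 (fe y δ) (fe z δ') := by positivity
  have m2 : 0 ≤ 240 * ((Int.tdiv m.K 45 : ℤ) : ℝ) * f43a * n43 (3 / 5) (fe y δ) (fe z δ') := by
    positivity
  have m3 : 0 ≤ 240 * ((Int.tdiv m.K 45 : ℤ) : ℝ) * f43b * n43 (3 / 5) (fe z δ') (fe y δ) := by
    positivity
  have m4 : 0 ≤ 16 * ((Int.tdiv m.K 3 : ℤ) : ℝ) * f43c * n43 (1 / 2) (fe y δ) (fe z δ') := by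
    positivity
  have eh : etaF (fe y δ) = eta y := by
    have : etaF (fe y δ) = (4 / 3) * (I2 y - I2 y ^ 2 / 3 - I2 y * I3 y + I2 y ^ 2 * I3 y / 3) := rfl
    rw [this]; unfold eta; ring
  have eh' : etaF (fe z δ') = eta z := by
    have : etaF (fe z δ') = (4 / 3) * (I2 z - I2 z ^ 2 / 3 - I2 z * I3 z + I2 z ^ 2 * I3 z / 3) := rfl
    rw [this]; unfold eta; ring
  have f0 : fe y δ 0 = 1 := rfl
  have f0' : fe z δ' 0 = 1 := rfl
  have f1 : fe y δ 1 = I2 y := rfl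
  have f1' : fe z δ' 1 = I2 z := rfl
  have f11 : fe y δ 11 = δ := rfl
  have f11' : fe z δ' 11 = δ' := rfl
  have eb : baseB (fe y δ) (fe z δ') = -1 + I2 y / 3 + I2 z / 3 - eta y * (I2 z / 2 - δ') -
      eta z * (I2 y / 2 - δ) := by
    unfold baseB
    rw [f0, f0', f1, f1', f11, f11', eh, eh']
    ring
  rw [eb] at hb
  set A := ∑ k ∈ range 6, (nth m.g k : ℝ) *
      (bil (Rtab.getD k []) (feat y) (feat z) + 2 * bil (Rtab.getD (k + 1) []) (feat y) (feat z) +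
        bil (Rtab.getD (k + 2) []) (feat y) (feat z) -
          bil (Qtab.getD k []) (feat y) (feat z) / 3) with hA
  have hb2 : 0 ≤ m.K * (A / m.K + (-1 + I2 y / 3 + I2 z / 3 - eta y * (I2 z / 2 - δ') -
      eta z * (I2 y / 2 - δ))) := by
    have : m.K * (A / m.K + (-1 + I2 y / 3 + I2 z / 3 - eta y * (I2 z / 2 - δ') -
      eta z * (I2 y / 2 - δ))) = A + m.K * (-1 + I2 y / 3 + I2 z / 3 - eta y * (I2 z / 2 - δ') -
      eta z * (I2 y / 2 - δ)) := by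
      field_simp
    rw [this]
    linarith
  have hb3 := nonneg_of_mul_nonneg_right hb2 hK
  have h5 : eta z * δ ≤ eta z * ent y := mul_le_mul_of_nonneg_left hδ hez
  have h6 : eta y * δ' ≤ eta y * ent z := mul_le_mul_of_nonneg_left hδ' hey
  unfold zeta
  nlinarith

end Vale.Agent.Lib.P154.Q4.Net
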