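import Vale.Agent.Lib.P154.Ineq4.GrpA

/-! kernel checks (A) -/

namespace Vale.Agent.Lib.P154.Q4.Net

set_option maxRecDepth 100000
set_option linter.defProp false

def pA2 : allGrpA xA2 gA2 = true := by decide +kernel
def pA3 : allGrpA xA3 gA3 = true := by decide +kernel
def pA12 : allGrpA xA8 gA12 = true := by decide +kernel
def pA21 : allGrpA xA11 gA21 = true := by decide +kernel
def pA28 : allGrpA xA13 gA28 = true := by decide +kernel
def pA36 : allGrpA xA15 gA36 = true := by decide +kernel
def pA42 : allGrpA xA16 gA42 = true := by decide +kernel
def pA49 : allGrpA xA17 gA49 = true := by decide +kernel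
def pA50 : allGrpA xA18 gA50 = true := by decide +kernel
def pA57 : allGrpA xA19 gA57 = true := by decide +kernel
def pA63 : allGrpA xA20 gA63 = true := by decide +kernel
def pA70 : allGrpA xA21 gA70 = true := by decide +kernel
def pA78 : allGrpA xA23 gA78 = true := by decide +kernel
def pA84 : allGrpA xA24 gA84 = true := by decide +kernel
def pA91 : allGrpA xA25 gA91 = true := by decide +kernel
def pA98 : allGrpA xA26 gA98 = true := by decide +kernel
def pA104 : allGrpA xA26 gA104 = true := by decide +kernel
def pA105 : allGrpA xA27 gA105 = true := by decide +kernel
def pA111 : allGrpA xA27 gA111 = true := by decide +kernel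
def pA117 : allGrpA xA28 gA117 = true := by decide +kernel
def pA124 : allGrpA xA29 gA124 = true := by decide +kernel
def pA131 : allGrpA xA30 gA131 = true := by decide +kernel
def pA138 : allGrpA xA31 gA138 = true := by decide +kernel
def pA144 : allGrpA xA32 gA144 = true := by decide +kernel
def pA150 : allGrpA xA32 gA150 = true := by decide +kernel
def pA152 : allGrpA xA32 gA152 = true := by decide +kernel
def pA157 : allGrpA xA33 gA157 = true := by decide +kernel
def pA164 : allGrpA xA34 gA164 = true := by decide +kernel
def pA171 : allGrpA xA35 gA171 = true := by decide +kernel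
def pA177 : allGrpA xA35 gA177 = true := by decide +kernel
def pA183 : allGrpA xA36 gA183 = true := by decide +kernel
def pA190 : allGrpA xA37 gA190 = true := by decide +kernel
def pA196 : allGrpA xA37 gA196 = true := by decide +kernel
def pA203 : allGrpA xA38 gA203 = true := by decide +kernel
def pA210 : allGrpA xA39 gA210 = true := by decide +kernel
def pA216 : allGrpA xA39 gA216 = true := by decide +kernel
def pA222 : allGrpA xA40 gA222 = true := by decide +kernel
def pA228 : allGrpA xA40 gA228 = true := by decide +kernel
def pA235 : allGrpA xA41 gA235 = true := by decide +kernel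
def pA241 : allGrpA xA41 gA241 = true := by decide +kernel

end Vale.Agent.Lib.P154.Q4.Net
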