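import Vale.Agent.Lib.P154.Ineq4.Close4
import Vale.Agent.Lib.P154.Ineq4.CoreFinal

/-!
The second order potential of the four-state ferromagnetic Potts channel.
-/

namespace Vale.Agent.Lib.P154.Q4

open scoped BigOperators

theorem nrm_div {W : Fin 4 → ℝ} (hW : ∀ i, 0 ≤ W i) (hm : 0 < mean 4 W) :
    Nrm (fun i => W i / mean 4 W) := by
  refine ⟨fun i => div_nonneg (hW i) hm.le, ?_⟩
  rw [← Finset.sum_div, div_eq_iff hm.ne']
  unfold mean
  push_cast
  ring

theorem mean_nonneg' {W : Fin 4 → ℝ} (hW : ∀ i, 0 ≤ W i) : 0 ≤ mean 4 W :=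
  div_nonneg (Finset.sum_nonneg fun i _ => hW i) (Nat.cast_nonneg _)

theorem eq_zero_of_mean {W : Fin 4 → ℝ} (hW : ∀ i, 0 ≤ W i) (hm : mean 4 W = 0) (i : Fin 4) :
    W i = 0 := by
  unfold mean at hm
  have h2 : ∑ i, W i = 0 := by
    push_cast at hm
    linarith
  exact (Finset.sum_eq_zero_iff_of_nonneg fun j _ => hW j).1 h2 i (Finset.mem_univ i)

theorem hat_zero {F : (Fin 4 → ℝ) → ℝ} {W : Fin 4 → ℝ} (hm : mean 4 W = 0) : hat F W = 0 := by
  unfold hat; rw [hm]; simp

theorem starAvg_zero_left {F : (Fin 4 → ℝ) → ℝ} {W W' : Fin 4 → ℝ} (hW : ∀ i, 0 ≤ W i)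
    (hm : mean 4 W = 0) : starAvg 4 (hat F) W W' = 0 := by
  unfold starAvg
  have : ∀ g : Equiv.Perm (Fin 4), hat F (fun i => W i * W' (g i)) = 0 := by
    intro g
    apply hat_zero
    unfold mean
    simp [eq_zero_of_mean hW hm]
  simp [this]

theorem starAvg_zero_right {F : (Fin 4 → ℝ) → ℝ} {W W' : Fin 4 → ℝ} (hW : ∀ i, 0 ≤ W' i)
    (hm : mean 4 W' = 0) : starAvg 4 (hat F) W W' = 0 := by
  unfold starAvg
  have : ∀ g : Equiv.Perm (Fin 4), hat F (fun i => W i * W' (g i)) = 0 := by
    intro g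
    apply hat_zero
    unfold mean
    simp [eq_zero_of_mean hW hm]
  simp [this]

theorem mean_chan (lam : ℝ) (W : Fin 4 → ℝ) : mean 4 (chan 4 lam W) = mean 4 W := by
  unfold mean chan potts
  simp only [Fin.sum_univ_four]
  simp
  ring

theorem chan_div (lam : ℝ) {W : Fin 4 → ℝ} (hm : 0 < mean 4 W) :
    (fun i => chan 4 lam W i / mean 4 (chan 4 lam W)) =
      fun i => 1 + lam * (W i / mean 4 W - 1) := by
  rw [mean_chan]
  funext i
  have e : chan 4 lam W i = lam * W i + (1 - lam) * mean 4 W := by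
    unfold chan potts mean
    simp only [Fin.sum_univ_four]
    fin_cases i <;> simp <;> ring
  rw [e]
  field_simp
  ring

theorem zeta_psi {y : Fin 4 → ℝ} (hy : Nrm y) : zeta y = (∑ i, psi (y i - 1)) / 4 := by
  unfold zeta I2 ent psi
  have h := hy.2
  have e : ∀ i, (y i - 1) ^ 2 / 2 + (y i - 1) - (1 + (y i - 1)) * Real.log (1 + (y i - 1)) =
      (y i - 1) ^ 2 / 2 + (y i - 1) - y i * Real.log (y i) := by
    intro i
    rw [show 1 + (y i - 1) = y i by ring]
  simp only [e]
  rw [Finset.sum_sub_distrib, Finset.sum_add_distrib, ← Finset.sum_div, Finset.sum_sub_distrib, h]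
  simp
  ring

theorem nrm_scale {y : Fin 4 → ℝ} (hy : Nrm y) {r : ℝ} (h0 : 0 ≤ r) (h1 : r ≤ 1) :
    Nrm (fun i => 1 + r * (y i - 1)) := by
  refine ⟨fun i => ?_, ?_⟩
  · have := mul_nonneg h0 (hy.1 i)
    linarith
  · rw [Finset.sum_add_distrib, ← Finset.mul_sum, Finset.sum_sub_distrib, hy.2]
    simp

theorem I2_scale (y : Fin 4 → ℝ) (r : ℝ) : I2 (fun i => 1 + r * (y i - 1)) = r ^ 2 * I2 y := by
  unfold I2
  simp only [Fin.sum_univ_four]
  ring

theorem I3_scale (y : Fin 4 → ℝ) (r : ℝ) : I3 (fun i => 1 + r * (y i - 1)) = r ^ 3 * I3 y := by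
  unfold I3
  simp only [Fin.sum_univ_four]
  ring

theorem zeta_scale {y : Fin 4 → ℝ} (hy : Nrm y) {r : ℝ} (h0 : 0 ≤ r) (h1 : r ≤ 1) :
    r ^ 3 * zeta y ≤ zeta (fun i => 1 + r * (y i - 1)) := by
  rw [zeta_psi hy, zeta_psi (nrm_scale hy h0 h1)]
  have h : ∑ i, r ^ 3 * psi (y i - 1) ≤ ∑ i, psi (1 + r * (y i - 1) - 1) := by
    refine Finset.sum_le_sum fun i _ => ?_
    rw [show 1 + r * (y i - 1) - 1 = r * (y i - 1) by ring]
    exact psi_scale _ _ (by linarith [hy.1 i]) h0 h1
  rw [← Finset.mul_sum] at h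
  linarith

theorem sum_leaf (j : Fin 4) (F : ℝ → ℝ) :
    ∑ i, F ((if j = i then (1 : ℝ) else 0) / (1 / 4)) = F 4 + 3 * F 0 := by
  rw [← Finset.add_sum_erase _ _ (Finset.mem_univ j)]
  have e : ∑ i ∈ Finset.univ.erase j, F ((if j = i then (1 : ℝ) else 0) / (1 / 4)) =
      ∑ i ∈ Finset.univ.erase j, F 0 := by
    refine Finset.sum_congr rfl fun i hi => ?_
    rw [if_neg (Finset.ne_of_mem_erase hi).symm, zero_div]
  rw [e, Finset.sum_const, Finset.card_erase_of_mem (Finset.mem_univ j)]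
  simp

theorem log4 : Real.log 4 = 2 * Real.log 2 := by
  rw [show (4 : ℝ) = 2 ^ 2 by norm_num, Real.log_pow]
  norm_num

theorem hat_one {F : (Fin 4 → ℝ) → ℝ} (h : F (fun _ => 1) = 0) : hat F (fun _ => 1) = 0 := by
  unfold hat
  have e : mean 4 (fun _ => 1) = 1 := by unfold mean; simp
  rw [e]
  simp [h]

theorem sum_abs_sq (W : Fin 4 → ℝ) (m : ℝ) :
    (∑ i, |W i - m|) ^ 2 ≤ 4 * ∑ i, (W i - m) ^ 2 := by
  have h := @sq_sum_le_card_mul_sum_sq (Fin 4) ℝ _ _ _ _ Finset.univ (fun i => |W i - m|)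
  simpa using h

/-- the potential -/
noncomputable def pot4 (lam : ℝ) (h0 : 0 ≤ lam) (h1 : lam < 1) : Pot2 4 lam where
  P := hat (fun y => I2 y / 3)
  Z := hat zeta
  K := hat kap
  H := hat eta
  c := 9 / 8192
  h0 := min (4 * (1 - lam ^ 2) * (1 - lam ^ 3)) ((1 - lam ^ 2) ^ 3)
  C := 48
  c_pos := by norm_num
  h0_pos := by
    have a2 : lam ^ 2 < 1 := by nlinarith
    have a3 : lam ^ 3 < 1 := by nlinarith
    apply lt_min
    · have : 0 < 1 - lam ^ 2 := by linarith
      have : 0 < 1 - lam ^ 3 := by linarith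
      positivity
    · have : 0 < 1 - lam ^ 2 := by linarith
      positivity
  P_nonneg := by
    intro W hW
    unfold hat
    exact mul_nonneg (mean_nonneg' hW) (div_nonneg (Net.I2_nonneg _) (by norm_num))
  P_le := by
    intro W hW
    rcases (mean_nonneg' hW).lt_or_eq with hm | hm
    · have := I2_le (nrm_div hW hm)
      unfold hat
      calc mean 4 W * (I2 (fun i => W i / mean 4 W) / 3) ≤ mean 4 W * 1 :=
            mul_le_mul_of_nonneg_left (by linarith) hm.le
        _ = mean 4 W := mul_one _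
    · rw [hat_zero hm.symm, ← hm]
  K_nonneg := by
    intro W hW
    rcases (mean_nonneg' hW).lt_or_eq with hm | hm
    · exact mul_nonneg hm.le (Net.kap_bounds (I2_le (nrm_div hW hm))).1
    · rw [hat_zero hm.symm]
  H_nonneg := by
    intro W hW
    rcases (mean_nonneg' hW).lt_or_eq with hm | hm
    · exact mul_nonneg hm.le (Net.eta_nonneg (I2_le (nrm_div hW hm)) (I3_le (nrm_div hW hm)))
    · rw [hat_zero hm.symm]
  starZ := by
    intro W W' hW hW'
    rcases (mean_nonneg' hW).lt_or_eq with hm | hm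
    · rcases (mean_nonneg' hW').lt_or_eq with hm' | hm'
      · rw [starAvg_hat zeta W W' hm hm']
        have hc := coreA_all _ _ (nrm_div hW hm) (nrm_div hW' hm')
        have hs := star_zeta _ _ (nrm_div hW hm) (nrm_div hW' hm')
        rw [← hs] at hc
        have h2 := mul_le_mul_of_nonneg_left hc (mul_nonneg hm.le hm'.le)
        refine le_trans (le_of_eq ?_) h2
        unfold hat
        ring
      · rw [starAvg_zero_right hW' hm'.symm, hat_zero hm'.symm, hat_zero hm'.symm,
          hat_zero hm'.symm]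
        simp
    · rw [starAvg_zero_left hW hm.symm, hat_zero hm.symm, hat_zero hm.symm, hat_zero hm.symm]
      simp
  starP := by
    intro W W' hW hW'
    rcases (mean_nonneg' hW).lt_or_eq with hm | hm
    · rcases (mean_nonneg' hW').lt_or_eq with hm' | hm'
      · rw [starAvg_hat (fun y => I2 y / 3) W W' hm hm']
        have hc := coreB_all _ _ (nrm_div hW hm) (nrm_div hW' hm')
        have hs : avg (fun g => Sg (fun i => W i / mean 4 W) (fun i => W' i / mean 4 W') g *
            (I2 (fun i => (W i / mean 4 W) * (W' (g i) / mean 4 W') /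
              Sg (fun i => W i / mean 4 W) (fun i => W' i / mean 4 W') g) / 3)) =
            avg (fun g => Vg (fun i => W i / mean 4 W) (fun i => W' i / mean 4 W') g /
              (3 * Sg (fun i => W i / mean 4 W) (fun i => W' i / mean 4 W') g)) := by
          unfold avg
          congr 1
          refine Finset.sum_congr rfl fun g _ => ?_
          exact star_I2 _ _ (nrm_div hW hm) (nrm_div hW' hm') g
        rw [← hs] at hc
        have h2 := mul_le_mul_of_nonneg_left hc (mul_nonneg hm.le hm'.le)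
        refine le_trans h2 (le_of_eq ?_)
        unfold hat
        ring
      · rw [starAvg_zero_right hW' hm'.symm, hat_zero hm'.symm, hat_zero hm'.symm,
          hat_zero hm'.symm, ← hm']
        simp
    · rw [starAvg_zero_left hW hm.symm, hat_zero hm.symm, hat_zero hm.symm, hat_zero hm.symm, ← hm]
      simp
  chanP := by
    intro W hW
    rcases (mean_nonneg' hW).lt_or_eq with hm | hm
    · unfold hat
      beta_reduce
      rw [chan_div lam hm, mean_chan, I2_scale]
      ring
    · rw [hat_zero hm.symm, hat_zero (by rw [mean_chan]; exact hm.symm)]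
      simp
  chanZ := by
    intro W hW
    rcases (mean_nonneg' hW).lt_or_eq with hm | hm
    · unfold hat
      rw [chan_div lam hm, mean_chan]
      have h := zeta_scale (nrm_div hW hm) h0 h1.le
      have h2 := mul_le_mul_of_nonneg_left h hm.le
      linarith
    · rw [hat_zero hm.symm, hat_zero (by rw [mean_chan]; exact hm.symm)]
      simp
  H_chan := by
    intro W hW
    rcases (mean_nonneg' hW).lt_or_eq with hm | hm
    · unfold hat
      beta_reduce
      rw [chan_div lam hm, mean_chan, I2_scale]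
      have hN := nrm_div hW hm
      have b2 := I2_le hN
      have b3 := I3_le hN
      have b0 := Net.I2_nonneg (fun i => W i / mean 4 W)
      unfold eta
      rw [I2_scale, I3_scale]
      obtain ⟨X, hX⟩ : ∃ X, X = I2 (fun i => W i / mean 4 W) := ⟨_, rfl⟩
      obtain ⟨s, hs⟩ : ∃ s, s = I3 (fun i => W i / mean 4 W) := ⟨_, rfl⟩
      rw [← hX] at b2 b0 ⊢
      rw [← hs] at b3 ⊢
      have l2 : 0 ≤ lam ^ 2 := by positivity
      have l3 : 0 ≤ lam ^ 3 := by positivity
      have a2 : lam ^ 2 < 1 := by nlinarith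
      have a3 : lam ^ 3 < 1 := by nlinarith
      have c1 : 1 - lam ^ 2 ≤ 1 - lam ^ 2 * X / 3 := by nlinarith
      have c2 : 1 - lam ^ 3 ≤ 1 - lam ^ 3 * s := by nlinarith
      have c3 : (1 - lam ^ 2) * (1 - lam ^ 3) ≤ (1 - lam ^ 2 * X / 3) * (1 - lam ^ 3 * s) :=
        mul_le_mul c1 c2 (by linarith) (by linarith)
      have c4 : min (4 * (1 - lam ^ 2) * (1 - lam ^ 3)) ((1 - lam ^ 2) ^ 3) ≤
          4 * ((1 - lam ^ 2 * X / 3) * (1 - lam ^ 3 * s)) :=
        (min_le_left _ _).trans (by linarith)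
      have c5 : 0 ≤ mean 4 W * (lam ^ 2 * X / 3) := by positivity
      calc min (4 * (1 - lam ^ 2) * (1 - lam ^ 3)) ((1 - lam ^ 2) ^ 3) *
            (mean 4 W * (lam ^ 2 * X / 3)) ≤
            4 * ((1 - lam ^ 2 * X / 3) * (1 - lam ^ 3 * s)) * (mean 4 W * (lam ^ 2 * X / 3)) :=
            mul_le_mul_of_nonneg_right c4 c5
        _ = _ := by ring
    · rw [hat_zero (by rw [mean_chan]; exact hm.symm), hat_zero (by rw [mean_chan]; exact hm.symm)]
      simp
  K_chan := by
    intro W hW
    rcases (mean_nonneg' hW).lt_or_eq with hm | hm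
    · unfold hat
      rw [chan_div lam hm, mean_chan]
      have hN := nrm_div hW hm
      have b2 := I2_le hN
      unfold kap
      rw [I2_scale]
      obtain ⟨X, hX⟩ : ∃ X, X = I2 (fun i => W i / mean 4 W) := ⟨_, rfl⟩
      rw [← hX] at b2 ⊢
      have l2 : 0 ≤ lam ^ 2 := by positivity
      have a2 : lam ^ 2 < 1 := by nlinarith
      have c1 : 1 - lam ^ 2 ≤ 1 - lam ^ 2 * X / 3 := by nlinarith
      have c3 : (1 - lam ^ 2) ^ 3 ≤ (1 - lam ^ 2 * X / 3) ^ 3 :=
        pow_le_pow_left₀ (by linarith) c1 3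
      have c4 := (min_le_right (4 * (1 - lam ^ 2) * (1 - lam ^ 3)) ((1 - lam ^ 2) ^ 3)).trans c3
      calc min (4 * (1 - lam ^ 2) * (1 - lam ^ 3)) ((1 - lam ^ 2) ^ 3) * mean 4 W ≤
            (1 - lam ^ 2 * X / 3) ^ 3 * mean 4 W := mul_le_mul_of_nonneg_right c4 hm.le
        _ = _ := by ring
    · rw [hat_zero (by rw [mean_chan]; exact hm.symm), ← hm]
      simp
  leafZ := by
    intro j
    have hm : mean 4 (fun i => if j = i then (1 : ℝ) else 0) = 1 / 4 := by
      unfold mean; simp
    unfold hat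
    rw [hm]
    have hl := log2_bounds.2
    have hz : zeta (fun i => (if j = i then (1 : ℝ) else 0) / (1 / 4)) = 3 / 2 - Real.log 4 := by
      unfold zeta I2 ent
      rw [sum_leaf j (fun t => (t - 1) ^ 2), sum_leaf j (fun t => t * Real.log t)]
      norm_num
    rw [hz, log4]
    have : 0 ≤ 3 / 2 - 2 * Real.log 2 := by
      norm_num at hl
      linarith
    positivity
  P_one := hat_one (by simp [I2])
  Z_one := hat_one (by simp [zeta, I2, ent])
  tv := by
    intro W hW
    rcases (mean_nonneg' hW).lt_or_eq with hm | hm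
    · have h1 := sum_abs_sq W (mean 4 W)
      refine h1.trans (le_of_eq ?_)
      unfold hat I2
      simp only [Fin.sum_univ_four]
      field_simp
      ring
    · have : ∀ i, W i = 0 := eq_zero_of_mean hW hm.symm
      rw [← hm]
      simp [this]

end Vale.Agent.Lib.P154.Q4
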