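import Vale.Agent.Lib.P154.Ineq4.SliceBase
import Vale.Agent.Lib.P154.Ineq4.DatA

/-!
Bernstein nets of the shape features (A).
-/

namespace Vale.Agent.Lib.P154.Q4.Net

open scoped BigOperators
open Finset

theorem SA0_n0 (t l : ℝ) : BB * Xf ((1 / 3 : ℝ) + (11 / 48 : ℝ) * t)
    ((1 - l) * ((-1 / 27 : ℝ) + (11 / 432 : ℝ) * t + (-121 / 27648 : ℝ) * t ^ 2) + l * ((-1 / 27 : ℝ) + (391 / 6912 : ℝ) * t)) 0 =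
    ∑ j ∈ range 15, sw t l j * (nth (nthL SA0 0) j : ℝ) := by
  rw [sum_sw]
  simp only [SA0, nthL, nth, Xf, BB]
  push_cast
  ring

theorem SA0_n1 (t l : ℝ) : BB * Xf ((1 / 3 : ℝ) + (11 / 48 : ℝ) * t)
    ((1 - l) * ((-1 / 27 : ℝ) + (11 / 432 : ℝ) * t + (-121 / 27648 : ℝ) * t ^ 2) + l * ((-1 / 27 : ℝ) + (391 / 6912 : ℝ) * t)) 1 =
    ∑ j ∈ range 15, sw t l j * (nth (nthL SA0 1) j : ℝ) := by
  rw [sum_sw]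
  simp only [SA0, nthL, nth, Xf, BB]
  push_cast
  ring

theorem SA0_n2 (t l : ℝ) : BB * Xf ((1 / 3 : ℝ) + (11 / 48 : ℝ) * t)
    ((1 - l) * ((-1 / 27 : ℝ) + (11 / 432 : ℝ) * t + (-121 / 27648 : ℝ) * t ^ 2) + l * ((-1 / 27 : ℝ) + (391 / 6912 : ℝ) * t)) 2 =
    ∑ j ∈ range 15, sw t l j * (nth (nthL SA0 2) j : ℝ) := by
  rw [sum_sw]
  simp only [SA0, nthL, nth, Xf, BB]
  push_cast
  ring

theorem SA0_n3 (t l : ℝ) : BB * Xf ((1 / 3 : ℝ) + (11 / 48 : ℝ) * t)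
    ((1 - l) * ((-1 / 27 : ℝ) + (11 / 432 : ℝ) * t + (-121 / 27648 : ℝ) * t ^ 2) + l * ((-1 / 27 : ℝ) + (391 / 6912 : ℝ) * t)) 3 =
    ∑ j ∈ range 15, sw t l j * (nth (nthL SA0 3) j : ℝ) := by
  rw [sum_sw]
  simp only [SA0, nthL, nth, Xf, BB]
  push_cast
  ring

theorem SA0_n4 (t l : ℝ) : BB * Xf ((1 / 3 : ℝ) + (11 / 48 : ℝ) * t)
    ((1 - l) * ((-1 / 27 : ℝ) + (11 / 432 : ℝ) * t + (-121 / 27648 : ℝ) * t ^ 2) + l * ((-1 / 27 : ℝ) + (391 / 6912 : ℝ) * t)) 4 =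
    ∑ j ∈ range 15, sw t l j * (nth (nthL SA0 4) j : ℝ) := by
  rw [sum_sw]
  simp only [SA0, nthL, nth, Xf, BB]
  push_cast
  ring

theorem SA0_n5 (t l : ℝ) : BB * Xf ((1 / 3 : ℝ) + (11 / 48 : ℝ) * t)
    ((1 - l) * ((-1 / 27 : ℝ) + (11 / 432 : ℝ) * t + (-121 / 27648 : ℝ) * t ^ 2) + l * ((-1 / 27 : ℝ) + (391 / 6912 : ℝ) * t)) 5 =
    ∑ j ∈ range 15, sw t l j * (nth (nthL SA0 5) j : ℝ) := by
  rw [sum_sw]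
  simp only [SA0, nthL, nth, Xf, BB]
  push_cast
  ring

theorem SA0_n6 (t l : ℝ) : BB * Xf ((1 / 3 : ℝ) + (11 / 48 : ℝ) * t)
    ((1 - l) * ((-1 / 27 : ℝ) + (11 / 432 : ℝ) * t + (-121 / 27648 : ℝ) * t ^ 2) + l * ((-1 / 27 : ℝ) + (391 / 6912 : ℝ) * t)) 6 =
    ∑ j ∈ range 15, sw t l j * (nth (nthL SA0 6) j : ℝ) := by
  rw [sum_sw]
  simp only [SA0, nthL, nth, Xf, BB]
  push_cast
  ring

theorem SA0_n7 (t l : ℝ) : BB * Xf ((1 / 3 : ℝ) + (11 / 48 : ℝ) * t)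
    ((1 - l) * ((-1 / 27 : ℝ) + (11 / 432 : ℝ) * t + (-121 / 27648 : ℝ) * t ^ 2) + l * ((-1 / 27 : ℝ) + (391 / 6912 : ℝ) * t)) 7 =
    ∑ j ∈ range 15, sw t l j * (nth (nthL SA0 7) j : ℝ) := by
  rw [sum_sw]
  simp only [SA0, nthL, nth, Xf, BB]
  push_cast
  ring

theorem SA0_n8 (t l : ℝ) : BB * Xf ((1 / 3 : ℝ) + (11 / 48 : ℝ) * t)
    ((1 - l) * ((-1 / 27 : ℝ) + (11 / 432 : ℝ) * t + (-121 / 27648 : ℝ) * t ^ 2) + l * ((-1 / 27 : ℝ) + (391 / 6912 : ℝ) * t)) 8 =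
    ∑ j ∈ range 15, sw t l j * (nth (nthL SA0 8) j : ℝ) := by
  rw [sum_sw]
  simp only [SA0, nthL, nth, Xf, BB]
  push_cast
  ring

theorem SA0_n9 (t l : ℝ) : BB * Xf ((1 / 3 : ℝ) + (11 / 48 : ℝ) * t)
    ((1 - l) * ((-1 / 27 : ℝ) + (11 / 432 : ℝ) * t + (-121 / 27648 : ℝ) * t ^ 2) + l * ((-1 / 27 : ℝ) + (391 / 6912 : ℝ) * t)) 9 =
    ∑ j ∈ range 15, sw t l j * (nth (nthL SA0 9) j : ℝ) := by
  rw [sum_sw]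
  simp only [SA0, nthL, nth, Xf, BB]
  push_cast
  ring

theorem SA0_n10 (t l : ℝ) : BB * Xf ((1 / 3 : ℝ) + (11 / 48 : ℝ) * t)
    ((1 - l) * ((-1 / 27 : ℝ) + (11 / 432 : ℝ) * t + (-121 / 27648 : ℝ) * t ^ 2) + l * ((-1 / 27 : ℝ) + (391 / 6912 : ℝ) * t)) 10 =
    ∑ j ∈ range 15, sw t l j * (nth (nthL SA0 10) j : ℝ) := by
  rw [sum_sw]
  simp only [SA0, nthL, nth, Xf, BB]
  push_cast
  ring

theorem SA0_ok : SliceOK SA0 (1 / 3 : ℝ) (9 / 16 : ℝ) := by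
  intro x hs hx h0 h1
  obtain ⟨t, ht⟩ : ∃ t : ℝ, t = (xQ x - (1 / 3 : ℝ)) / (11 / 48 : ℝ) := ⟨_, rfl⟩
  have hQ : xQ x = ((1 / 3 : ℝ) + (11 / 48 : ℝ) * t) := by rw [ht]; ring
  have ht0 : 0 ≤ t := by rw [ht]; apply div_nonneg <;> linarith
  have ht1 : t ≤ 1 := by rw [ht, div_le_one (by norm_num)]; linarith
  have hlo : ((-1 / 27 : ℝ) + (11 / 432 : ℝ) * t + (-121 / 27648 : ℝ) * t ^ 2) ≤ xs x := by
    have h5 := (xs_low_kappa x hs hx (by linarith)).1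
    have e : ((-1 / 27 : ℝ) + (11 / 432 : ℝ) * t + (-121 / 27648 : ℝ) * t ^ 2) = -(1 / 12) * (1 - xQ x) ^ 2 := by rw [hQ]; ring
    rw [e]; exact h5
  have hup : xs x ≤ ((-1 / 27 : ℝ) + (391 / 6912 : ℝ) * t) := by
    have h5 := xs_up x hs hx (1 / 3, 9 / 16, -1 / 27, 5 / 256) (by simp [chords]) (by push_cast; linarith)
      (by push_cast; linarith)
    have e : ((-1 / 27 : ℝ) + (391 / 6912 : ℝ) * t) = (-1 / 27 : ℝ) + ((5 / 256 : ℝ) - (-1 / 27 : ℝ)) * (xQ x - (1 / 3 : ℝ)) / ((9 / 16 : ℝ) - (1 / 3 : ℝ)) := by rw [hQ]; ring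
    rw [e]
    push_cast at h5
    linarith
  obtain ⟨l, hl0, hl1, hl⟩ := exists_mix hlo hup
  refine ⟨sw t l, sw_nonneg ht0 ht1 hl0 hl1, ?_⟩
  intro f hf
  rw [hQ, hl]
  interval_cases f
  · exact SA0_n0 t l
  · exact SA0_n1 t l
  · exact SA0_n2 t l
  · exact SA0_n3 t l
  · exact SA0_n4 t l
  · exact SA0_n5 t l
  · exact SA0_n6 t l
  · exact SA0_n7 t l
  · exact SA0_n8 t l
  · exact SA0_n9 t l
  · exact SA0_n10 t l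

theorem SA1_n0 (t l : ℝ) : BB * Xf ((9 / 16 : ℝ) + (1 / 4 : ℝ) * t)
    ((1 - l) * ((-931 / 65536 : ℝ) + (133 / 8192 : ℝ) * t + (-19 / 4096 : ℝ) * t ^ 2) + l * ((5 / 256 : ℝ) + (9 / 128 : ℝ) * t)) 0 =
    ∑ j ∈ range 15, sw t l j * (nth (nthL SA1 0) j : ℝ) := by
  rw [sum_sw]
  simp only [SA1, nthL, nth, Xf, BB]
  push_cast
  ring

theorem SA1_n1 (t l : ℝ) : BB * Xf ((9 / 16 : ℝ) + (1 / 4 : ℝ) * t)
    ((1 - l) * ((-931 / 65536 : ℝ) + (133 / 8192 : ℝ) * t + (-19 / 4096 : ℝ) * t ^ 2) + l * ((5 / 256 : ℝ) + (9 / 128 : ℝ) * t)) 1 =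
    ∑ j ∈ range 15, sw t l j * (nth (nthL SA1 1) j : ℝ) := by
  rw [sum_sw]
  simp only [SA1, nthL, nth, Xf, BB]
  push_cast
  ring

theorem SA1_n2 (t l : ℝ) : BB * Xf ((9 / 16 : ℝ) + (1 / 4 : ℝ) * t)
    ((1 - l) * ((-931 / 65536 : ℝ) + (133 / 8192 : ℝ) * t + (-19 / 4096 : ℝ) * t ^ 2) + l * ((5 / 256 : ℝ) + (9 / 128 : ℝ) * t)) 2 =
    ∑ j ∈ range 15, sw t l j * (nth (nthL SA1 2) j : ℝ) := by
  rw [sum_sw]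
  simp only [SA1, nthL, nth, Xf, BB]
  push_cast
  ring

theorem SA1_n3 (t l : ℝ) : BB * Xf ((9 / 16 : ℝ) + (1 / 4 : ℝ) * t)
    ((1 - l) * ((-931 / 65536 : ℝ) + (133 / 8192 : ℝ) * t + (-19 / 4096 : ℝ) * t ^ 2) + l * ((5 / 256 : ℝ) + (9 / 128 : ℝ) * t)) 3 =
    ∑ j ∈ range 15, sw t l j * (nth (nthL SA1 3) j : ℝ) := by
  rw [sum_sw]
  simp only [SA1, nthL, nth, Xf, BB]
  push_cast
  ring

theorem SA1_n4 (t l : ℝ) : BB * Xf ((9 / 16 : ℝ) + (1 / 4 : ℝ) * t)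
    ((1 - l) * ((-931 / 65536 : ℝ) + (133 / 8192 : ℝ) * t + (-19 / 4096 : ℝ) * t ^ 2) + l * ((5 / 256 : ℝ) + (9 / 128 : ℝ) * t)) 4 =
    ∑ j ∈ range 15, sw t l j * (nth (nthL SA1 4) j : ℝ) := by
  rw [sum_sw]
  simp only [SA1, nthL, nth, Xf, BB]
  push_cast
  ring

theorem SA1_n5 (t l : ℝ) : BB * Xf ((9 / 16 : ℝ) + (1 / 4 : ℝ) * t)
    ((1 - l) * ((-931 / 65536 : ℝ) + (133 / 8192 : ℝ) * t + (-19 / 4096 : ℝ) * t ^ 2) + l * ((5 / 256 : ℝ) + (9 / 128 : ℝ) * t)) 5 =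
    ∑ j ∈ range 15, sw t l j * (nth (nthL SA1 5) j : ℝ) := by
  rw [sum_sw]
  simp only [SA1, nthL, nth, Xf, BB]
  push_cast
  ring

theorem SA1_n6 (t l : ℝ) : BB * Xf ((9 / 16 : ℝ) + (1 / 4 : ℝ) * t)
    ((1 - l) * ((-931 / 65536 : ℝ) + (133 / 8192 : ℝ) * t + (-19 / 4096 : ℝ) * t ^ 2) + l * ((5 / 256 : ℝ) + (9 / 128 : ℝ) * t)) 6 =
    ∑ j ∈ range 15, sw t l j * (nth (nthL SA1 6) j : ℝ) := by
  rw [sum_sw]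
  simp only [SA1, nthL, nth, Xf, BB]
  push_cast
  ring

theorem SA1_n7 (t l : ℝ) : BB * Xf ((9 / 16 : ℝ) + (1 / 4 : ℝ) * t)
    ((1 - l) * ((-931 / 65536 : ℝ) + (133 / 8192 : ℝ) * t + (-19 / 4096 : ℝ) * t ^ 2) + l * ((5 / 256 : ℝ) + (9 / 128 : ℝ) * t)) 7 =
    ∑ j ∈ range 15, sw t l j * (nth (nthL SA1 7) j : ℝ) := by
  rw [sum_sw]
  simp only [SA1, nthL, nth, Xf, BB]
  push_cast
  ring

theorem SA1_n8 (t l : ℝ) : BB * Xf ((9 / 16 : ℝ) + (1 / 4 : ℝ) * t)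
    ((1 - l) * ((-931 / 65536 : ℝ) + (133 / 8192 : ℝ) * t + (-19 / 4096 : ℝ) * t ^ 2) + l * ((5 / 256 : ℝ) + (9 / 128 : ℝ) * t)) 8 =
    ∑ j ∈ range 15, sw t l j * (nth (nthL SA1 8) j : ℝ) := by
  rw [sum_sw]
  simp only [SA1, nthL, nth, Xf, BB]
  push_cast
  ring

theorem SA1_n9 (t l : ℝ) : BB * Xf ((9 / 16 : ℝ) + (1 / 4 : ℝ) * t)
    ((1 - l) * ((-931 / 65536 : ℝ) + (133 / 8192 : ℝ) * t + (-19 / 4096 : ℝ) * t ^ 2) + l * ((5 / 256 : ℝ) + (9 / 128 : ℝ) * t)) 9 =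
    ∑ j ∈ range 15, sw t l j * (nth (nthL SA1 9) j : ℝ) := by
  rw [sum_sw]
  simp only [SA1, nthL, nth, Xf, BB]
  push_cast
  ring

theorem SA1_n10 (t l : ℝ) : BB * Xf ((9 / 16 : ℝ) + (1 / 4 : ℝ) * t)
    ((1 - l) * ((-931 / 65536 : ℝ) + (133 / 8192 : ℝ) * t + (-19 / 4096 : ℝ) * t ^ 2) + l * ((5 / 256 : ℝ) + (9 / 128 : ℝ) * t)) 10 =
    ∑ j ∈ range 15, sw t l j * (nth (nthL SA1 10) j : ℝ) := by
  rw [sum_sw]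
  simp only [SA1, nthL, nth, Xf, BB]
  push_cast
  ring

theorem SA1_ok : SliceOK SA1 (9 / 16 : ℝ) (13 / 16 : ℝ) := by
  intro x hs hx h0 h1
  obtain ⟨t, ht⟩ : ∃ t : ℝ, t = (xQ x - (9 / 16 : ℝ)) / (1 / 4 : ℝ) := ⟨_, rfl⟩
  have hQ : xQ x = ((9 / 16 : ℝ) + (1 / 4 : ℝ) * t) := by rw [ht]; ring
  have ht0 : 0 ≤ t := by rw [ht]; apply div_nonneg <;> linarith
  have ht1 : t ≤ 1 := by rw [ht, div_le_one (by norm_num)]; linarith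
  have hlo : ((-931 / 65536 : ℝ) + (133 / 8192 : ℝ) * t + (-19 / 4096 : ℝ) * t ^ 2) ≤ xs x := by
    have h5 := (xs_low_kappa x hs hx (by linarith)).2.1 h0
    have e : ((-931 / 65536 : ℝ) + (133 / 8192 : ℝ) * t + (-19 / 4096 : ℝ) * t ^ 2) = -(19 / 256) * (1 - xQ x) ^ 2 := by rw [hQ]; ring
    rw [e]; exact h5
  have hup : xs x ≤ ((5 / 256 : ℝ) + (9 / 128 : ℝ) * t) := by
    have h5 := xs_up x hs hx (9 / 16, 13 / 16, 5 / 256, 23 / 256) (by simp [chords]) (by push_cast; linarith)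
      (by push_cast; linarith)
    have e : ((5 / 256 : ℝ) + (9 / 128 : ℝ) * t) = (5 / 256 : ℝ) + ((23 / 256 : ℝ) - (5 / 256 : ℝ)) * (xQ x - (9 / 16 : ℝ)) / ((13 / 16 : ℝ) - (9 / 16 : ℝ)) := by rw [hQ]; ring
    rw [e]
    push_cast at h5
    linarith
  obtain ⟨l, hl0, hl1, hl⟩ := exists_mix hlo hup
  refine ⟨sw t l, sw_nonneg ht0 ht1 hl0 hl1, ?_⟩
  intro f hf
  rw [hQ, hl]
  interval_cases f
  · exact SA1_n0 t l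
  · exact SA1_n1 t l
  · exact SA1_n2 t l
  · exact SA1_n3 t l
  · exact SA1_n4 t l
  · exact SA1_n5 t l
  · exact SA1_n6 t l
  · exact SA1_n7 t l
  · exact SA1_n8 t l
  · exact SA1_n9 t l
  · exact SA1_n10 t l

theorem SA2_n0 (t l : ℝ) : BB * Xf ((13 / 16 : ℝ) + (3 / 16 : ℝ) * t)
    ((1 - l) * ((-153 / 65536 : ℝ) + (153 / 32768 : ℝ) * t + (-153 / 65536 : ℝ) * t ^ 2) + l * ((23 / 256 : ℝ) + (15 / 256 : ℝ) * t)) 0 =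
    ∑ j ∈ range 15, sw t l j * (nth (nthL SA2 0) j : ℝ) := by
  rw [sum_sw]
  simp only [SA2, nthL, nth, Xf, BB]
  push_cast
  ring

theorem SA2_n1 (t l : ℝ) : BB * Xf ((13 / 16 : ℝ) + (3 / 16 : ℝ) * t)
    ((1 - l) * ((-153 / 65536 : ℝ) + (153 / 32768 : ℝ) * t + (-153 / 65536 : ℝ) * t ^ 2) + l * ((23 / 256 : ℝ) + (15 / 256 : ℝ) * t)) 1 =
    ∑ j ∈ range 15, sw t l j * (nth (nthL SA2 1) j : ℝ) := by
  rw [sum_sw]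
  simp only [SA2, nthL, nth, Xf, BB]
  push_cast
  ring

theorem SA2_n2 (t l : ℝ) : BB * Xf ((13 / 16 : ℝ) + (3 / 16 : ℝ) * t)
    ((1 - l) * ((-153 / 65536 : ℝ) + (153 / 32768 : ℝ) * t + (-153 / 65536 : ℝ) * t ^ 2) + l * ((23 / 256 : ℝ) + (15 / 256 : ℝ) * t)) 2 =
    ∑ j ∈ range 15, sw t l j * (nth (nthL SA2 2) j : ℝ) := by
  rw [sum_sw]
  simp only [SA2, nthL, nth, Xf, BB]
  push_cast
  ring

theorem SA2_n3 (t l : ℝ) : BB * Xf ((13 / 16 : ℝ) + (3 / 16 : ℝ) * t)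
    ((1 - l) * ((-153 / 65536 : ℝ) + (153 / 32768 : ℝ) * t + (-153 / 65536 : ℝ) * t ^ 2) + l * ((23 / 256 : ℝ) + (15 / 256 : ℝ) * t)) 3 =
    ∑ j ∈ range 15, sw t l j * (nth (nthL SA2 3) j : ℝ) := by
  rw [sum_sw]
  simp only [SA2, nthL, nth, Xf, BB]
  push_cast
  ring

theorem SA2_n4 (t l : ℝ) : BB * Xf ((13 / 16 : ℝ) + (3 / 16 : ℝ) * t)
    ((1 - l) * ((-153 / 65536 : ℝ) + (153 / 32768 : ℝ) * t + (-153 / 65536 : ℝ) * t ^ 2) + l * ((23 / 256 : ℝ) + (15 / 256 : ℝ) * t)) 4 =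
    ∑ j ∈ range 15, sw t l j * (nth (nthL SA2 4) j : ℝ) := by
  rw [sum_sw]
  simp only [SA2, nthL, nth, Xf, BB]
  push_cast
  ring

theorem SA2_n5 (t l : ℝ) : BB * Xf ((13 / 16 : ℝ) + (3 / 16 : ℝ) * t)
    ((1 - l) * ((-153 / 65536 : ℝ) + (153 / 32768 : ℝ) * t + (-153 / 65536 : ℝ) * t ^ 2) + l * ((23 / 256 : ℝ) + (15 / 256 : ℝ) * t)) 5 =
    ∑ j ∈ range 15, sw t l j * (nth (nthL SA2 5) j : ℝ) := by
  rw [sum_sw]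
  simp only [SA2, nthL, nth, Xf, BB]
  push_cast
  ring

theorem SA2_n6 (t l : ℝ) : BB * Xf ((13 / 16 : ℝ) + (3 / 16 : ℝ) * t)
    ((1 - l) * ((-153 / 65536 : ℝ) + (153 / 32768 : ℝ) * t + (-153 / 65536 : ℝ) * t ^ 2) + l * ((23 / 256 : ℝ) + (15 / 256 : ℝ) * t)) 6 =
    ∑ j ∈ range 15, sw t l j * (nth (nthL SA2 6) j : ℝ) := by
  rw [sum_sw]
  simp only [SA2, nthL, nth, Xf, BB]
  push_cast
  ring

theorem SA2_n7 (t l : ℝ) : BB * Xf ((13 / 16 : ℝ) + (3 / 16 : ℝ) * t)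
    ((1 - l) * ((-153 / 65536 : ℝ) + (153 / 32768 : ℝ) * t + (-153 / 65536 : ℝ) * t ^ 2) + l * ((23 / 256 : ℝ) + (15 / 256 : ℝ) * t)) 7 =
    ∑ j ∈ range 15, sw t l j * (nth (nthL SA2 7) j : ℝ) := by
  rw [sum_sw]
  simp only [SA2, nthL, nth, Xf, BB]
  push_cast
  ring

theorem SA2_n8 (t l : ℝ) : BB * Xf ((13 / 16 : ℝ) + (3 / 16 : ℝ) * t)
    ((1 - l) * ((-153 / 65536 : ℝ) + (153 / 32768 : ℝ) * t + (-153 / 65536 : ℝ) * t ^ 2) + l * ((23 / 256 : ℝ) + (15 / 256 : ℝ) * t)) 8 =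
    ∑ j ∈ range 15, sw t l j * (nth (nthL SA2 8) j : ℝ) := by
  rw [sum_sw]
  simp only [SA2, nthL, nth, Xf, BB]
  push_cast
  ring

theorem SA2_n9 (t l : ℝ) : BB * Xf ((13 / 16 : ℝ) + (3 / 16 : ℝ) * t)
    ((1 - l) * ((-153 / 65536 : ℝ) + (153 / 32768 : ℝ) * t + (-153 / 65536 : ℝ) * t ^ 2) + l * ((23 / 256 : ℝ) + (15 / 256 : ℝ) * t)) 9 =
    ∑ j ∈ range 15, sw t l j * (nth (nthL SA2 9) j : ℝ) := by
  rw [sum_sw]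
  simp only [SA2, nthL, nth, Xf, BB]
  push_cast
  ring

theorem SA2_n10 (t l : ℝ) : BB * Xf ((13 / 16 : ℝ) + (3 / 16 : ℝ) * t)
    ((1 - l) * ((-153 / 65536 : ℝ) + (153 / 32768 : ℝ) * t + (-153 / 65536 : ℝ) * t ^ 2) + l * ((23 / 256 : ℝ) + (15 / 256 : ℝ) * t)) 10 =
    ∑ j ∈ range 15, sw t l j * (nth (nthL SA2 10) j : ℝ) := by
  rw [sum_sw]
  simp only [SA2, nthL, nth, Xf, BB]
  push_cast
  ring

theorem SA2_ok : SliceOK SA2 (13 / 16 : ℝ) (1 : ℝ) := by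
  intro x hs hx h0 h1
  obtain ⟨t, ht⟩ : ∃ t : ℝ, t = (xQ x - (13 / 16 : ℝ)) / (3 / 16 : ℝ) := ⟨_, rfl⟩
  have hQ : xQ x = ((13 / 16 : ℝ) + (3 / 16 : ℝ) * t) := by rw [ht]; ring
  have ht0 : 0 ≤ t := by rw [ht]; apply div_nonneg <;> linarith
  have ht1 : t ≤ 1 := by rw [ht, div_le_one (by norm_num)]; linarith
  have hlo : ((-153 / 65536 : ℝ) + (153 / 32768 : ℝ) * t + (-153 / 65536 : ℝ) * t ^ 2) ≤ xs x := by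
    have h5 := (xs_low_kappa x hs hx (by linarith)).2.2 h0
    have e : ((-153 / 65536 : ℝ) + (153 / 32768 : ℝ) * t + (-153 / 65536 : ℝ) * t ^ 2) = -(17 / 256) * (1 - xQ x) ^ 2 := by rw [hQ]; ring
    rw [e]; exact h5
  have hup : xs x ≤ ((23 / 256 : ℝ) + (15 / 256 : ℝ) * t) := by
    have h5 := xs_up x hs hx (13 / 16, 1, 23 / 256, 19 / 128) (by simp [chords]) (by push_cast; linarith)
      (by push_cast; linarith)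
    have e : ((23 / 256 : ℝ) + (15 / 256 : ℝ) * t) = (23 / 256 : ℝ) + ((19 / 128 : ℝ) - (23 / 256 : ℝ)) * (xQ x - (13 / 16 : ℝ)) / ((1 : ℝ) - (13 / 16 : ℝ)) := by rw [hQ]; ring
    rw [e]
    push_cast at h5
    linarith
  obtain ⟨l, hl0, hl1, hl⟩ := exists_mix hlo hup
  refine ⟨sw t l, sw_nonneg ht0 ht1 hl0 hl1, ?_⟩
  intro f hf
  rw [hQ, hl]
  interval_cases f
  · exact SA2_n0 t l
  · exact SA2_n1 t l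
  · exact SA2_n2 t l
  · exact SA2_n3 t l
  · exact SA2_n4 t l
  · exact SA2_n5 t l
  · exact SA2_n6 t l
  · exact SA2_n7 t l
  · exact SA2_n8 t l
  · exact SA2_n9 t l
  · exact SA2_n10 t l

theorem SA3_n0 (t l : ℝ) : BB * Xf ((1 : ℝ) + (1 / 4 : ℝ) * t)
    ((1 - l) * ((0 : ℝ) + (1 / 8 : ℝ) * t + (0 : ℝ) * t ^ 2) + l * ((19 / 128 : ℝ) + (23 / 256 : ℝ) * t)) 0 =
    ∑ j ∈ range 15, sw t l j * (nth (nthL SA3 0) j : ℝ) := by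
  rw [sum_sw]
  simp only [SA3, nthL, nth, Xf, BB]
  push_cast
  ring

theorem SA3_n1 (t l : ℝ) : BB * Xf ((1 : ℝ) + (1 / 4 : ℝ) * t)
    ((1 - l) * ((0 : ℝ) + (1 / 8 : ℝ) * t + (0 : ℝ) * t ^ 2) + l * ((19 / 128 : ℝ) + (23 / 256 : ℝ) * t)) 1 =
    ∑ j ∈ range 15, sw t l j * (nth (nthL SA3 1) j : ℝ) := by
  rw [sum_sw]
  simp only [SA3, nthL, nth, Xf, BB]
  push_cast
  ring

theorem SA3_n2 (t l : ℝ) : BB * Xf ((1 : ℝ) + (1 / 4 : ℝ) * t)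
    ((1 - l) * ((0 : ℝ) + (1 / 8 : ℝ) * t + (0 : ℝ) * t ^ 2) + l * ((19 / 128 : ℝ) + (23 / 256 : ℝ) * t)) 2 =
    ∑ j ∈ range 15, sw t l j * (nth (nthL SA3 2) j : ℝ) := by
  rw [sum_sw]
  simp only [SA3, nthL, nth, Xf, BB]
  push_cast
  ring

theorem SA3_n3 (t l : ℝ) : BB * Xf ((1 : ℝ) + (1 / 4 : ℝ) * t)
    ((1 - l) * ((0 : ℝ) + (1 / 8 : ℝ) * t + (0 : ℝ) * t ^ 2) + l * ((19 / 128 : ℝ) + (23 / 256 : ℝ) * t)) 3 =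
    ∑ j ∈ range 15, sw t l j * (nth (nthL SA3 3) j : ℝ) := by
  rw [sum_sw]
  simp only [SA3, nthL, nth, Xf, BB]
  push_cast
  ring

theorem SA3_n4 (t l : ℝ) : BB * Xf ((1 : ℝ) + (1 / 4 : ℝ) * t)
    ((1 - l) * ((0 : ℝ) + (1 / 8 : ℝ) * t + (0 : ℝ) * t ^ 2) + l * ((19 / 128 : ℝ) + (23 / 256 : ℝ) * t)) 4 =
    ∑ j ∈ range 15, sw t l j * (nth (nthL SA3 4) j : ℝ) := by
  rw [sum_sw]
  simp only [SA3, nthL, nth, Xf, BB]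
  push_cast
  ring

theorem SA3_n5 (t l : ℝ) : BB * Xf ((1 : ℝ) + (1 / 4 : ℝ) * t)
    ((1 - l) * ((0 : ℝ) + (1 / 8 : ℝ) * t + (0 : ℝ) * t ^ 2) + l * ((19 / 128 : ℝ) + (23 / 256 : ℝ) * t)) 5 =
    ∑ j ∈ range 15, sw t l j * (nth (nthL SA3 5) j : ℝ) := by
  rw [sum_sw]
  simp only [SA3, nthL, nth, Xf, BB]
  push_cast
  ring

theorem SA3_n6 (t l : ℝ) : BB * Xf ((1 : ℝ) + (1 / 4 : ℝ) * t)
    ((1 - l) * ((0 : ℝ) + (1 / 8 : ℝ) * t + (0 : ℝ) * t ^ 2) + l * ((19 / 128 : ℝ) + (23 / 256 : ℝ) * t)) 6 =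
    ∑ j ∈ range 15, sw t l j * (nth (nthL SA3 6) j : ℝ) := by
  rw [sum_sw]
  simp only [SA3, nthL, nth, Xf, BB]
  push_cast
  ring

theorem SA3_n7 (t l : ℝ) : BB * Xf ((1 : ℝ) + (1 / 4 : ℝ) * t)
    ((1 - l) * ((0 : ℝ) + (1 / 8 : ℝ) * t + (0 : ℝ) * t ^ 2) + l * ((19 / 128 : ℝ) + (23 / 256 : ℝ) * t)) 7 =
    ∑ j ∈ range 15, sw t l j * (nth (nthL SA3 7) j : ℝ) := by
  rw [sum_sw]
  simp only [SA3, nthL, nth, Xf, BB]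
  push_cast
  ring

theorem SA3_n8 (t l : ℝ) : BB * Xf ((1 : ℝ) + (1 / 4 : ℝ) * t)
    ((1 - l) * ((0 : ℝ) + (1 / 8 : ℝ) * t + (0 : ℝ) * t ^ 2) + l * ((19 / 128 : ℝ) + (23 / 256 : ℝ) * t)) 8 =
    ∑ j ∈ range 15, sw t l j * (nth (nthL SA3 8) j : ℝ) := by
  rw [sum_sw]
  simp only [SA3, nthL, nth, Xf, BB]
  push_cast
  ring

theorem SA3_n9 (t l : ℝ) : BB * Xf ((1 : ℝ) + (1 / 4 : ℝ) * t)
    ((1 - l) * ((0 : ℝ) + (1 / 8 : ℝ) * t + (0 : ℝ) * t ^ 2) + l * ((19 / 128 : ℝ) + (23 / 256 : ℝ) * t)) 9 =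
    ∑ j ∈ range 15, sw t l j * (nth (nthL SA3 9) j : ℝ) := by
  rw [sum_sw]
  simp only [SA3, nthL, nth, Xf, BB]
  push_cast
  ring

theorem SA3_n10 (t l : ℝ) : BB * Xf ((1 : ℝ) + (1 / 4 : ℝ) * t)
    ((1 - l) * ((0 : ℝ) + (1 / 8 : ℝ) * t + (0 : ℝ) * t ^ 2) + l * ((19 / 128 : ℝ) + (23 / 256 : ℝ) * t)) 10 =
    ∑ j ∈ range 15, sw t l j * (nth (nthL SA3 10) j : ℝ) := by
  rw [sum_sw]
  simp only [SA3, nthL, nth, Xf, BB]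
  push_cast
  ring

theorem SA3_ok : SliceOK SA3 (1 : ℝ) (5 / 4 : ℝ) := by
  intro x hs hx h0 h1
  obtain ⟨t, ht⟩ : ∃ t : ℝ, t = (xQ x - (1 : ℝ)) / (1 / 4 : ℝ) := ⟨_, rfl⟩
  have hQ : xQ x = ((1 : ℝ) + (1 / 4 : ℝ) * t) := by rw [ht]; ring
  have ht0 : 0 ≤ t := by rw [ht]; apply div_nonneg <;> linarith
  have ht1 : t ≤ 1 := by rw [ht, div_le_one (by norm_num)]; linarith
  have hlo : ((0 : ℝ) + (1 / 8 : ℝ) * t + (0 : ℝ) * t ^ 2) ≤ xs x := by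
    have h5 := xs_low1 x hs hx
    have e : ((0 : ℝ) + (1 / 8 : ℝ) * t + (0 : ℝ) * t ^ 2) = (xQ x - 1) / 2 := by rw [hQ]; ring
    rw [e]; exact h5
  have hup : xs x ≤ ((19 / 128 : ℝ) + (23 / 256 : ℝ) * t) := by
    have h5 := xs_up x hs hx (1, 5 / 4, 19 / 128, 61 / 256) (by simp [chords]) (by push_cast; linarith)
      (by push_cast; linarith)
    have e : ((19 / 128 : ℝ) + (23 / 256 : ℝ) * t) = (19 / 128 : ℝ) + ((61 / 256 : ℝ) - (19 / 128 : ℝ)) * (xQ x - (1 : ℝ)) / ((5 / 4 : ℝ) - (1 : ℝ)) := by rw [hQ]; ring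
    rw [e]
    push_cast at h5
    linarith
  obtain ⟨l, hl0, hl1, hl⟩ := exists_mix hlo hup
  refine ⟨sw t l, sw_nonneg ht0 ht1 hl0 hl1, ?_⟩
  intro f hf
  rw [hQ, hl]
  interval_cases f
  · exact SA3_n0 t l
  · exact SA3_n1 t l
  · exact SA3_n2 t l
  · exact SA3_n3 t l
  · exact SA3_n4 t l
  · exact SA3_n5 t l
  · exact SA3_n6 t l
  · exact SA3_n7 t l
  · exact SA3_n8 t l
  · exact SA3_n9 t l
  · exact SA3_n10 t l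

theorem SA4_n0 (t l : ℝ) : BB * Xf ((5 / 4 : ℝ) + (3 / 8 : ℝ) * t)
    ((1 - l) * ((1 / 8 : ℝ) + (3 / 16 : ℝ) * t + (0 : ℝ) * t ^ 2) + l * ((61 / 256 : ℝ) + (9 / 64 : ℝ) * t)) 0 =
    ∑ j ∈ range 15, sw t l j * (nth (nthL SA4 0) j : ℝ) := by
  rw [sum_sw]
  simp only [SA4, nthL, nth, Xf, BB]
  push_cast
  ring

theorem SA4_n1 (t l : ℝ) : BB * Xf ((5 / 4 : ℝ) + (3 / 8 : ℝ) * t)
    ((1 - l) * ((1 / 8 : ℝ) + (3 / 16 : ℝ) * t + (0 : ℝ) * t ^ 2) + l * ((61 / 256 : ℝ) + (9 / 64 : ℝ) * t)) 1 =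
    ∑ j ∈ range 15, sw t l j * (nth (nthL SA4 1) j : ℝ) := by
  rw [sum_sw]
  simp only [SA4, nthL, nth, Xf, BB]
  push_cast
  ring

theorem SA4_n2 (t l : ℝ) : BB * Xf ((5 / 4 : ℝ) + (3 / 8 : ℝ) * t)
    ((1 - l) * ((1 / 8 : ℝ) + (3 / 16 : ℝ) * t + (0 : ℝ) * t ^ 2) + l * ((61 / 256 : ℝ) + (9 / 64 : ℝ) * t)) 2 =
    ∑ j ∈ range 15, sw t l j * (nth (nthL SA4 2) j : ℝ) := by
  rw [sum_sw]
  simp only [SA4, nthL, nth, Xf, BB]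
  push_cast
  ring

theorem SA4_n3 (t l : ℝ) : BB * Xf ((5 / 4 : ℝ) + (3 / 8 : ℝ) * t)
    ((1 - l) * ((1 / 8 : ℝ) + (3 / 16 : ℝ) * t + (0 : ℝ) * t ^ 2) + l * ((61 / 256 : ℝ) + (9 / 64 : ℝ) * t)) 3 =
    ∑ j ∈ range 15, sw t l j * (nth (nthL SA4 3) j : ℝ) := by
  rw [sum_sw]
  simp only [SA4, nthL, nth, Xf, BB]
  push_cast
  ring

theorem SA4_n4 (t l : ℝ) : BB * Xf ((5 / 4 : ℝ) + (3 / 8 : ℝ) * t)
    ((1 - l) * ((1 / 8 : ℝ) + (3 / 16 : ℝ) * t + (0 : ℝ) * t ^ 2) + l * ((61 / 256 : ℝ) + (9 / 64 : ℝ) * t)) 4 =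
    ∑ j ∈ range 15, sw t l j * (nth (nthL SA4 4) j : ℝ) := by
  rw [sum_sw]
  simp only [SA4, nthL, nth, Xf, BB]
  push_cast
  ring

theorem SA4_n5 (t l : ℝ) : BB * Xf ((5 / 4 : ℝ) + (3 / 8 : ℝ) * t)
    ((1 - l) * ((1 / 8 : ℝ) + (3 / 16 : ℝ) * t + (0 : ℝ) * t ^ 2) + l * ((61 / 256 : ℝ) + (9 / 64 : ℝ) * t)) 5 =
    ∑ j ∈ range 15, sw t l j * (nth (nthL SA4 5) j : ℝ) := by
  rw [sum_sw]
  simp only [SA4, nthL, nth, Xf, BB]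
  push_cast
  ring

theorem SA4_n6 (t l : ℝ) : BB * Xf ((5 / 4 : ℝ) + (3 / 8 : ℝ) * t)
    ((1 - l) * ((1 / 8 : ℝ) + (3 / 16 : ℝ) * t + (0 : ℝ) * t ^ 2) + l * ((61 / 256 : ℝ) + (9 / 64 : ℝ) * t)) 6 =
    ∑ j ∈ range 15, sw t l j * (nth (nthL SA4 6) j : ℝ) := by
  rw [sum_sw]
  simp only [SA4, nthL, nth, Xf, BB]
  push_cast
  ring

theorem SA4_n7 (t l : ℝ) : BB * Xf ((5 / 4 : ℝ) + (3 / 8 : ℝ) * t)
    ((1 - l) * ((1 / 8 : ℝ) + (3 / 16 : ℝ) * t + (0 : ℝ) * t ^ 2) + l * ((61 / 256 : ℝ) + (9 / 64 : ℝ) * t)) 7 =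
    ∑ j ∈ range 15, sw t l j * (nth (nthL SA4 7) j : ℝ) := by
  rw [sum_sw]
  simp only [SA4, nthL, nth, Xf, BB]
  push_cast
  ring

theorem SA4_n8 (t l : ℝ) : BB * Xf ((5 / 4 : ℝ) + (3 / 8 : ℝ) * t)
    ((1 - l) * ((1 / 8 : ℝ) + (3 / 16 : ℝ) * t + (0 : ℝ) * t ^ 2) + l * ((61 / 256 : ℝ) + (9 / 64 : ℝ) * t)) 8 =
    ∑ j ∈ range 15, sw t l j * (nth (nthL SA4 8) j : ℝ) := by
  rw [sum_sw]
  simp only [SA4, nthL, nth, Xf, BB]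
  push_cast
  ring

theorem SA4_n9 (t l : ℝ) : BB * Xf ((5 / 4 : ℝ) + (3 / 8 : ℝ) * t)
    ((1 - l) * ((1 / 8 : ℝ) + (3 / 16 : ℝ) * t + (0 : ℝ) * t ^ 2) + l * ((61 / 256 : ℝ) + (9 / 64 : ℝ) * t)) 9 =
    ∑ j ∈ range 15, sw t l j * (nth (nthL SA4 9) j : ℝ) := by
  rw [sum_sw]
  simp only [SA4, nthL, nth, Xf, BB]
  push_cast
  ring

theorem SA4_n10 (t l : ℝ) : BB * Xf ((5 / 4 : ℝ) + (3 / 8 : ℝ) * t)
    ((1 - l) * ((1 / 8 : ℝ) + (3 / 16 : ℝ) * t + (0 : ℝ) * t ^ 2) + l * ((61 / 256 : ℝ) + (9 / 64 : ℝ) * t)) 10 =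
    ∑ j ∈ range 15, sw t l j * (nth (nthL SA4 10) j : ℝ) := by
  rw [sum_sw]
  simp only [SA4, nthL, nth, Xf, BB]
  push_cast
  ring

theorem SA4_ok : SliceOK SA4 (5 / 4 : ℝ) (13 / 8 : ℝ) := by
  intro x hs hx h0 h1
  obtain ⟨t, ht⟩ : ∃ t : ℝ, t = (xQ x - (5 / 4 : ℝ)) / (3 / 8 : ℝ) := ⟨_, rfl⟩
  have hQ : xQ x = ((5 / 4 : ℝ) + (3 / 8 : ℝ) * t) := by rw [ht]; ring
  have ht0 : 0 ≤ t := by rw [ht]; apply div_nonneg <;> linarith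
  have ht1 : t ≤ 1 := by rw [ht, div_le_one (by norm_num)]; linarith
  have hlo : ((1 / 8 : ℝ) + (3 / 16 : ℝ) * t + (0 : ℝ) * t ^ 2) ≤ xs x := by
    have h5 := xs_low1 x hs hx
    have e : ((1 / 8 : ℝ) + (3 / 16 : ℝ) * t + (0 : ℝ) * t ^ 2) = (xQ x - 1) / 2 := by rw [hQ]; ring
    rw [e]; exact h5
  have hup : xs x ≤ ((61 / 256 : ℝ) + (9 / 64 : ℝ) * t) := by
    have h5 := xs_up x hs hx (5 / 4, 13 / 8, 61 / 256, 97 / 256) (by simp [chords]) (by push_cast; linarith)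
      (by push_cast; linarith)
    have e : ((61 / 256 : ℝ) + (9 / 64 : ℝ) * t) = (61 / 256 : ℝ) + ((97 / 256 : ℝ) - (61 / 256 : ℝ)) * (xQ x - (5 / 4 : ℝ)) / ((13 / 8 : ℝ) - (5 / 4 : ℝ)) := by rw [hQ]; ring
    rw [e]
    push_cast at h5
    linarith
  obtain ⟨l, hl0, hl1, hl⟩ := exists_mix hlo hup
  refine ⟨sw t l, sw_nonneg ht0 ht1 hl0 hl1, ?_⟩
  intro f hf
  rw [hQ, hl]
  interval_cases f
  · exact SA4_n0 t l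
  · exact SA4_n1 t l
  · exact SA4_n2 t l
  · exact SA4_n3 t l
  · exact SA4_n4 t l
  · exact SA4_n5 t l
  · exact SA4_n6 t l
  · exact SA4_n7 t l
  · exact SA4_n8 t l
  · exact SA4_n9 t l
  · exact SA4_n10 t l

theorem SA5_n0 (t l : ℝ) : BB * Xf ((13 / 8 : ℝ) + (5 / 8 : ℝ) * t)
    ((1 - l) * ((5 / 16 : ℝ) + (5 / 16 : ℝ) * t + (0 : ℝ) * t ^ 2) + l * ((97 / 256 : ℝ) + (17 / 64 : ℝ) * t)) 0 =
    ∑ j ∈ range 15, sw t l j * (nth (nthL SA5 0) j : ℝ) := by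
  rw [sum_sw]
  simp only [SA5, nthL, nth, Xf, BB]
  push_cast
  ring

theorem SA5_n1 (t l : ℝ) : BB * Xf ((13 / 8 : ℝ) + (5 / 8 : ℝ) * t)
    ((1 - l) * ((5 / 16 : ℝ) + (5 / 16 : ℝ) * t + (0 : ℝ) * t ^ 2) + l * ((97 / 256 : ℝ) + (17 / 64 : ℝ) * t)) 1 =
    ∑ j ∈ range 15, sw t l j * (nth (nthL SA5 1) j : ℝ) := by
  rw [sum_sw]
  simp only [SA5, nthL, nth, Xf, BB]
  push_cast
  ring

theorem SA5_n2 (t l : ℝ) : BB * Xf ((13 / 8 : ℝ) + (5 / 8 : ℝ) * t)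
    ((1 - l) * ((5 / 16 : ℝ) + (5 / 16 : ℝ) * t + (0 : ℝ) * t ^ 2) + l * ((97 / 256 : ℝ) + (17 / 64 : ℝ) * t)) 2 =
    ∑ j ∈ range 15, sw t l j * (nth (nthL SA5 2) j : ℝ) := by
  rw [sum_sw]
  simp only [SA5, nthL, nth, Xf, BB]
  push_cast
  ring

theorem SA5_n3 (t l : ℝ) : BB * Xf ((13 / 8 : ℝ) + (5 / 8 : ℝ) * t)
    ((1 - l) * ((5 / 16 : ℝ) + (5 / 16 : ℝ) * t + (0 : ℝ) * t ^ 2) + l * ((97 / 256 : ℝ) + (17 / 64 : ℝ) * t)) 3 =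
    ∑ j ∈ range 15, sw t l j * (nth (nthL SA5 3) j : ℝ) := by
  rw [sum_sw]
  simp only [SA5, nthL, nth, Xf, BB]
  push_cast
  ring

theorem SA5_n4 (t l : ℝ) : BB * Xf ((13 / 8 : ℝ) + (5 / 8 : ℝ) * t)
    ((1 - l) * ((5 / 16 : ℝ) + (5 / 16 : ℝ) * t + (0 : ℝ) * t ^ 2) + l * ((97 / 256 : ℝ) + (17 / 64 : ℝ) * t)) 4 =
    ∑ j ∈ range 15, sw t l j * (nth (nthL SA5 4) j : ℝ) := by
  rw [sum_sw]
  simp only [SA5, nthL, nth, Xf, BB]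
  push_cast
  ring

theorem SA5_n5 (t l : ℝ) : BB * Xf ((13 / 8 : ℝ) + (5 / 8 : ℝ) * t)
    ((1 - l) * ((5 / 16 : ℝ) + (5 / 16 : ℝ) * t + (0 : ℝ) * t ^ 2) + l * ((97 / 256 : ℝ) + (17 / 64 : ℝ) * t)) 5 =
    ∑ j ∈ range 15, sw t l j * (nth (nthL SA5 5) j : ℝ) := by
  rw [sum_sw]
  simp only [SA5, nthL, nth, Xf, BB]
  push_cast
  ring

theorem SA5_n6 (t l : ℝ) : BB * Xf ((13 / 8 : ℝ) + (5 / 8 : ℝ) * t)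
    ((1 - l) * ((5 / 16 : ℝ) + (5 / 16 : ℝ) * t + (0 : ℝ) * t ^ 2) + l * ((97 / 256 : ℝ) + (17 / 64 : ℝ) * t)) 6 =
    ∑ j ∈ range 15, sw t l j * (nth (nthL SA5 6) j : ℝ) := by
  rw [sum_sw]
  simp only [SA5, nthL, nth, Xf, BB]
  push_cast
  ring

theorem SA5_n7 (t l : ℝ) : BB * Xf ((13 / 8 : ℝ) + (5 / 8 : ℝ) * t)
    ((1 - l) * ((5 / 16 : ℝ) + (5 / 16 : ℝ) * t + (0 : ℝ) * t ^ 2) + l * ((97 / 256 : ℝ) + (17 / 64 : ℝ) * t)) 7 =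
    ∑ j ∈ range 15, sw t l j * (nth (nthL SA5 7) j : ℝ) := by
  rw [sum_sw]
  simp only [SA5, nthL, nth, Xf, BB]
  push_cast
  ring

theorem SA5_n8 (t l : ℝ) : BB * Xf ((13 / 8 : ℝ) + (5 / 8 : ℝ) * t)
    ((1 - l) * ((5 / 16 : ℝ) + (5 / 16 : ℝ) * t + (0 : ℝ) * t ^ 2) + l * ((97 / 256 : ℝ) + (17 / 64 : ℝ) * t)) 8 =
    ∑ j ∈ range 15, sw t l j * (nth (nthL SA5 8) j : ℝ) := by
  rw [sum_sw]
  simp only [SA5, nthL, nth, Xf, BB]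
  push_cast
  ring

theorem SA5_n9 (t l : ℝ) : BB * Xf ((13 / 8 : ℝ) + (5 / 8 : ℝ) * t)
    ((1 - l) * ((5 / 16 : ℝ) + (5 / 16 : ℝ) * t + (0 : ℝ) * t ^ 2) + l * ((97 / 256 : ℝ) + (17 / 64 : ℝ) * t)) 9 =
    ∑ j ∈ range 15, sw t l j * (nth (nthL SA5 9) j : ℝ) := by
  rw [sum_sw]
  simp only [SA5, nthL, nth, Xf, BB]
  push_cast
  ring

theorem SA5_n10 (t l : ℝ) : BB * Xf ((13 / 8 : ℝ) + (5 / 8 : ℝ) * t)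
    ((1 - l) * ((5 / 16 : ℝ) + (5 / 16 : ℝ) * t + (0 : ℝ) * t ^ 2) + l * ((97 / 256 : ℝ) + (17 / 64 : ℝ) * t)) 10 =
    ∑ j ∈ range 15, sw t l j * (nth (nthL SA5 10) j : ℝ) := by
  rw [sum_sw]
  simp only [SA5, nthL, nth, Xf, BB]
  push_cast
  ring

theorem SA5_ok : SliceOK SA5 (13 / 8 : ℝ) (9 / 4 : ℝ) := by
  intro x hs hx h0 h1
  obtain ⟨t, ht⟩ : ∃ t : ℝ, t = (xQ x - (13 / 8 : ℝ)) / (5 / 8 : ℝ) := ⟨_, rfl⟩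
  have hQ : xQ x = ((13 / 8 : ℝ) + (5 / 8 : ℝ) * t) := by rw [ht]; ring
  have ht0 : 0 ≤ t := by rw [ht]; apply div_nonneg <;> linarith
  have ht1 : t ≤ 1 := by rw [ht, div_le_one (by norm_num)]; linarith
  have hlo : ((5 / 16 : ℝ) + (5 / 16 : ℝ) * t + (0 : ℝ) * t ^ 2) ≤ xs x := by
    have h5 := xs_low1 x hs hx
    have e : ((5 / 16 : ℝ) + (5 / 16 : ℝ) * t + (0 : ℝ) * t ^ 2) = (xQ x - 1) / 2 := by rw [hQ]; ring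
    rw [e]; exact h5
  have hup : xs x ≤ ((97 / 256 : ℝ) + (17 / 64 : ℝ) * t) := by
    have h5 := xs_up x hs hx (13 / 8, 9 / 4, 97 / 256, 165 / 256) (by simp [chords]) (by push_cast; linarith)
      (by push_cast; linarith)
    have e : ((97 / 256 : ℝ) + (17 / 64 : ℝ) * t) = (97 / 256 : ℝ) + ((165 / 256 : ℝ) - (97 / 256 : ℝ)) * (xQ x - (13 / 8 : ℝ)) / ((9 / 4 : ℝ) - (13 / 8 : ℝ)) := by rw [hQ]; ring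
    rw [e]
    push_cast at h5
    linarith
  obtain ⟨l, hl0, hl1, hl⟩ := exists_mix hlo hup
  refine ⟨sw t l, sw_nonneg ht0 ht1 hl0 hl1, ?_⟩
  intro f hf
  rw [hQ, hl]
  interval_cases f
  · exact SA5_n0 t l
  · exact SA5_n1 t l
  · exact SA5_n2 t l
  · exact SA5_n3 t l
  · exact SA5_n4 t l
  · exact SA5_n5 t l
  · exact SA5_n6 t l
  · exact SA5_n7 t l
  · exact SA5_n8 t l
  · exact SA5_n9 t l
  · exact SA5_n10 t l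

theorem SA6_n0 (t l : ℝ) : BB * Xf ((9 / 4 : ℝ) + (3 / 4 : ℝ) * t)
    ((1 - l) * ((5 / 8 : ℝ) + (3 / 8 : ℝ) * t + (0 : ℝ) * t ^ 2) + l * ((165 / 256 : ℝ) + (91 / 256 : ℝ) * t)) 0 =
    ∑ j ∈ range 15, sw t l j * (nth (nthL SA6 0) j : ℝ) := by
  rw [sum_sw]
  simp only [SA6, nthL, nth, Xf, BB]
  push_cast
  ring

theorem SA6_n1 (t l : ℝ) : BB * Xf ((9 / 4 : ℝ) + (3 / 4 : ℝ) * t)
    ((1 - l) * ((5 / 8 : ℝ) + (3 / 8 : ℝ) * t + (0 : ℝ) * t ^ 2) + l * ((165 / 256 : ℝ) + (91 / 256 : ℝ) * t)) 1 =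
    ∑ j ∈ range 15, sw t l j * (nth (nthL SA6 1) j : ℝ) := by
  rw [sum_sw]
  simp only [SA6, nthL, nth, Xf, BB]
  push_cast
  ring

theorem SA6_n2 (t l : ℝ) : BB * Xf ((9 / 4 : ℝ) + (3 / 4 : ℝ) * t)
    ((1 - l) * ((5 / 8 : ℝ) + (3 / 8 : ℝ) * t + (0 : ℝ) * t ^ 2) + l * ((165 / 256 : ℝ) + (91 / 256 : ℝ) * t)) 2 =
    ∑ j ∈ range 15, sw t l j * (nth (nthL SA6 2) j : ℝ) := by
  rw [sum_sw]
  simp only [SA6, nthL, nth, Xf, BB]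
  push_cast
  ring

theorem SA6_n3 (t l : ℝ) : BB * Xf ((9 / 4 : ℝ) + (3 / 4 : ℝ) * t)
    ((1 - l) * ((5 / 8 : ℝ) + (3 / 8 : ℝ) * t + (0 : ℝ) * t ^ 2) + l * ((165 / 256 : ℝ) + (91 / 256 : ℝ) * t)) 3 =
    ∑ j ∈ range 15, sw t l j * (nth (nthL SA6 3) j : ℝ) := by
  rw [sum_sw]
  simp only [SA6, nthL, nth, Xf, BB]
  push_cast
  ring

theorem SA6_n4 (t l : ℝ) : BB * Xf ((9 / 4 : ℝ) + (3 / 4 : ℝ) * t)
    ((1 - l) * ((5 / 8 : ℝ) + (3 / 8 : ℝ) * t + (0 : ℝ) * t ^ 2) + l * ((165 / 256 : ℝ) + (91 / 256 : ℝ) * t)) 4 =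
    ∑ j ∈ range 15, sw t l j * (nth (nthL SA6 4) j : ℝ) := by
  rw [sum_sw]
  simp only [SA6, nthL, nth, Xf, BB]
  push_cast
  ring

theorem SA6_n5 (t l : ℝ) : BB * Xf ((9 / 4 : ℝ) + (3 / 4 : ℝ) * t)
    ((1 - l) * ((5 / 8 : ℝ) + (3 / 8 : ℝ) * t + (0 : ℝ) * t ^ 2) + l * ((165 / 256 : ℝ) + (91 / 256 : ℝ) * t)) 5 =
    ∑ j ∈ range 15, sw t l j * (nth (nthL SA6 5) j : ℝ) := by
  rw [sum_sw]
  simp only [SA6, nthL, nth, Xf, BB]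
  push_cast
  ring

theorem SA6_n6 (t l : ℝ) : BB * Xf ((9 / 4 : ℝ) + (3 / 4 : ℝ) * t)
    ((1 - l) * ((5 / 8 : ℝ) + (3 / 8 : ℝ) * t + (0 : ℝ) * t ^ 2) + l * ((165 / 256 : ℝ) + (91 / 256 : ℝ) * t)) 6 =
    ∑ j ∈ range 15, sw t l j * (nth (nthL SA6 6) j : ℝ) := by
  rw [sum_sw]
  simp only [SA6, nthL, nth, Xf, BB]
  push_cast
  ring

theorem SA6_n7 (t l : ℝ) : BB * Xf ((9 / 4 : ℝ) + (3 / 4 : ℝ) * t)
    ((1 - l) * ((5 / 8 : ℝ) + (3 / 8 : ℝ) * t + (0 : ℝ) * t ^ 2) + l * ((165 / 256 : ℝ) + (91 / 256 : ℝ) * t)) 7 =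
    ∑ j ∈ range 15, sw t l j * (nth (nthL SA6 7) j : ℝ) := by
  rw [sum_sw]
  simp only [SA6, nthL, nth, Xf, BB]
  push_cast
  ring

theorem SA6_n8 (t l : ℝ) : BB * Xf ((9 / 4 : ℝ) + (3 / 4 : ℝ) * t)
    ((1 - l) * ((5 / 8 : ℝ) + (3 / 8 : ℝ) * t + (0 : ℝ) * t ^ 2) + l * ((165 / 256 : ℝ) + (91 / 256 : ℝ) * t)) 8 =
    ∑ j ∈ range 15, sw t l j * (nth (nthL SA6 8) j : ℝ) := by
  rw [sum_sw]
  simp only [SA6, nthL, nth, Xf, BB]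
  push_cast
  ring

theorem SA6_n9 (t l : ℝ) : BB * Xf ((9 / 4 : ℝ) + (3 / 4 : ℝ) * t)
    ((1 - l) * ((5 / 8 : ℝ) + (3 / 8 : ℝ) * t + (0 : ℝ) * t ^ 2) + l * ((165 / 256 : ℝ) + (91 / 256 : ℝ) * t)) 9 =
    ∑ j ∈ range 15, sw t l j * (nth (nthL SA6 9) j : ℝ) := by
  rw [sum_sw]
  simp only [SA6, nthL, nth, Xf, BB]
  push_cast
  ring

theorem SA6_n10 (t l : ℝ) : BB * Xf ((9 / 4 : ℝ) + (3 / 4 : ℝ) * t)
    ((1 - l) * ((5 / 8 : ℝ) + (3 / 8 : ℝ) * t + (0 : ℝ) * t ^ 2) + l * ((165 / 256 : ℝ) + (91 / 256 : ℝ) * t)) 10 =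
    ∑ j ∈ range 15, sw t l j * (nth (nthL SA6 10) j : ℝ) := by
  rw [sum_sw]
  simp only [SA6, nthL, nth, Xf, BB]
  push_cast
  ring

theorem SA6_ok : SliceOK SA6 (9 / 4 : ℝ) (3 : ℝ) := by
  intro x hs hx h0 h1
  obtain ⟨t, ht⟩ : ∃ t : ℝ, t = (xQ x - (9 / 4 : ℝ)) / (3 / 4 : ℝ) := ⟨_, rfl⟩
  have hQ : xQ x = ((9 / 4 : ℝ) + (3 / 4 : ℝ) * t) := by rw [ht]; ring
  have ht0 : 0 ≤ t := by rw [ht]; apply div_nonneg <;> linarith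
  have ht1 : t ≤ 1 := by rw [ht, div_le_one (by norm_num)]; linarith
  have hlo : ((5 / 8 : ℝ) + (3 / 8 : ℝ) * t + (0 : ℝ) * t ^ 2) ≤ xs x := by
    have h5 := xs_low1 x hs hx
    have e : ((5 / 8 : ℝ) + (3 / 8 : ℝ) * t + (0 : ℝ) * t ^ 2) = (xQ x - 1) / 2 := by rw [hQ]; ring
    rw [e]; exact h5
  have hup : xs x ≤ ((165 / 256 : ℝ) + (91 / 256 : ℝ) * t) := by
    have h5 := xs_up x hs hx (9 / 4, 3, 165 / 256, 1) (by simp [chords]) (by push_cast; linarith)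
      (by push_cast; linarith)
    have e : ((165 / 256 : ℝ) + (91 / 256 : ℝ) * t) = (165 / 256 : ℝ) + ((1 : ℝ) - (165 / 256 : ℝ)) * (xQ x - (9 / 4 : ℝ)) / ((3 : ℝ) - (9 / 4 : ℝ)) := by rw [hQ]; ring
    rw [e]
    push_cast at h5
    linarith
  obtain ⟨l, hl0, hl1, hl⟩ := exists_mix hlo hup
  refine ⟨sw t l, sw_nonneg ht0 ht1 hl0 hl1, ?_⟩
  intro f hf
  rw [hQ, hl]
  interval_cases f
  · exact SA6_n0 t l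
  · exact SA6_n1 t l
  · exact SA6_n2 t l
  · exact SA6_n3 t l
  · exact SA6_n4 t l
  · exact SA6_n5 t l
  · exact SA6_n6 t l
  · exact SA6_n7 t l
  · exact SA6_n8 t l
  · exact SA6_n9 t l
  · exact SA6_n10 t l

end Vale.Agent.Lib.P154.Q4.Net
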