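import Vale.Agent.Lib.P154.Ineq4.SliceBase
import Vale.Agent.Lib.P154.Ineq4.DatB

/-!
Bernstein nets of the shape features (B).
-/

namespace Vale.Agent.Lib.P154.Q4.Net

open scoped BigOperators
open Finset

theorem SB0_n0 (t l : ℝ) : BB * Xf ((1 / 3 : ℝ) + (11 / 48 : ℝ) * t)
    ((1 - l) * ((-1 / 27 : ℝ) + (11 / 432 : ℝ) * t + (-121 / 27648 : ℝ) * t ^ 2) + l * ((-1 / 27 : ℝ) + (391 / 6912 : ℝ) * t)) 0 =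
    ∑ j ∈ range 15, sw t l j * (nth (nthL SB0 0) j : ℝ) := by
  rw [sum_sw]
  simp only [SB0, nthL, nth, Xf, BB]
  push_cast
  ring

theorem SB0_n1 (t l : ℝ) : BB * Xf ((1 / 3 : ℝ) + (11 / 48 : ℝ) * t)
    ((1 - l) * ((-1 / 27 : ℝ) + (11 / 432 : ℝ) * t + (-121 / 27648 : ℝ) * t ^ 2) + l * ((-1 / 27 : ℝ) + (391 / 6912 : ℝ) * t)) 1 =
    ∑ j ∈ range 15, sw t l j * (nth (nthL SB0 1) j : ℝ) := by
  rw [sum_sw]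
  simp only [SB0, nthL, nth, Xf, BB]
  push_cast
  ring

theorem SB0_n2 (t l : ℝ) : BB * Xf ((1 / 3 : ℝ) + (11 / 48 : ℝ) * t)
    ((1 - l) * ((-1 / 27 : ℝ) + (11 / 432 : ℝ) * t + (-121 / 27648 : ℝ) * t ^ 2) + l * ((-1 / 27 : ℝ) + (391 / 6912 : ℝ) * t)) 2 =
    ∑ j ∈ range 15, sw t l j * (nth (nthL SB0 2) j : ℝ) := by
  rw [sum_sw]
  simp only [SB0, nthL, nth, Xf, BB]
  push_cast
  ring

theorem SB0_n3 (t l : ℝ) : BB * Xf ((1 / 3 : ℝ) + (11 / 48 : ℝ) * t)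
    ((1 - l) * ((-1 / 27 : ℝ) + (11 / 432 : ℝ) * t + (-121 / 27648 : ℝ) * t ^ 2) + l * ((-1 / 27 : ℝ) + (391 / 6912 : ℝ) * t)) 3 =
    ∑ j ∈ range 15, sw t l j * (nth (nthL SB0 3) j : ℝ) := by
  rw [sum_sw]
  simp only [SB0, nthL, nth, Xf, BB]
  push_cast
  ring

theorem SB0_n4 (t l : ℝ) : BB * Xf ((1 / 3 : ℝ) + (11 / 48 : ℝ) * t)
    ((1 - l) * ((-1 / 27 : ℝ) + (11 / 432 : ℝ) * t + (-121 / 27648 : ℝ) * t ^ 2) + l * ((-1 / 27 : ℝ) + (391 / 6912 : ℝ) * t)) 4 =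
    ∑ j ∈ range 15, sw t l j * (nth (nthL SB0 4) j : ℝ) := by
  rw [sum_sw]
  simp only [SB0, nthL, nth, Xf, BB]
  push_cast
  ring

theorem SB0_n5 (t l : ℝ) : BB * Xf ((1 / 3 : ℝ) + (11 / 48 : ℝ) * t)
    ((1 - l) * ((-1 / 27 : ℝ) + (11 / 432 : ℝ) * t + (-121 / 27648 : ℝ) * t ^ 2) + l * ((-1 / 27 : ℝ) + (391 / 6912 : ℝ) * t)) 5 =
    ∑ j ∈ range 15, sw t l j * (nth (nthL SB0 5) j : ℝ) := by
  rw [sum_sw]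
  simp only [SB0, nthL, nth, Xf, BB]
  push_cast
  ring

theorem SB0_n6 (t l : ℝ) : BB * Xf ((1 / 3 : ℝ) + (11 / 48 : ℝ) * t)
    ((1 - l) * ((-1 / 27 : ℝ) + (11 / 432 : ℝ) * t + (-121 / 27648 : ℝ) * t ^ 2) + l * ((-1 / 27 : ℝ) + (391 / 6912 : ℝ) * t)) 6 =
    ∑ j ∈ range 15, sw t l j * (nth (nthL SB0 6) j : ℝ) := by
  rw [sum_sw]
  simp only [SB0, nthL, nth, Xf, BB]
  push_cast
  ring

theorem SB0_n7 (t l : ℝ) : BB * Xf ((1 / 3 : ℝ) + (11 / 48 : ℝ) * t)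
    ((1 - l) * ((-1 / 27 : ℝ) + (11 / 432 : ℝ) * t + (-121 / 27648 : ℝ) * t ^ 2) + l * ((-1 / 27 : ℝ) + (391 / 6912 : ℝ) * t)) 7 =
    ∑ j ∈ range 15, sw t l j * (nth (nthL SB0 7) j : ℝ) := by
  rw [sum_sw]
  simp only [SB0, nthL, nth, Xf, BB]
  push_cast
  ring

theorem SB0_n8 (t l : ℝ) : BB * Xf ((1 / 3 : ℝ) + (11 / 48 : ℝ) * t)
    ((1 - l) * ((-1 / 27 : ℝ) + (11 / 432 : ℝ) * t + (-121 / 27648 : ℝ) * t ^ 2) + l * ((-1 / 27 : ℝ) + (391 / 6912 : ℝ) * t)) 8 =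
    ∑ j ∈ range 15, sw t l j * (nth (nthL SB0 8) j : ℝ) := by
  rw [sum_sw]
  simp only [SB0, nthL, nth, Xf, BB]
  push_cast
  ring

theorem SB0_n9 (t l : ℝ) : BB * Xf ((1 / 3 : ℝ) + (11 / 48 : ℝ) * t)
    ((1 - l) * ((-1 / 27 : ℝ) + (11 / 432 : ℝ) * t + (-121 / 27648 : ℝ) * t ^ 2) + l * ((-1 / 27 : ℝ) + (391 / 6912 : ℝ) * t)) 9 =
    ∑ j ∈ range 15, sw t l j * (nth (nthL SB0 9) j : ℝ) := by
  rw [sum_sw]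
  simp only [SB0, nthL, nth, Xf, BB]
  push_cast
  ring

theorem SB0_n10 (t l : ℝ) : BB * Xf ((1 / 3 : ℝ) + (11 / 48 : ℝ) * t)
    ((1 - l) * ((-1 / 27 : ℝ) + (11 / 432 : ℝ) * t + (-121 / 27648 : ℝ) * t ^ 2) + l * ((-1 / 27 : ℝ) + (391 / 6912 : ℝ) * t)) 10 =
    ∑ j ∈ range 15, sw t l j * (nth (nthL SB0 10) j : ℝ) := by
  rw [sum_sw]
  simp only [SB0, nthL, nth, Xf, BB]
  push_cast
  ring

theorem SB0_ok : SliceOK SB0 (1 / 3 : ℝ) (9 / 16 : ℝ) := by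
  intro x hs hx h0 h1
  obtain ⟨t, ht⟩ : ∃ t : ℝ, t = (xQ x - (1 / 3 : ℝ)) / (11 / 48 : ℝ) := ⟨_, rfl⟩
  have hQ : xQ x = ((1 / 3 : ℝ) + (11 / 48 : ℝ) * t) := by rw [ht]; ring
  have ht0 : 0 ≤ t := by rw [ht]; apply div_nonneg <;> linarith
  have ht1 : t ≤ 1 := by rw [ht, div_le_one (by norm_num)]; linarith
  have hlo : ((-1 / 27 : ℝ) + (11 / 432 : ℝ) * t + (-121 / 27648 : ℝ) * t ^ 2) ≤ xs x := by
    have h5 := (xs_low_kappa x hs hx (by linarith)).1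
    have e : ((-1 / 27 : ℝ) + (11 / 432 : ℝ) * t + (-121 / 27648 : ℝ) * t ^ 2) = -(1 / 12) * (1 - xQ x) ^ 2 := by rw [hQ]; ring
    rw [e]; exact h5
  have hup : xs x ≤ ((-1 / 27 : ℝ) + (391 / 6912 : ℝ) * t) := by
    have h5 := xs_up x hs hx (1 / 3, 9 / 16, -1 / 27, 5 / 256) (by simp [chords]) (by push_cast; linarith)
      (by push_cast; linarith)
    have e : ((-1 / 27 : ℝ) + (391 / 6912 : ℝ) * t) = (-1 / 27 : ℝ) + ((5 / 256 : ℝ) - (-1 / 27 : ℝ)) * (xQ x - (1 / 3 : ℝ)) / ((9 / 16 : ℝ) - (1 / 3 : ℝ)) := by rw [hQ]; ring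
    rw [e]
    push_cast at h5
    linarith
  obtain ⟨l, hl0, hl1, hl⟩ := exists_mix hlo hup
  refine ⟨sw t l, sw_nonneg ht0 ht1 hl0 hl1, ?_⟩
  intro f hf
  rw [hQ, hl]
  interval_cases f
  · exact SB0_n0 t l
  · exact SB0_n1 t l
  · exact SB0_n2 t l
  · exact SB0_n3 t l
  · exact SB0_n4 t l
  · exact SB0_n5 t l
  · exact SB0_n6 t l
  · exact SB0_n7 t l
  · exact SB0_n8 t l
  · exact SB0_n9 t l
  · exact SB0_n10 t l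

theorem SB1_n0 (t l : ℝ) : BB * Xf ((9 / 16 : ℝ) + (7 / 16 : ℝ) * t)
    ((1 - l) * ((-931 / 65536 : ℝ) + (931 / 32768 : ℝ) * t + (-931 / 65536 : ℝ) * t ^ 2) + l * ((5 / 256 : ℝ) + (33 / 256 : ℝ) * t)) 0 =
    ∑ j ∈ range 15, sw t l j * (nth (nthL SB1 0) j : ℝ) := by
  rw [sum_sw]
  simp only [SB1, nthL, nth, Xf, BB]
  push_cast
  ring

theorem SB1_n1 (t l : ℝ) : BB * Xf ((9 / 16 : ℝ) + (7 / 16 : ℝ) * t)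
    ((1 - l) * ((-931 / 65536 : ℝ) + (931 / 32768 : ℝ) * t + (-931 / 65536 : ℝ) * t ^ 2) + l * ((5 / 256 : ℝ) + (33 / 256 : ℝ) * t)) 1 =
    ∑ j ∈ range 15, sw t l j * (nth (nthL SB1 1) j : ℝ) := by
  rw [sum_sw]
  simp only [SB1, nthL, nth, Xf, BB]
  push_cast
  ring

theorem SB1_n2 (t l : ℝ) : BB * Xf ((9 / 16 : ℝ) + (7 / 16 : ℝ) * t)
    ((1 - l) * ((-931 / 65536 : ℝ) + (931 / 32768 : ℝ) * t + (-931 / 65536 : ℝ) * t ^ 2) + l * ((5 / 256 : ℝ) + (33 / 256 : ℝ) * t)) 2 =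
    ∑ j ∈ range 15, sw t l j * (nth (nthL SB1 2) j : ℝ) := by
  rw [sum_sw]
  simp only [SB1, nthL, nth, Xf, BB]
  push_cast
  ring

theorem SB1_n3 (t l : ℝ) : BB * Xf ((9 / 16 : ℝ) + (7 / 16 : ℝ) * t)
    ((1 - l) * ((-931 / 65536 : ℝ) + (931 / 32768 : ℝ) * t + (-931 / 65536 : ℝ) * t ^ 2) + l * ((5 / 256 : ℝ) + (33 / 256 : ℝ) * t)) 3 =
    ∑ j ∈ range 15, sw t l j * (nth (nthL SB1 3) j : ℝ) := by
  rw [sum_sw]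
  simp only [SB1, nthL, nth, Xf, BB]
  push_cast
  ring

theorem SB1_n4 (t l : ℝ) : BB * Xf ((9 / 16 : ℝ) + (7 / 16 : ℝ) * t)
    ((1 - l) * ((-931 / 65536 : ℝ) + (931 / 32768 : ℝ) * t + (-931 / 65536 : ℝ) * t ^ 2) + l * ((5 / 256 : ℝ) + (33 / 256 : ℝ) * t)) 4 =
    ∑ j ∈ range 15, sw t l j * (nth (nthL SB1 4) j : ℝ) := by
  rw [sum_sw]
  simp only [SB1, nthL, nth, Xf, BB]
  push_cast
  ring

theorem SB1_n5 (t l : ℝ) : BB * Xf ((9 / 16 : ℝ) + (7 / 16 : ℝ) * t)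
    ((1 - l) * ((-931 / 65536 : ℝ) + (931 / 32768 : ℝ) * t + (-931 / 65536 : ℝ) * t ^ 2) + l * ((5 / 256 : ℝ) + (33 / 256 : ℝ) * t)) 5 =
    ∑ j ∈ range 15, sw t l j * (nth (nthL SB1 5) j : ℝ) := by
  rw [sum_sw]
  simp only [SB1, nthL, nth, Xf, BB]
  push_cast
  ring

theorem SB1_n6 (t l : ℝ) : BB * Xf ((9 / 16 : ℝ) + (7 / 16 : ℝ) * t)
    ((1 - l) * ((-931 / 65536 : ℝ) + (931 / 32768 : ℝ) * t + (-931 / 65536 : ℝ) * t ^ 2) + l * ((5 / 256 : ℝ) + (33 / 256 : ℝ) * t)) 6 =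
    ∑ j ∈ range 15, sw t l j * (nth (nthL SB1 6) j : ℝ) := by
  rw [sum_sw]
  simp only [SB1, nthL, nth, Xf, BB]
  push_cast
  ring

theorem SB1_n7 (t l : ℝ) : BB * Xf ((9 / 16 : ℝ) + (7 / 16 : ℝ) * t)
    ((1 - l) * ((-931 / 65536 : ℝ) + (931 / 32768 : ℝ) * t + (-931 / 65536 : ℝ) * t ^ 2) + l * ((5 / 256 : ℝ) + (33 / 256 : ℝ) * t)) 7 =
    ∑ j ∈ range 15, sw t l j * (nth (nthL SB1 7) j : ℝ) := by
  rw [sum_sw]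
  simp only [SB1, nthL, nth, Xf, BB]
  push_cast
  ring

theorem SB1_n8 (t l : ℝ) : BB * Xf ((9 / 16 : ℝ) + (7 / 16 : ℝ) * t)
    ((1 - l) * ((-931 / 65536 : ℝ) + (931 / 32768 : ℝ) * t + (-931 / 65536 : ℝ) * t ^ 2) + l * ((5 / 256 : ℝ) + (33 / 256 : ℝ) * t)) 8 =
    ∑ j ∈ range 15, sw t l j * (nth (nthL SB1 8) j : ℝ) := by
  rw [sum_sw]
  simp only [SB1, nthL, nth, Xf, BB]
  push_cast
  ring

theorem SB1_n9 (t l : ℝ) : BB * Xf ((9 / 16 : ℝ) + (7 / 16 : ℝ) * t)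
    ((1 - l) * ((-931 / 65536 : ℝ) + (931 / 32768 : ℝ) * t + (-931 / 65536 : ℝ) * t ^ 2) + l * ((5 / 256 : ℝ) + (33 / 256 : ℝ) * t)) 9 =
    ∑ j ∈ range 15, sw t l j * (nth (nthL SB1 9) j : ℝ) := by
  rw [sum_sw]
  simp only [SB1, nthL, nth, Xf, BB]
  push_cast
  ring

theorem SB1_n10 (t l : ℝ) : BB * Xf ((9 / 16 : ℝ) + (7 / 16 : ℝ) * t)
    ((1 - l) * ((-931 / 65536 : ℝ) + (931 / 32768 : ℝ) * t + (-931 / 65536 : ℝ) * t ^ 2) + l * ((5 / 256 : ℝ) + (33 / 256 : ℝ) * t)) 10 =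
    ∑ j ∈ range 15, sw t l j * (nth (nthL SB1 10) j : ℝ) := by
  rw [sum_sw]
  simp only [SB1, nthL, nth, Xf, BB]
  push_cast
  ring

theorem SB1_ok : SliceOK SB1 (9 / 16 : ℝ) (1 : ℝ) := by
  intro x hs hx h0 h1
  obtain ⟨t, ht⟩ : ∃ t : ℝ, t = (xQ x - (9 / 16 : ℝ)) / (7 / 16 : ℝ) := ⟨_, rfl⟩
  have hQ : xQ x = ((9 / 16 : ℝ) + (7 / 16 : ℝ) * t) := by rw [ht]; ring
  have ht0 : 0 ≤ t := by rw [ht]; apply div_nonneg <;> linarith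
  have ht1 : t ≤ 1 := by rw [ht, div_le_one (by norm_num)]; linarith
  have hlo : ((-931 / 65536 : ℝ) + (931 / 32768 : ℝ) * t + (-931 / 65536 : ℝ) * t ^ 2) ≤ xs x := by
    have h5 := (xs_low_kappa x hs hx (by linarith)).2.1 h0
    have e : ((-931 / 65536 : ℝ) + (931 / 32768 : ℝ) * t + (-931 / 65536 : ℝ) * t ^ 2) = -(19 / 256) * (1 - xQ x) ^ 2 := by rw [hQ]; ring
    rw [e]; exact h5
  have hup : xs x ≤ ((5 / 256 : ℝ) + (33 / 256 : ℝ) * t) := by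
    have h5 := xs_up x hs hx (9 / 16, 1, 5 / 256, 19 / 128) (by simp [chords]) (by push_cast; linarith)
      (by push_cast; linarith)
    have e : ((5 / 256 : ℝ) + (33 / 256 : ℝ) * t) = (5 / 256 : ℝ) + ((19 / 128 : ℝ) - (5 / 256 : ℝ)) * (xQ x - (9 / 16 : ℝ)) / ((1 : ℝ) - (9 / 16 : ℝ)) := by rw [hQ]; ring
    rw [e]
    push_cast at h5
    linarith
  obtain ⟨l, hl0, hl1, hl⟩ := exists_mix hlo hup
  refine ⟨sw t l, sw_nonneg ht0 ht1 hl0 hl1, ?_⟩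
  intro f hf
  rw [hQ, hl]
  interval_cases f
  · exact SB1_n0 t l
  · exact SB1_n1 t l
  · exact SB1_n2 t l
  · exact SB1_n3 t l
  · exact SB1_n4 t l
  · exact SB1_n5 t l
  · exact SB1_n6 t l
  · exact SB1_n7 t l
  · exact SB1_n8 t l
  · exact SB1_n9 t l
  · exact SB1_n10 t l

theorem SB2_n0 (t l : ℝ) : BB * Xf ((1 : ℝ) + (1 / 2 : ℝ) * t)
    ((1 - l) * ((0 : ℝ) + (1 / 4 : ℝ) * t + (0 : ℝ) * t ^ 2) + l * ((19 / 128 : ℝ) + (47 / 256 : ℝ) * t)) 0 =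
    ∑ j ∈ range 15, sw t l j * (nth (nthL SB2 0) j : ℝ) := by
  rw [sum_sw]
  simp only [SB2, nthL, nth, Xf, BB]
  push_cast
  ring

theorem SB2_n1 (t l : ℝ) : BB * Xf ((1 : ℝ) + (1 / 2 : ℝ) * t)
    ((1 - l) * ((0 : ℝ) + (1 / 4 : ℝ) * t + (0 : ℝ) * t ^ 2) + l * ((19 / 128 : ℝ) + (47 / 256 : ℝ) * t)) 1 =
    ∑ j ∈ range 15, sw t l j * (nth (nthL SB2 1) j : ℝ) := by
  rw [sum_sw]
  simp only [SB2, nthL, nth, Xf, BB]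
  push_cast
  ring

theorem SB2_n2 (t l : ℝ) : BB * Xf ((1 : ℝ) + (1 / 2 : ℝ) * t)
    ((1 - l) * ((0 : ℝ) + (1 / 4 : ℝ) * t + (0 : ℝ) * t ^ 2) + l * ((19 / 128 : ℝ) + (47 / 256 : ℝ) * t)) 2 =
    ∑ j ∈ range 15, sw t l j * (nth (nthL SB2 2) j : ℝ) := by
  rw [sum_sw]
  simp only [SB2, nthL, nth, Xf, BB]
  push_cast
  ring

theorem SB2_n3 (t l : ℝ) : BB * Xf ((1 : ℝ) + (1 / 2 : ℝ) * t)
    ((1 - l) * ((0 : ℝ) + (1 / 4 : ℝ) * t + (0 : ℝ) * t ^ 2) + l * ((19 / 128 : ℝ) + (47 / 256 : ℝ) * t)) 3 =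
    ∑ j ∈ range 15, sw t l j * (nth (nthL SB2 3) j : ℝ) := by
  rw [sum_sw]
  simp only [SB2, nthL, nth, Xf, BB]
  push_cast
  ring

theorem SB2_n4 (t l : ℝ) : BB * Xf ((1 : ℝ) + (1 / 2 : ℝ) * t)
    ((1 - l) * ((0 : ℝ) + (1 / 4 : ℝ) * t + (0 : ℝ) * t ^ 2) + l * ((19 / 128 : ℝ) + (47 / 256 : ℝ) * t)) 4 =
    ∑ j ∈ range 15, sw t l j * (nth (nthL SB2 4) j : ℝ) := by
  rw [sum_sw]
  simp only [SB2, nthL, nth, Xf, BB]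
  push_cast
  ring

theorem SB2_n5 (t l : ℝ) : BB * Xf ((1 : ℝ) + (1 / 2 : ℝ) * t)
    ((1 - l) * ((0 : ℝ) + (1 / 4 : ℝ) * t + (0 : ℝ) * t ^ 2) + l * ((19 / 128 : ℝ) + (47 / 256 : ℝ) * t)) 5 =
    ∑ j ∈ range 15, sw t l j * (nth (nthL SB2 5) j : ℝ) := by
  rw [sum_sw]
  simp only [SB2, nthL, nth, Xf, BB]
  push_cast
  ring

theorem SB2_n6 (t l : ℝ) : BB * Xf ((1 : ℝ) + (1 / 2 : ℝ) * t)
    ((1 - l) * ((0 : ℝ) + (1 / 4 : ℝ) * t + (0 : ℝ) * t ^ 2) + l * ((19 / 128 : ℝ) + (47 / 256 : ℝ) * t)) 6 =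
    ∑ j ∈ range 15, sw t l j * (nth (nthL SB2 6) j : ℝ) := by
  rw [sum_sw]
  simp only [SB2, nthL, nth, Xf, BB]
  push_cast
  ring

theorem SB2_n7 (t l : ℝ) : BB * Xf ((1 : ℝ) + (1 / 2 : ℝ) * t)
    ((1 - l) * ((0 : ℝ) + (1 / 4 : ℝ) * t + (0 : ℝ) * t ^ 2) + l * ((19 / 128 : ℝ) + (47 / 256 : ℝ) * t)) 7 =
    ∑ j ∈ range 15, sw t l j * (nth (nthL SB2 7) j : ℝ) := by
  rw [sum_sw]
  simp only [SB2, nthL, nth, Xf, BB]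
  push_cast
  ring

theorem SB2_n8 (t l : ℝ) : BB * Xf ((1 : ℝ) + (1 / 2 : ℝ) * t)
    ((1 - l) * ((0 : ℝ) + (1 / 4 : ℝ) * t + (0 : ℝ) * t ^ 2) + l * ((19 / 128 : ℝ) + (47 / 256 : ℝ) * t)) 8 =
    ∑ j ∈ range 15, sw t l j * (nth (nthL SB2 8) j : ℝ) := by
  rw [sum_sw]
  simp only [SB2, nthL, nth, Xf, BB]
  push_cast
  ring

theorem SB2_n9 (t l : ℝ) : BB * Xf ((1 : ℝ) + (1 / 2 : ℝ) * t)
    ((1 - l) * ((0 : ℝ) + (1 / 4 : ℝ) * t + (0 : ℝ) * t ^ 2) + l * ((19 / 128 : ℝ) + (47 / 256 : ℝ) * t)) 9 =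
    ∑ j ∈ range 15, sw t l j * (nth (nthL SB2 9) j : ℝ) := by
  rw [sum_sw]
  simp only [SB2, nthL, nth, Xf, BB]
  push_cast
  ring

theorem SB2_n10 (t l : ℝ) : BB * Xf ((1 : ℝ) + (1 / 2 : ℝ) * t)
    ((1 - l) * ((0 : ℝ) + (1 / 4 : ℝ) * t + (0 : ℝ) * t ^ 2) + l * ((19 / 128 : ℝ) + (47 / 256 : ℝ) * t)) 10 =
    ∑ j ∈ range 15, sw t l j * (nth (nthL SB2 10) j : ℝ) := by
  rw [sum_sw]
  simp only [SB2, nthL, nth, Xf, BB]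
  push_cast
  ring

theorem SB2_ok : SliceOK SB2 (1 : ℝ) (3 / 2 : ℝ) := by
  intro x hs hx h0 h1
  obtain ⟨t, ht⟩ : ∃ t : ℝ, t = (xQ x - (1 : ℝ)) / (1 / 2 : ℝ) := ⟨_, rfl⟩
  have hQ : xQ x = ((1 : ℝ) + (1 / 2 : ℝ) * t) := by rw [ht]; ring
  have ht0 : 0 ≤ t := by rw [ht]; apply div_nonneg <;> linarith
  have ht1 : t ≤ 1 := by rw [ht, div_le_one (by norm_num)]; linarith
  have hlo : ((0 : ℝ) + (1 / 4 : ℝ) * t + (0 : ℝ) * t ^ 2) ≤ xs x := by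
    have h5 := xs_low1 x hs hx
    have e : ((0 : ℝ) + (1 / 4 : ℝ) * t + (0 : ℝ) * t ^ 2) = (xQ x - 1) / 2 := by rw [hQ]; ring
    rw [e]; exact h5
  have hup : xs x ≤ ((19 / 128 : ℝ) + (47 / 256 : ℝ) * t) := by
    have h5 := xs_up x hs hx (1, 3 / 2, 19 / 128, 85 / 256) (by simp [chords]) (by push_cast; linarith)
      (by push_cast; linarith)
    have e : ((19 / 128 : ℝ) + (47 / 256 : ℝ) * t) = (19 / 128 : ℝ) + ((85 / 256 : ℝ) - (19 / 128 : ℝ)) * (xQ x - (1 : ℝ)) / ((3 / 2 : ℝ) - (1 : ℝ)) := by rw [hQ]; ring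
    rw [e]
    push_cast at h5
    linarith
  obtain ⟨l, hl0, hl1, hl⟩ := exists_mix hlo hup
  refine ⟨sw t l, sw_nonneg ht0 ht1 hl0 hl1, ?_⟩
  intro f hf
  rw [hQ, hl]
  interval_cases f
  · exact SB2_n0 t l
  · exact SB2_n1 t l
  · exact SB2_n2 t l
  · exact SB2_n3 t l
  · exact SB2_n4 t l
  · exact SB2_n5 t l
  · exact SB2_n6 t l
  · exact SB2_n7 t l
  · exact SB2_n8 t l
  · exact SB2_n9 t l
  · exact SB2_n10 t l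

theorem SB3_n0 (t l : ℝ) : BB * Xf ((3 / 2 : ℝ) + (3 / 4 : ℝ) * t)
    ((1 - l) * ((1 / 4 : ℝ) + (3 / 8 : ℝ) * t + (0 : ℝ) * t ^ 2) + l * ((85 / 256 : ℝ) + (5 / 16 : ℝ) * t)) 0 =
    ∑ j ∈ range 15, sw t l j * (nth (nthL SB3 0) j : ℝ) := by
  rw [sum_sw]
  simp only [SB3, nthL, nth, Xf, BB]
  push_cast
  ring

theorem SB3_n1 (t l : ℝ) : BB * Xf ((3 / 2 : ℝ) + (3 / 4 : ℝ) * t)
    ((1 - l) * ((1 / 4 : ℝ) + (3 / 8 : ℝ) * t + (0 : ℝ) * t ^ 2) + l * ((85 / 256 : ℝ) + (5 / 16 : ℝ) * t)) 1 =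
    ∑ j ∈ range 15, sw t l j * (nth (nthL SB3 1) j : ℝ) := by
  rw [sum_sw]
  simp only [SB3, nthL, nth, Xf, BB]
  push_cast
  ring

theorem SB3_n2 (t l : ℝ) : BB * Xf ((3 / 2 : ℝ) + (3 / 4 : ℝ) * t)
    ((1 - l) * ((1 / 4 : ℝ) + (3 / 8 : ℝ) * t + (0 : ℝ) * t ^ 2) + l * ((85 / 256 : ℝ) + (5 / 16 : ℝ) * t)) 2 =
    ∑ j ∈ range 15, sw t l j * (nth (nthL SB3 2) j : ℝ) := by
  rw [sum_sw]
  simp only [SB3, nthL, nth, Xf, BB]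
  push_cast
  ring

theorem SB3_n3 (t l : ℝ) : BB * Xf ((3 / 2 : ℝ) + (3 / 4 : ℝ) * t)
    ((1 - l) * ((1 / 4 : ℝ) + (3 / 8 : ℝ) * t + (0 : ℝ) * t ^ 2) + l * ((85 / 256 : ℝ) + (5 / 16 : ℝ) * t)) 3 =
    ∑ j ∈ range 15, sw t l j * (nth (nthL SB3 3) j : ℝ) := by
  rw [sum_sw]
  simp only [SB3, nthL, nth, Xf, BB]
  push_cast
  ring

theorem SB3_n4 (t l : ℝ) : BB * Xf ((3 / 2 : ℝ) + (3 / 4 : ℝ) * t)
    ((1 - l) * ((1 / 4 : ℝ) + (3 / 8 : ℝ) * t + (0 : ℝ) * t ^ 2) + l * ((85 / 256 : ℝ) + (5 / 16 : ℝ) * t)) 4 =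
    ∑ j ∈ range 15, sw t l j * (nth (nthL SB3 4) j : ℝ) := by
  rw [sum_sw]
  simp only [SB3, nthL, nth, Xf, BB]
  push_cast
  ring

theorem SB3_n5 (t l : ℝ) : BB * Xf ((3 / 2 : ℝ) + (3 / 4 : ℝ) * t)
    ((1 - l) * ((1 / 4 : ℝ) + (3 / 8 : ℝ) * t + (0 : ℝ) * t ^ 2) + l * ((85 / 256 : ℝ) + (5 / 16 : ℝ) * t)) 5 =
    ∑ j ∈ range 15, sw t l j * (nth (nthL SB3 5) j : ℝ) := by
  rw [sum_sw]
  simp only [SB3, nthL, nth, Xf, BB]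
  push_cast
  ring

theorem SB3_n6 (t l : ℝ) : BB * Xf ((3 / 2 : ℝ) + (3 / 4 : ℝ) * t)
    ((1 - l) * ((1 / 4 : ℝ) + (3 / 8 : ℝ) * t + (0 : ℝ) * t ^ 2) + l * ((85 / 256 : ℝ) + (5 / 16 : ℝ) * t)) 6 =
    ∑ j ∈ range 15, sw t l j * (nth (nthL SB3 6) j : ℝ) := by
  rw [sum_sw]
  simp only [SB3, nthL, nth, Xf, BB]
  push_cast
  ring

theorem SB3_n7 (t l : ℝ) : BB * Xf ((3 / 2 : ℝ) + (3 / 4 : ℝ) * t)
    ((1 - l) * ((1 / 4 : ℝ) + (3 / 8 : ℝ) * t + (0 : ℝ) * t ^ 2) + l * ((85 / 256 : ℝ) + (5 / 16 : ℝ) * t)) 7 =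
    ∑ j ∈ range 15, sw t l j * (nth (nthL SB3 7) j : ℝ) := by
  rw [sum_sw]
  simp only [SB3, nthL, nth, Xf, BB]
  push_cast
  ring

theorem SB3_n8 (t l : ℝ) : BB * Xf ((3 / 2 : ℝ) + (3 / 4 : ℝ) * t)
    ((1 - l) * ((1 / 4 : ℝ) + (3 / 8 : ℝ) * t + (0 : ℝ) * t ^ 2) + l * ((85 / 256 : ℝ) + (5 / 16 : ℝ) * t)) 8 =
    ∑ j ∈ range 15, sw t l j * (nth (nthL SB3 8) j : ℝ) := by
  rw [sum_sw]
  simp only [SB3, nthL, nth, Xf, BB]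
  push_cast
  ring

theorem SB3_n9 (t l : ℝ) : BB * Xf ((3 / 2 : ℝ) + (3 / 4 : ℝ) * t)
    ((1 - l) * ((1 / 4 : ℝ) + (3 / 8 : ℝ) * t + (0 : ℝ) * t ^ 2) + l * ((85 / 256 : ℝ) + (5 / 16 : ℝ) * t)) 9 =
    ∑ j ∈ range 15, sw t l j * (nth (nthL SB3 9) j : ℝ) := by
  rw [sum_sw]
  simp only [SB3, nthL, nth, Xf, BB]
  push_cast
  ring

theorem SB3_n10 (t l : ℝ) : BB * Xf ((3 / 2 : ℝ) + (3 / 4 : ℝ) * t)
    ((1 - l) * ((1 / 4 : ℝ) + (3 / 8 : ℝ) * t + (0 : ℝ) * t ^ 2) + l * ((85 / 256 : ℝ) + (5 / 16 : ℝ) * t)) 10 =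
    ∑ j ∈ range 15, sw t l j * (nth (nthL SB3 10) j : ℝ) := by
  rw [sum_sw]
  simp only [SB3, nthL, nth, Xf, BB]
  push_cast
  ring

theorem SB3_ok : SliceOK SB3 (3 / 2 : ℝ) (9 / 4 : ℝ) := by
  intro x hs hx h0 h1
  obtain ⟨t, ht⟩ : ∃ t : ℝ, t = (xQ x - (3 / 2 : ℝ)) / (3 / 4 : ℝ) := ⟨_, rfl⟩
  have hQ : xQ x = ((3 / 2 : ℝ) + (3 / 4 : ℝ) * t) := by rw [ht]; ring
  have ht0 : 0 ≤ t := by rw [ht]; apply div_nonneg <;> linarith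
  have ht1 : t ≤ 1 := by rw [ht, div_le_one (by norm_num)]; linarith
  have hlo : ((1 / 4 : ℝ) + (3 / 8 : ℝ) * t + (0 : ℝ) * t ^ 2) ≤ xs x := by
    have h5 := xs_low1 x hs hx
    have e : ((1 / 4 : ℝ) + (3 / 8 : ℝ) * t + (0 : ℝ) * t ^ 2) = (xQ x - 1) / 2 := by rw [hQ]; ring
    rw [e]; exact h5
  have hup : xs x ≤ ((85 / 256 : ℝ) + (5 / 16 : ℝ) * t) := by
    have h5 := xs_up x hs hx (3 / 2, 9 / 4, 85 / 256, 165 / 256) (by simp [chords]) (by push_cast; linarith)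
      (by push_cast; linarith)
    have e : ((85 / 256 : ℝ) + (5 / 16 : ℝ) * t) = (85 / 256 : ℝ) + ((165 / 256 : ℝ) - (85 / 256 : ℝ)) * (xQ x - (3 / 2 : ℝ)) / ((9 / 4 : ℝ) - (3 / 2 : ℝ)) := by rw [hQ]; ring
    rw [e]
    push_cast at h5
    linarith
  obtain ⟨l, hl0, hl1, hl⟩ := exists_mix hlo hup
  refine ⟨sw t l, sw_nonneg ht0 ht1 hl0 hl1, ?_⟩
  intro f hf
  rw [hQ, hl]
  interval_cases f
  · exact SB3_n0 t l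
  · exact SB3_n1 t l
  · exact SB3_n2 t l
  · exact SB3_n3 t l
  · exact SB3_n4 t l
  · exact SB3_n5 t l
  · exact SB3_n6 t l
  · exact SB3_n7 t l
  · exact SB3_n8 t l
  · exact SB3_n9 t l
  · exact SB3_n10 t l

theorem SB4_n0 (t l : ℝ) : BB * Xf ((9 / 4 : ℝ) + (3 / 4 : ℝ) * t)
    ((1 - l) * ((5 / 8 : ℝ) + (3 / 8 : ℝ) * t + (0 : ℝ) * t ^ 2) + l * ((165 / 256 : ℝ) + (91 / 256 : ℝ) * t)) 0 =
    ∑ j ∈ range 15, sw t l j * (nth (nthL SB4 0) j : ℝ) := by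
  rw [sum_sw]
  simp only [SB4, nthL, nth, Xf, BB]
  push_cast
  ring

theorem SB4_n1 (t l : ℝ) : BB * Xf ((9 / 4 : ℝ) + (3 / 4 : ℝ) * t)
    ((1 - l) * ((5 / 8 : ℝ) + (3 / 8 : ℝ) * t + (0 : ℝ) * t ^ 2) + l * ((165 / 256 : ℝ) + (91 / 256 : ℝ) * t)) 1 =
    ∑ j ∈ range 15, sw t l j * (nth (nthL SB4 1) j : ℝ) := by
  rw [sum_sw]
  simp only [SB4, nthL, nth, Xf, BB]
  push_cast
  ring

theorem SB4_n2 (t l : ℝ) : BB * Xf ((9 / 4 : ℝ) + (3 / 4 : ℝ) * t)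
    ((1 - l) * ((5 / 8 : ℝ) + (3 / 8 : ℝ) * t + (0 : ℝ) * t ^ 2) + l * ((165 / 256 : ℝ) + (91 / 256 : ℝ) * t)) 2 =
    ∑ j ∈ range 15, sw t l j * (nth (nthL SB4 2) j : ℝ) := by
  rw [sum_sw]
  simp only [SB4, nthL, nth, Xf, BB]
  push_cast
  ring

theorem SB4_n3 (t l : ℝ) : BB * Xf ((9 / 4 : ℝ) + (3 / 4 : ℝ) * t)
    ((1 - l) * ((5 / 8 : ℝ) + (3 / 8 : ℝ) * t + (0 : ℝ) * t ^ 2) + l * ((165 / 256 : ℝ) + (91 / 256 : ℝ) * t)) 3 =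
    ∑ j ∈ range 15, sw t l j * (nth (nthL SB4 3) j : ℝ) := by
  rw [sum_sw]
  simp only [SB4, nthL, nth, Xf, BB]
  push_cast
  ring

theorem SB4_n4 (t l : ℝ) : BB * Xf ((9 / 4 : ℝ) + (3 / 4 : ℝ) * t)
    ((1 - l) * ((5 / 8 : ℝ) + (3 / 8 : ℝ) * t + (0 : ℝ) * t ^ 2) + l * ((165 / 256 : ℝ) + (91 / 256 : ℝ) * t)) 4 =
    ∑ j ∈ range 15, sw t l j * (nth (nthL SB4 4) j : ℝ) := by
  rw [sum_sw]
  simp only [SB4, nthL, nth, Xf, BB]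
  push_cast
  ring

theorem SB4_n5 (t l : ℝ) : BB * Xf ((9 / 4 : ℝ) + (3 / 4 : ℝ) * t)
    ((1 - l) * ((5 / 8 : ℝ) + (3 / 8 : ℝ) * t + (0 : ℝ) * t ^ 2) + l * ((165 / 256 : ℝ) + (91 / 256 : ℝ) * t)) 5 =
    ∑ j ∈ range 15, sw t l j * (nth (nthL SB4 5) j : ℝ) := by
  rw [sum_sw]
  simp only [SB4, nthL, nth, Xf, BB]
  push_cast
  ring

theorem SB4_n6 (t l : ℝ) : BB * Xf ((9 / 4 : ℝ) + (3 / 4 : ℝ) * t)
    ((1 - l) * ((5 / 8 : ℝ) + (3 / 8 : ℝ) * t + (0 : ℝ) * t ^ 2) + l * ((165 / 256 : ℝ) + (91 / 256 : ℝ) * t)) 6 =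
    ∑ j ∈ range 15, sw t l j * (nth (nthL SB4 6) j : ℝ) := by
  rw [sum_sw]
  simp only [SB4, nthL, nth, Xf, BB]
  push_cast
  ring

theorem SB4_n7 (t l : ℝ) : BB * Xf ((9 / 4 : ℝ) + (3 / 4 : ℝ) * t)
    ((1 - l) * ((5 / 8 : ℝ) + (3 / 8 : ℝ) * t + (0 : ℝ) * t ^ 2) + l * ((165 / 256 : ℝ) + (91 / 256 : ℝ) * t)) 7 =
    ∑ j ∈ range 15, sw t l j * (nth (nthL SB4 7) j : ℝ) := by
  rw [sum_sw]
  simp only [SB4, nthL, nth, Xf, BB]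
  push_cast
  ring

theorem SB4_n8 (t l : ℝ) : BB * Xf ((9 / 4 : ℝ) + (3 / 4 : ℝ) * t)
    ((1 - l) * ((5 / 8 : ℝ) + (3 / 8 : ℝ) * t + (0 : ℝ) * t ^ 2) + l * ((165 / 256 : ℝ) + (91 / 256 : ℝ) * t)) 8 =
    ∑ j ∈ range 15, sw t l j * (nth (nthL SB4 8) j : ℝ) := by
  rw [sum_sw]
  simp only [SB4, nthL, nth, Xf, BB]
  push_cast
  ring

theorem SB4_n9 (t l : ℝ) : BB * Xf ((9 / 4 : ℝ) + (3 / 4 : ℝ) * t)
    ((1 - l) * ((5 / 8 : ℝ) + (3 / 8 : ℝ) * t + (0 : ℝ) * t ^ 2) + l * ((165 / 256 : ℝ) + (91 / 256 : ℝ) * t)) 9 =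
    ∑ j ∈ range 15, sw t l j * (nth (nthL SB4 9) j : ℝ) := by
  rw [sum_sw]
  simp only [SB4, nthL, nth, Xf, BB]
  push_cast
  ring

theorem SB4_n10 (t l : ℝ) : BB * Xf ((9 / 4 : ℝ) + (3 / 4 : ℝ) * t)
    ((1 - l) * ((5 / 8 : ℝ) + (3 / 8 : ℝ) * t + (0 : ℝ) * t ^ 2) + l * ((165 / 256 : ℝ) + (91 / 256 : ℝ) * t)) 10 =
    ∑ j ∈ range 15, sw t l j * (nth (nthL SB4 10) j : ℝ) := by
  rw [sum_sw]
  simp only [SB4, nthL, nth, Xf, BB]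
  push_cast
  ring

theorem SB4_ok : SliceOK SB4 (9 / 4 : ℝ) (3 : ℝ) := by
  intro x hs hx h0 h1
  obtain ⟨t, ht⟩ : ∃ t : ℝ, t = (xQ x - (9 / 4 : ℝ)) / (3 / 4 : ℝ) := ⟨_, rfl⟩
  have hQ : xQ x = ((9 / 4 : ℝ) + (3 / 4 : ℝ) * t) := by rw [ht]; ring
  have ht0 : 0 ≤ t := by rw [ht]; apply div_nonneg <;> linarith
  have ht1 : t ≤ 1 := by rw [ht, div_le_one (by norm_num)]; linarith
  have hlo : ((5 / 8 : ℝ) + (3 / 8 : ℝ) * t + (0 : ℝ) * t ^ 2) ≤ xs x := by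
    have h5 := xs_low1 x hs hx
    have e : ((5 / 8 : ℝ) + (3 / 8 : ℝ) * t + (0 : ℝ) * t ^ 2) = (xQ x - 1) / 2 := by rw [hQ]; ring
    rw [e]; exact h5
  have hup : xs x ≤ ((165 / 256 : ℝ) + (91 / 256 : ℝ) * t) := by
    have h5 := xs_up x hs hx (9 / 4, 3, 165 / 256, 1) (by simp [chords]) (by push_cast; linarith)
      (by push_cast; linarith)
    have e : ((165 / 256 : ℝ) + (91 / 256 : ℝ) * t) = (165 / 256 : ℝ) + ((1 : ℝ) - (165 / 256 : ℝ)) * (xQ x - (9 / 4 : ℝ)) / ((3 : ℝ) - (9 / 4 : ℝ)) := by rw [hQ]; ring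
    rw [e]
    push_cast at h5
    linarith
  obtain ⟨l, hl0, hl1, hl⟩ := exists_mix hlo hup
  refine ⟨sw t l, sw_nonneg ht0 ht1 hl0 hl1, ?_⟩
  intro f hf
  rw [hQ, hl]
  interval_cases f
  · exact SB4_n0 t l
  · exact SB4_n1 t l
  · exact SB4_n2 t l
  · exact SB4_n3 t l
  · exact SB4_n4 t l
  · exact SB4_n5 t l
  · exact SB4_n6 t l
  · exact SB4_n7 t l
  · exact SB4_n8 t l
  · exact SB4_n9 t l
  · exact SB4_n10 t l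

end Vale.Agent.Lib.P154.Q4.Net
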