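import Vale.Agent.Lib.P154.Ineq4.CellReal

/-!
Bernstein weights of the shape domain.
-/

namespace Vale.Agent.Lib.P154.Q4.Net

open scoped BigOperators
open Finset

noncomputable def sw (t l : ℝ) (j : ℕ) : ℝ := bw 4 t (j / 3) * bw 2 l (j % 3)

theorem choI4 : choI 4 = [1, 4, 6, 4, 1] := by decide
theorem choI2 : choI 2 = [1, 2, 1] := by decide

theorem sum_sw (t l : ℝ) (x : ℕ → ℝ) : ∑ j ∈ range 15, sw t l j * x j =
    (1 - t) ^ 4 * ((1 - l) ^ 2 * x 0 + 2 * (1 - l) * l * x 1 + l ^ 2 * x 2) +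
    4 * (1 - t) ^ 3 * t * ((1 - l) ^ 2 * x 3 + 2 * (1 - l) * l * x 4 + l ^ 2 * x 5) +
    6 * (1 - t) ^ 2 * t ^ 2 * ((1 - l) ^ 2 * x 6 + 2 * (1 - l) * l * x 7 + l ^ 2 * x 8) +
    4 * (1 - t) * t ^ 3 * ((1 - l) ^ 2 * x 9 + 2 * (1 - l) * l * x 10 + l ^ 2 * x 11) +
    t ^ 4 * ((1 - l) ^ 2 * x 12 + 2 * (1 - l) * l * x 13 + l ^ 2 * x 14) := by
  simp only [sum_range_succ, sum_range_zero, sw, bw, choI4, choI2]
  norm_num [nth]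
  ring

theorem sw_nonneg {t l : ℝ} (ht0 : 0 ≤ t) (ht1 : t ≤ 1) (hl0 : 0 ≤ l) (hl1 : l ≤ 1) (j : ℕ) :
    0 ≤ sw t l j :=
  mul_nonneg (bw_nonneg 4 t ht0 ht1 _) (bw_nonneg 2 l hl0 hl1 _)

theorem exists_mix {lo up s : ℝ} (h1 : lo ≤ s) (h2 : s ≤ up) :
    ∃ l : ℝ, 0 ≤ l ∧ l ≤ 1 ∧ s = (1 - l) * lo + l * up := by
  rcases eq_or_lt_of_le (h1.trans h2) with h | h
  · exact ⟨0, le_rfl, zero_le_one, by linarith⟩
  · refine ⟨(s - lo) / (up - lo), ?_, ?_, ?_⟩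
    · apply div_nonneg <;> linarith
    · rw [div_le_one (by linarith)]; linarith
    · have : up - lo ≠ 0 := by linarith
      field_simp
      ring

end Vale.Agent.Lib.P154.Q4.Net
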