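import Vale.Agent.Lib.P154.Ineq4.Relax

/-!
The star product in terms of normalised vectors.
-/

namespace Vale.Agent.Lib.P154.Q4

open scoped BigOperators

/-- homogeneous extension of a functional of normalised vectors -/
noncomputable def hat (F : (Fin 4 → ℝ) → ℝ) (W : Fin 4 → ℝ) : ℝ :=
  mean 4 W * F (fun i => W i / mean 4 W)

theorem sum_perm_apply (f : Fin 4 → ℝ) (i : Fin 4) :
    ∑ g : Equiv.Perm (Fin 4), f (g i) = 6 * ∑ j, f j := by
  have h0 := sum_perm (fun a _ _ _ => f a)
  have h1 := sum_perm (fun _ b _ _ => f b)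
  have h2 := sum_perm (fun _ _ c _ => f c)
  have h3 := sum_perm (fun _ _ _ d => f d)
  rw [Fin.sum_univ_four]
  fin_cases i
  · simp only [Fin.zero_eta]; rw [h0]; ring
  · simp only [Fin.mk_one]; rw [h1]; ring
  · have : (⟨2, by norm_num⟩ : Fin 4) = 2 := rfl
    simp only [this]; rw [h2]; ring
  · have : (⟨3, by norm_num⟩ : Fin 4) = 3 := rfl
    simp only [this]; rw [h3]; ring

theorem mul_log_mul {a b : ℝ} :
    a * b * Real.log (a * b) = a * Real.log a * b + a * (b * Real.log b) := by
  rcases eq_or_ne a 0 with rfl | ha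
  · simp
  rcases eq_or_ne b 0 with rfl | hb
  · simp
  rw [Real.log_mul ha hb]
  ring

/-- chain rule for the relative entropy -/
theorem ent_chain (y z : Fin 4 → ℝ) (hy : Nrm y) (hz : Nrm z) :
    avg (fun g => (∑ i, (y i * z (g i)) * Real.log (y i * z (g i))) / 4) = ent y + ent z := by
  unfold avg ent
  have e : ∀ g : Equiv.Perm (Fin 4), (∑ i, (y i * z (g i)) * Real.log (y i * z (g i))) / 4 =
      ∑ i, ((y i * Real.log (y i)) / 4 * z (g i) + y i / 4 * (z (g i) * Real.log (z (g i)))) := by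
    intro g
    rw [Finset.sum_div]
    refine Finset.sum_congr rfl fun i _ => ?_
    rw [mul_log_mul]
    ring
  simp only [e]
  rw [Finset.sum_comm]
  have e2 : ∀ i, ∑ g : Equiv.Perm (Fin 4), ((y i * Real.log (y i)) / 4 * z (g i) +
      y i / 4 * (z (g i) * Real.log (z (g i)))) =
      (y i * Real.log (y i)) / 4 * 24 + y i / 4 * (6 * ∑ j, z j * Real.log (z j)) := by
    intro i
    rw [Finset.sum_add_distrib, ← Finset.mul_sum, ← Finset.mul_sum, sum_perm_apply z i, hz.2,
      sum_perm_apply (fun j => z j * Real.log (z j)) i]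
    ring
  simp only [e2]
  rw [Finset.sum_add_distrib, ← Finset.sum_mul, ← Finset.sum_mul, ← Finset.sum_div,
    ← Finset.sum_div, hy.2]
  ring

theorem a_zero {y z : Fin 4 → ℝ} (hy : Nrm y) (hz : Nrm z) {g : Equiv.Perm (Fin 4)}
    (h : Sg y z g = 0) (i : Fin 4) : y i * z (g i) = 0 := by
  unfold Sg at h
  have h2 : ∑ i, y i * z (g i) = 0 := by linarith
  exact (Finset.sum_eq_zero_iff_of_nonneg fun j _ => mul_nonneg (hy.1 j) (hz.1 _)).1 h2 i
    (Finset.mem_univ i)

theorem star_I2 (y z : Fin 4 → ℝ) (hy : Nrm y) (hz : Nrm z) (g : Equiv.Perm (Fin 4)) :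
    Sg y z g * (I2 (fun i => y i * z (g i) / Sg y z g) / 3) = Vg y z g / (3 * Sg y z g) := by
  rcases (Sg_nonneg y z hy hz g).lt_or_eq with hS | hS
  · have hne : Sg y z g ≠ 0 := hS.ne'
    have e : I2 (fun i => y i * z (g i) / Sg y z g) = Vg y z g / Sg y z g ^ 2 := by
      unfold I2 Vg
      obtain ⟨a, ha⟩ : ∃ a : Fin 4 → ℝ, ∀ i, a i = y i * z (g i) := ⟨_, fun _ => rfl⟩
      have hs : Sg y z g = (a 0 + a 1 + a 2 + a 3) / 4 := by
        unfold Sg; rw [Fin.sum_univ_four]; simp only [ha]
      simp only [← ha, Fin.sum_univ_four]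
      obtain ⟨S, hSd⟩ : ∃ S, S = Sg y z g := ⟨_, rfl⟩
      rw [← hSd] at hs hne ⊢
      have h4 : a 3 = 4 * S - a 0 - a 1 - a 2 := by linarith
      rw [h4]
      field_simp
      ring
    rw [e]
    field_simp
  · rw [← hS]; simp

theorem star_zeta_pt (y z : Fin 4 → ℝ) (hy : Nrm y) (hz : Nrm z) (g : Equiv.Perm (Fin 4)) :
    Sg y z g * zeta (fun i => y i * z (g i) / Sg y z g) =
      Vg y z g / (2 * Sg y z g) + Sg y z g * Real.log (Sg y z g) -
        (∑ i, (y i * z (g i)) * Real.log (y i * z (g i))) / 4 := by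
  rcases (Sg_nonneg y z hy hz g).lt_or_eq with hS | hS
  · have hne : Sg y z g ≠ 0 := hS.ne'
    have h2 := star_I2 y z hy hz g
    have e1 : Sg y z g * (I2 (fun i => y i * z (g i) / Sg y z g) / 2) =
        Vg y z g / (2 * Sg y z g) := by
      have : Sg y z g * (I2 (fun i => y i * z (g i) / Sg y z g) / 2) =
        3 / 2 * (Sg y z g * (I2 (fun i => y i * z (g i) / Sg y z g) / 3)) := by ring
      rw [this, h2]
      field_simp
    have e2 : Sg y z g * ent (fun i => y i * z (g i) / Sg y z g) =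
        (∑ i, (y i * z (g i)) * Real.log (y i * z (g i))) / 4 -
          Sg y z g * Real.log (Sg y z g) := by
      unfold ent
      have e3 : ∀ i, y i * z (g i) / Sg y z g * Real.log (y i * z (g i) / Sg y z g) =
          ((y i * z (g i)) * Real.log (y i * z (g i)) - y i * z (g i) * Real.log (Sg y z g)) /
            Sg y z g := by
        intro i
        rcases eq_or_ne (y i * z (g i)) 0 with h0 | h0
        · rw [h0]; simp
        · rw [Real.log_div h0 hne]; ring
      simp only [e3]
      rw [← Finset.sum_div, Finset.sum_sub_distrib, ← Finset.sum_mul]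
      have e4 : ∑ i, y i * z (g i) = 4 * Sg y z g := by unfold Sg; ring
      rw [e4]
      field_simp
    unfold zeta
    rw [mul_sub, e1, e2]
    ring
  · have h0 : ∀ i, y i * z (g i) = 0 := a_zero hy hz hS.symm
    have hV : Vg y z g = 0 := by
      unfold Vg
      rw [← hS]
      simp [h0]
    rw [hV, ← hS]
    simp [h0]

theorem star_zeta (y z : Fin 4 → ℝ) (hy : Nrm y) (hz : Nrm z) :
    avg (fun g => Sg y z g * zeta (fun i => y i * z (g i) / Sg y z g)) =
      avg (fun g => Vg y z g / (2 * Sg y z g) + Sg y z g * Real.log (Sg y z g)) -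
        ent y - ent z := by
  have h := ent_chain y z hy hz
  have e : avg (fun g => Sg y z g * zeta (fun i => y i * z (g i) / Sg y z g)) =
      avg (fun g => Vg y z g / (2 * Sg y z g) + Sg y z g * Real.log (Sg y z g)) -
        avg (fun g => (∑ i, (y i * z (g i)) * Real.log (y i * z (g i))) / 4) := by
    unfold avg
    rw [← sub_div, ← Finset.sum_sub_distrib]
    congr 1
    refine Finset.sum_congr rfl fun g _ => ?_
    exact star_zeta_pt y z hy hz g
  rw [e, h]
  ring

theorem starAvg_hat (F : (Fin 4 → ℝ) → ℝ) (W W' : Fin 4 → ℝ) (hm : 0 < mean 4 W)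
    (hm' : 0 < mean 4 W') :
    starAvg 4 (hat F) W W' = mean 4 W * mean 4 W' *
      avg (fun g => Sg (fun i => W i / mean 4 W) (fun i => W' i / mean 4 W') g *
        F (fun i => (W i / mean 4 W) * (W' (g i) / mean 4 W') /
          Sg (fun i => W i / mean 4 W) (fun i => W' i / mean 4 W') g)) := by
  unfold starAvg avg
  have hf : (1 / (Nat.factorial 4 : ℝ)) = 1 / 24 := by norm_num [Nat.factorial]
  rw [hf, Finset.mul_sum, Finset.sum_div, Finset.mul_sum]
  refine Finset.sum_congr rfl fun g _ => ?_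
  obtain ⟨m, hmd⟩ : ∃ m, m = mean 4 W := ⟨_, rfl⟩
  obtain ⟨m', hmd'⟩ : ∃ m', m' = mean 4 W' := ⟨_, rfl⟩
  rw [← hmd] at hm ⊢
  rw [← hmd'] at hm' ⊢
  have e : mean 4 (fun i => W i * W' (g i)) =
      m * m' * Sg (fun i => W i / m) (fun i => W' i / m') g := by
    unfold mean Sg
    rw [Fin.sum_univ_four, Fin.sum_univ_four]
    push_cast
    field_simp
  unfold hat
  rw [e]
  have e2 : (fun i => W i * W' (g i) / (m * m' * Sg (fun i => W i / m) (fun i => W' i / m') g)) =
      fun i => W i / m * (W' (g i) / m') / Sg (fun i => W i / m) (fun i => W' i / m') g := by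
    funext i
    rw [div_mul_div_comm, div_div]
  rw [e2]
  ring

end Vale.Agent.Lib.P154.Q4
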